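import Vale.Agent.KSat.Defs

/-! # P170: basic facts (piece B) -/

namespace KSat

open Finset

section avg
variable {α β : Type} [Fintype α] [Fintype β]

theorem avg_add (g h : α → ℝ) : avg (fun x => g x + h x) = avg g + avg h := by
  unfold avg
  rw [Finset.sum_add_distrib, add_div]

theorem avg_sub (g h : α → ℝ) : avg (fun x => g x - h x) = avg g - avg h := by
  unfold avg
  rw [Finset.sum_sub_distrib, sub_div]

theorem avg_mul_left (c : ℝ) (g : α → ℝ) : avg (fun x => c * g x) = c * avg g := by
  unfold avg
  rw [← Finset.mul_sum, mul_div_assoc]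

theorem avg_mul_right (c : ℝ) (g : α → ℝ) : avg (fun x => g x * c) = avg g * c := by
  unfold avg
  rw [← Finset.sum_mul, div_mul_eq_mul_div]

theorem avg_const [Nonempty α] (c : ℝ) : avg (fun _ : α => c) = c := by
  unfold avg
  have : (Fintype.card α : ℝ) ≠ 0 := by exact_mod_cast Fintype.card_ne_zero
  rw [Finset.sum_const, Finset.card_univ, nsmul_eq_mul]
  field_simp

theorem avg_mono {g h : α → ℝ} (H : ∀ x, g x ≤ h x) : avg g ≤ avg h := by
  unfold avg
  exact div_le_div_of_nonneg_right (Finset.sum_le_sum fun i _ => H i) (Nat.cast_nonneg _)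

theorem avg_nonneg {g : α → ℝ} (H : ∀ x, 0 ≤ g x) : 0 ≤ avg g :=
  div_nonneg (Finset.sum_nonneg fun i _ => H i) (Nat.cast_nonneg _)

theorem avg_le_one {g : α → ℝ} (H : ∀ x, g x ≤ 1) : avg g ≤ 1 := by
  unfold avg
  refine div_le_one_of_le₀ ?_ (Nat.cast_nonneg _)
  calc ∑ x, g x ≤ ∑ _x : α, (1 : ℝ) := Finset.sum_le_sum fun i _ => H i
    _ = (Fintype.card α : ℝ) := by simp

theorem avg_equiv (e : α ≃ β) (g : β → ℝ) : avg (fun x => g (e x)) = avg g := by
  unfold avg
  rw [Fintype.card_congr e, e.sum_comp g]

theorem avg_prod (g : α × β → ℝ) : avg g = avg (fun x => avg (fun y => g (x, y))) := by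
  unfold avg
  rw [Fintype.sum_prod_type, ← Finset.sum_div, div_div, Fintype.card_prod, Nat.cast_mul,
    mul_comm (Fintype.card α : ℝ)]

theorem avg_comm (g : α → β → ℝ) :
    avg (fun x => avg (fun y => g x y)) = avg (fun y => avg (fun x => g x y)) := by
  unfold avg
  simp only [← Finset.sum_div]
  rw [Finset.sum_comm, div_div, div_div, mul_comm]

theorem avg_cons {r : ℕ} (g : (Fin (r + 1) → α) → ℝ) :
    avg g = avg (fun x => avg (fun F : Fin r → α => g (Fin.cons x F))) := by
  rw [← avg_equiv (Fin.consEquiv (fun _ : Fin (r + 1) => α)) g, avg_prod]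
  rfl

/-- Independence: average of a product over independent coordinates. -/
theorem avg_pi_prod {k : ℕ} (h : Fin k → α → ℝ) :
    avg (fun F : Fin k → α => ∏ i, h i (F i)) = ∏ i, avg (h i) := by
  unfold avg
  rw [Finset.prod_div_distrib, Finset.prod_univ_sum, Fintype.piFinset_univ]
  congr 1
  simp

end avg

variable {V : Type} [Fintype V] [DecidableEq V]

theorem It_succ (k r : ℕ) (g : Finset (Asg V) → ℝ) (S : Finset (Asg V)) :
    It k (r + 1) g S = avg (fun C : Cl V k => It k r g (cut S C)) := rfl

theorem It_succ' (k r : ℕ) (g : Finset (Asg V) → ℝ) (S : Finset (Asg V)) :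
    It k (r + 1) g S = It k r (T k g) S := by
  induction r generalizing S with
  | zero => rfl
  | succ r ih =>
    rw [It_succ, It_succ]
    congr 1
    funext C
    exact ih _

theorem It_It (k r s : ℕ) (g : Finset (Asg V) → ℝ) (S : Finset (Asg V)) :
    It k r (It k s g) S = It k (r + s) g S := by
  induction r generalizing S with
  | zero => rw [Nat.zero_add]; rfl
  | succ r ih =>
    rw [show r + 1 + s = (r + s) + 1 by omega, It_succ, It_succ]
    congr 1
    funext C
    exact ih _

theorem It_add (k r : ℕ) (g h : Finset (Asg V) → ℝ) (S : Finset (Asg V)) :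
    It k r (fun K => g K + h K) S = It k r g S + It k r h S := by
  induction r generalizing S with
  | zero => rfl
  | succ r ih =>
    simp only [It_succ, ih]
    rw [avg_add]

theorem It_sub (k r : ℕ) (g h : Finset (Asg V) → ℝ) (S : Finset (Asg V)) :
    It k r (fun K => g K - h K) S = It k r g S - It k r h S := by
  induction r generalizing S with
  | zero => rfl
  | succ r ih =>
    simp only [It_succ, ih]
    rw [avg_sub]

theorem It_mul_left (k r : ℕ) (c : ℝ) (g : Finset (Asg V) → ℝ) (S : Finset (Asg V)) :
    It k r (fun K => c * g K) S = c * It k r g S := by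
  induction r generalizing S with
  | zero => rfl
  | succ r ih =>
    simp only [It_succ, ih]
    rw [avg_mul_left]

theorem It_const [Nonempty V] (k r : ℕ) (c : ℝ) (S : Finset (Asg V)) :
    It k r (fun _ => c) S = c := by
  induction r generalizing S with
  | zero => rfl
  | succ r ih =>
    simp only [It_succ, ih]
    exact avg_const c

theorem It_mono (k r : ℕ) {g h : Finset (Asg V) → ℝ} (H : ∀ K, g K ≤ h K) (S : Finset (Asg V)) :
    It k r g S ≤ It k r h S := by
  induction r generalizing S with
  | zero => exact H S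
  | succ r ih =>
    simp only [It_succ]
    exact avg_mono fun C => ih _

theorem It_nonneg (k r : ℕ) {g : Finset (Asg V) → ℝ} (H : ∀ K, 0 ≤ g K) (S : Finset (Asg V)) :
    0 ≤ It k r g S := by
  induction r generalizing S with
  | zero => exact H S
  | succ r ih =>
    simp only [It_succ]
    exact avg_nonneg fun C => ih _

theorem It_le_one (k r : ℕ) {g : Finset (Asg V) → ℝ} (H : ∀ K, g K ≤ 1) (S : Finset (Asg V)) :
    It k r g S ≤ 1 := by
  induction r generalizing S with
  | zero => exact H S
  | succ r ih =>
    simp only [It_succ]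
    exact avg_le_one fun C => ih _

/-- Averages over an auxiliary finite type commute with `It`. -/
theorem It_avg {α : Type} [Fintype α] (k r : ℕ) (g : α → Finset (Asg V) → ℝ)
    (S : Finset (Asg V)) :
    It k r (fun K => avg (fun x => g x K)) S = avg (fun x => It k r (g x) S) := by
  induction r generalizing S with
  | zero => rfl
  | succ r ih =>
    simp only [It_succ, ih]
    rw [avg_comm]

theorem cut_filter {k : ℕ} (p : Asg V → Prop) [DecidablePred p] (S : Finset (Asg V))
    (C : Cl V k) : cut (S.filter p) C = (cut S C).filter p := by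
  unfold cut
  rw [Finset.filter_comm]

/-- Filtering commutes with adding clauses. -/
theorem It_filter (k r : ℕ) (g : Finset (Asg V) → ℝ) (p : Asg V → Prop) [DecidablePred p]
    (S : Finset (Asg V)) :
    It k r g (S.filter p) = It k r (fun K => g (K.filter p)) S := by
  induction r generalizing S with
  | zero => rfl
  | succ r ih =>
    simp only [It_succ, cut_filter, ih]

theorem It_cut (k r : ℕ) (g : Finset (Asg V) → ℝ) (C : Cl V k) (S : Finset (Asg V)) :
    It k r g (cut S C) = It k r (fun K => g (cut K C)) S :=
  It_filter k r g (fun σ => ∃ i, σ (C i).1 = (C i).2) S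

theorem It_cutL (k r : ℕ) (g : Finset (Asg V) → ℝ) (a : Lit V) (S : Finset (Asg V)) :
    It k r g (cutL S a) = It k r (fun K => g (cutL K a)) S :=
  It_filter k r g (fun σ => σ a.1 = a.2) S

theorem cutF_cons {k r : ℕ} (S : Finset (Asg V)) (C : Cl V k) (F : Fin r → Cl V k) :
    cutF S (Fin.cons C F : Fin (r + 1) → Cl V k) = cutF (cut S C) F := by
  ext σ
  simp only [cutF, cut, Finset.mem_filter, Fin.forall_fin_succ, Fin.cons_zero, Fin.cons_succ]
  tauto

theorem It_eq_avg (k r : ℕ) (g : Finset (Asg V) → ℝ) (S : Finset (Asg V)) :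
    It k r g S = avg (fun F : Fin r → Cl V k => g (cutF S F)) := by
  induction r generalizing S with
  | zero =>
    have h : ∀ F : Fin 0 → Cl V k, g (cutF S F) = g S := by
      intro F
      congr 1
      ext σ
      simp [cutF]
    simp only [h]
    rw [avg_const]
    rfl
  | succ r ih =>
    rw [It_succ, avg_cons]
    simp only [ih, cutF_cons]

end KSat
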