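import Vale.Agent.KSat.BasicA

/-! # P170: basic facts (piece B3) -/

namespace KSat

open Finset

variable {V : Type} [Fintype V] [DecidableEq V]

theorem unsat_empty : unsat (∅ : Finset (Asg V)) = 1 := by
  simp [unsat]

theorem unsat_nonneg (S : Finset (Asg V)) : 0 ≤ unsat S := by
  unfold unsat; split_ifs <;> norm_num

theorem unsat_le_one (S : Finset (Asg V)) : unsat S ≤ 1 := by
  unfold unsat; split_ifs <;> norm_num

theorem unsat_anti {S S' : Finset (Asg V)} (h : S ⊆ S') : unsat S' ≤ unsat S := by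
  unfold unsat
  by_cases h' : S' = ∅
  · have : S = ∅ := by
      rw [h'] at h; exact Finset.subset_empty.mp h
    simp [h', this]
  · rw [if_neg h']; split_ifs <;> norm_num

theorem th_zero (k : ℕ) (S : Finset (Asg V)) : th k 0 S = unsat S := rfl

theorem th_succ (k r : ℕ) (S : Finset (Asg V)) :
    th k (r + 1) S = avg (fun C : Cl V k => th k r (cut S C)) := rfl

theorem It_th (k r s : ℕ) (S : Finset (Asg V)) : It k r (th k s) S = th k (r + s) S := by
  have h : (th k s : Finset (Asg V) → ℝ) = It k s unsat := rfl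
  rw [h, It_It]
  rfl

theorem cut_empty {k : ℕ} (C : Cl V k) : cut (∅ : Finset (Asg V)) C = ∅ := by
  simp [cut]

theorem cut_subset {k : ℕ} (S : Finset (Asg V)) (C : Cl V k) : cut S C ⊆ S :=
  Finset.filter_subset _ _

theorem cut_mono {k : ℕ} {S S' : Finset (Asg V)} (h : S ⊆ S') (C : Cl V k) :
    cut S C ⊆ cut S' C := Finset.filter_subset_filter _ h

theorem th_empty [Nonempty V] (k r : ℕ) : th k r (∅ : Finset (Asg V)) = 1 := by
  induction r with
  | zero => exact unsat_empty (V := V)
  | succ r ih =>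
    rw [th_succ]
    simp only [cut_empty, ih]
    exact avg_const 1

theorem th_nonneg (k r : ℕ) (S : Finset (Asg V)) : 0 ≤ th k r S :=
  It_nonneg k r unsat_nonneg S

theorem th_le_one (k r : ℕ) (S : Finset (Asg V)) : th k r S ≤ 1 :=
  It_le_one k r unsat_le_one S

theorem th_anti (k r : ℕ) {S S' : Finset (Asg V)} (h : S ⊆ S') : th k r S' ≤ th k r S := by
  induction r generalizing S S' with
  | zero => exact unsat_anti h
  | succ r ih =>
    rw [th_succ, th_succ]
    exact avg_mono fun C => ih (cut_mono h C)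

theorem th_mono_r [Nonempty V] (k : ℕ) {r s : ℕ} (h : r ≤ s) (S : Finset (Asg V)) :
    th k r S ≤ th k s S := by
  induction s, h using Nat.le_induction with
  | base => exact le_rfl
  | succ s _ ih =>
    refine ih.trans ?_
    rw [th_succ]
    calc th k s S = avg (fun _ : Cl V k => th k s S) := (avg_const _).symm
      _ ≤ _ := avg_mono fun C => th_anti k s (cut_subset S C)

/-- transport of assignments -/
def asgEquiv {W : Type} (e : V ≃ W) : Asg V ≃ Asg W := Equiv.arrowCongr e (Equiv.refl Bool)

/-- transport of clauses -/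
def clEquiv {W : Type} (e : V ≃ W) (k : ℕ) : Cl V k ≃ Cl W k :=
  Equiv.arrowCongr (Equiv.refl (Fin k)) (Equiv.prodCongr e (Equiv.refl Bool))

theorem cut_map {W : Type} [Fintype W] [DecidableEq W] (e : V ≃ W) {k : ℕ} (S : Finset (Asg V))
    (C : Cl V k) :
    cut (S.map (asgEquiv e).toEmbedding) (clEquiv e k C)
      = (cut S C).map (asgEquiv e).toEmbedding := by
  ext σ
  simp only [cut, Finset.mem_filter, Finset.mem_map_equiv]
  have h : (∃ i, σ ((clEquiv e k C) i).1 = ((clEquiv e k C) i).2)
      ↔ ∃ i, (asgEquiv e).symm σ (C i).1 = (C i).2 := by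
    rfl
  rw [h]

theorem th_map {W : Type} [Fintype W] [DecidableEq W] (e : V ≃ W) (k m : ℕ)
    (S : Finset (Asg V)) :
    th k m (S.map (asgEquiv e).toEmbedding) = th k m S := by
  induction m generalizing S with
  | zero =>
    rw [th_zero, th_zero]
    unfold unsat
    by_cases h : S = ∅
    · simp [h]
    · have h' : S.map (asgEquiv e).toEmbedding ≠ ∅ := by
        simpa using h
      rw [if_neg h, if_neg h']
  | succ m ih =>
    rw [th_succ, th_succ, ← avg_equiv (clEquiv e k)]
    congr 1
    ext C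
    rw [cut_map, ih]

/-- The death probability depends only on the number of variables. -/
theorem th_univ_eq (k m : ℕ) : th k m (univ : Finset (Asg V)) = u k (Fintype.card V) m := by
  unfold u
  rw [← th_map (Fintype.equivFin V) k m univ]
  congr 1
  ext σ
  simp [Finset.mem_map_equiv]

theorem u_nonneg (k n m : ℕ) : 0 ≤ u k n m := th_nonneg _ _ _

theorem u_le_one (k n m : ℕ) : u k n m ≤ 1 := th_le_one _ _ _

theorem u_zero (k n : ℕ) : u k n 0 = 0 := by
  unfold u
  rw [th_zero]
  unfold unsat
  rw [if_neg]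
  exact Finset.Nonempty.ne_empty ⟨fun _ => true, Finset.mem_univ _⟩

theorem u_mono (k : ℕ) {n : ℕ} (hn : 1 ≤ n) {m m' : ℕ} (h : m ≤ m') : u k n m ≤ u k n m' := by
  have : Nonempty (Fin n) := ⟨⟨0, hn⟩⟩
  exact th_mono_r k h _

theorem NN_nonneg (k L T' : ℕ) (S : Finset (Asg V)) (a : Lit V) : 0 ≤ NN k L T' S a := by
  refine It_nonneg k L (fun K => mul_nonneg (unsat_nonneg _) ?_) S
  linarith [th_le_one k T' K]

theorem NN_le_one (k L T' : ℕ) (S : Finset (Asg V)) (a : Lit V) : NN k L T' S a ≤ 1 := by
  refine It_le_one k L (fun K => ?_) S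
  have h1 := unsat_le_one (cutL K a)
  have h2 := unsat_nonneg (cutL K a)
  have h3 := th_nonneg k T' K
  have h4 := th_le_one k T' K
  nlinarith

end KSat
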