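import Mathlib

/-!
# P170 / Bin: binomial weights and Chebyshev
-/

open Finset

namespace KSatLim

/-- binomial weight -/
noncomputable def bin (m : ℕ) (p : ℝ) (M : ℕ) : ℝ := (m.choose M : ℝ) * p ^ M * (1 - p) ^ (m - M)

theorem bin_nonneg {m : ℕ} {p : ℝ} (h0 : 0 ≤ p) (h1 : p ≤ 1) (M : ℕ) : 0 ≤ bin m p M := by
  have : 0 ≤ 1 - p := by linarith
  unfold bin
  positivity

theorem bin_sum (m : ℕ) (p : ℝ) : ∑ M ∈ range (m + 1), bin m p M = 1 := by
  have h := add_pow p (1 - p) m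
  rw [show p + (1 - p) = 1 by ring, one_pow] at h
  rw [h]
  refine Finset.sum_congr rfl fun M _ => ?_
  unfold bin
  ring

theorem bin_var (m : ℕ) {p : ℝ} (h0 : 0 ≤ p) (h1 : p ≤ 1) :
    ∑ M ∈ range (m + 1), ((M : ℝ) - m * p) ^ 2 * bin m p M = m * p * (1 - p) := by
  rcases Nat.eq_zero_or_pos m with rfl | hm
  · simp [bin]
  · have h := bernstein.variance (n := m) hm.ne' ⟨p, h0, h1⟩
    simp only [bernstein_apply] at h
    have hm0 : (0 : ℝ) < m := by exact_mod_cast hm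
    have h2 : ∑ M ∈ range (m + 1), ((M : ℝ) - m * p) ^ 2 * bin m p M =
        (m : ℝ) ^ 2 * (p * (1 - p) / m) := by
      rw [← h, Finset.mul_sum, Finset.sum_range]
      refine Finset.sum_congr rfl fun M _ => ?_
      simp only [bernstein.z, bin]
      have : ((p : ℝ) - (M : ℝ) / m) ^ 2 * (m : ℝ) ^ 2 = ((M : ℝ) - m * p) ^ 2 := by
        field_simp
        ring
      rw [← this]
      ring
    rw [h2]
    field_simp

/-- Chebyshev -/
theorem bin_cheb (m : ℕ) {p t : ℝ} (h0 : 0 ≤ p) (h1 : p ≤ 1) (ht : 0 < t) :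
    ∑ M ∈ (range (m + 1)).filter (fun M : ℕ => t ≤ |(M : ℝ) - m * p|), bin m p M ≤
      m / (4 * t ^ 2) := by
  have hv := bin_var m h0 h1
  have h2 : t ^ 2 * ∑ M ∈ (range (m + 1)).filter (fun M : ℕ => t ≤ |(M : ℝ) - m * p|), bin m p M ≤
      m * p * (1 - p) := by
    rw [← hv, Finset.mul_sum]
    calc ∑ M ∈ (range (m + 1)).filter (fun M : ℕ => t ≤ |(M : ℝ) - m * p|), t ^ 2 * bin m p M
        ≤ ∑ M ∈ (range (m + 1)).filter (fun M : ℕ => t ≤ |(M : ℝ) - m * p|),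
          ((M : ℝ) - m * p) ^ 2 * bin m p M := by
          refine Finset.sum_le_sum fun M hM => ?_
          have h3 := (Finset.mem_filter.1 hM).2
          have h4 : t ^ 2 ≤ ((M : ℝ) - m * p) ^ 2 := by
            rw [← sq_abs ((M : ℝ) - m * p)]
            exact pow_le_pow_left₀ ht.le h3 2
          exact mul_le_mul_of_nonneg_right h4 (bin_nonneg h0 h1 M)
      _ ≤ _ := Finset.sum_le_sum_of_subset_of_nonneg (Finset.filter_subset _ _)
          fun M _ _ => mul_nonneg (sq_nonneg _) (bin_nonneg h0 h1 M)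
  have h5 : p * (1 - p) ≤ 1 / 4 := by nlinarith [sq_nonneg (p - 1 / 2)]
  have hm0 : (0 : ℝ) ≤ m := Nat.cast_nonneg m
  rw [le_div_iff₀ (by positivity)]
  nlinarith

/-- lower bound of a binomial average: if `f ≥ b` near the mean, `f ≥ 0` and the probability of
the bad event is at most `1/8` -/
theorem bin_avg_ge (m : ℕ) {p t b : ℝ} (h0 : 0 ≤ p) (h1 : p ≤ 1) (ht : 0 < t) (hb : 0 ≤ b)
    (hm : (m : ℝ) ≤ t ^ 2 / 2) (f : ℕ → ℝ) (hf0 : ∀ M, 0 ≤ f M)
    (hf : ∀ M ≤ m, |(M : ℝ) - m * p| < t → b ≤ f M) :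
    7 / 8 * b ≤ ∑ M ∈ range (m + 1), bin m p M * f M := by
  have hc := bin_cheb m h0 h1 ht
  have hc2 : (m : ℝ) / (4 * t ^ 2) ≤ 1 / 8 := by
    rw [div_le_div_iff₀ (by positivity) (by norm_num)]
    linarith
  have hs := bin_sum m p
  rw [← Finset.sum_filter_add_sum_filter_not (range (m + 1))
    (fun M : ℕ => t ≤ |(M : ℝ) - m * p|)] at hs
  rw [← Finset.sum_filter_add_sum_filter_not (range (m + 1))
    (fun M : ℕ => t ≤ |(M : ℝ) - m * p|)]
  have h3 : 0 ≤ ∑ M ∈ (range (m + 1)).filter (fun M : ℕ => t ≤ |(M : ℝ) - m * p|),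
      bin m p M * f M :=
    Finset.sum_nonneg fun M _ => mul_nonneg (bin_nonneg h0 h1 M) (hf0 M)
  have h4 : (∑ M ∈ (range (m + 1)).filter (fun M : ℕ => ¬ t ≤ |(M : ℝ) - m * p|),
      bin m p M) * b ≤
      ∑ M ∈ (range (m + 1)).filter (fun M : ℕ => ¬ t ≤ |(M : ℝ) - m * p|),
      bin m p M * f M := by
    rw [Finset.sum_mul]
    refine Finset.sum_le_sum fun M hM => ?_
    have h5 := Finset.mem_filter.1 hM
    exact mul_le_mul_of_nonneg_left (hf M (by have := Finset.mem_range.1 h5.1; omega)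
      (not_le.1 h5.2)) (bin_nonneg h0 h1 M)
  nlinarith

/-- upper bound of a binomial average -/
theorem bin_avg_le (m : ℕ) {p t b : ℝ} (h0 : 0 ≤ p) (h1 : p ≤ 1) (ht : 0 < t)
    (hb : 0 ≤ b)
    (hm : (m : ℝ) ≤ t ^ 2 / 2) (f : ℕ → ℝ) (hf1 : ∀ M, f M ≤ 1)
    (hf : ∀ M ≤ m, |(M : ℝ) - m * p| < t → f M ≤ b) :
    ∑ M ∈ range (m + 1), bin m p M * f M ≤ 1 / 8 + b := by
  have hc := bin_cheb m h0 h1 ht
  have hc2 : (m : ℝ) / (4 * t ^ 2) ≤ 1 / 8 := by
    rw [div_le_div_iff₀ (by positivity) (by norm_num)]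
    linarith
  rw [← Finset.sum_filter_add_sum_filter_not (range (m + 1))
    (fun M : ℕ => t ≤ |(M : ℝ) - m * p|)]
  have h3 : ∑ M ∈ (range (m + 1)).filter (fun M : ℕ => t ≤ |(M : ℝ) - m * p|),
      bin m p M * f M ≤ ∑ M ∈ (range (m + 1)).filter (fun M : ℕ => t ≤ |(M : ℝ) - m * p|),
      bin m p M := by
    refine Finset.sum_le_sum fun M _ => ?_
    have := mul_le_mul_of_nonneg_left (hf1 M) (bin_nonneg (m := m) h0 h1 M)
    linarith
  have h4 : ∑ M ∈ (range (m + 1)).filter (fun M : ℕ => ¬ t ≤ |(M : ℝ) - m * p|),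
      bin m p M * f M ≤
      (∑ M ∈ (range (m + 1)).filter (fun M : ℕ => ¬ t ≤ |(M : ℝ) - m * p|),
      bin m p M) * b := by
    rw [Finset.sum_mul]
    refine Finset.sum_le_sum fun M hM => ?_
    have h5 := Finset.mem_filter.1 hM
    exact mul_le_mul_of_nonneg_left (hf M (by have := Finset.mem_range.1 h5.1; omega)
      (not_le.1 h5.2)) (bin_nonneg h0 h1 M)
  have h5 : ∑ M ∈ (range (m + 1)).filter (fun M : ℕ => ¬ t ≤ |(M : ℝ) - m * p|),
      bin m p M ≤ 1 := by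
    rw [← bin_sum m p]
    exact Finset.sum_le_sum_of_subset_of_nonneg (Finset.filter_subset _ _)
      fun M _ _ => bin_nonneg h0 h1 M
  nlinarith

end KSatLim
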