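import Mathlib

/-! Random k-SAT: basic operators (uniform averages, recursion over clauses). -/

namespace KSat6

open Finset

/-- Uniform average of a real function on a finite type. -/
noncomputable def av {ι : Type*} [Fintype ι] (f : ι → ℝ) : ℝ :=
  (∑ i, f i) / (Fintype.card ι : ℝ)

section av
variable {ι κ : Type*} [Fintype ι] [Fintype κ]

lemma av_mono {f g : ι → ℝ} (h : ∀ i, f i ≤ g i) : av f ≤ av g := by
  unfold av
  exact div_le_div_of_nonneg_right (Finset.sum_le_sum fun i _ => h i) (Nat.cast_nonneg _)

lemma av_nonneg {f : ι → ℝ} (h : ∀ i, 0 ≤ f i) : 0 ≤ av f :=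
  div_nonneg (Finset.sum_nonneg fun i _ => h i) (Nat.cast_nonneg _)

lemma av_add (f g : ι → ℝ) : av (fun i => f i + g i) = av f + av g := by
  unfold av
  rw [Finset.sum_add_distrib, add_div]

lemma av_sub (f g : ι → ℝ) : av (fun i => f i - g i) = av f - av g := by
  unfold av
  rw [Finset.sum_sub_distrib, sub_div]

lemma av_mul_left (c : ℝ) (f : ι → ℝ) : av (fun i => c * f i) = c * av f := by
  unfold av
  rw [← Finset.mul_sum, mul_div_assoc]

lemma av_mul_right (c : ℝ) (f : ι → ℝ) : av (fun i => f i * c) = av f * c := by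
  unfold av
  rw [← Finset.sum_mul, div_mul_eq_mul_div]

lemma av_const [Nonempty ι] (c : ℝ) : av (fun _ : ι => c) = c := by
  unfold av
  have : (Fintype.card ι : ℝ) ≠ 0 := by exact_mod_cast Fintype.card_ne_zero
  rw [Finset.sum_const, Finset.card_univ, nsmul_eq_mul]
  field_simp

lemma av_le_const [Nonempty ι] {f : ι → ℝ} {c : ℝ} (h : ∀ i, f i ≤ c) : av f ≤ c := by
  calc av f ≤ av (fun _ : ι => c) := av_mono h
    _ = c := av_const c

lemma av_comm (f : ι → κ → ℝ) :
    av (fun i => av (fun j => f i j)) = av (fun j => av (fun i => f i j)) := by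
  unfold av
  simp only [← Finset.sum_div]
  rw [Finset.sum_comm, div_div, div_div, mul_comm]

lemma av_sum {α : Type*} (s : Finset α) (f : α → ι → ℝ) :
    av (fun i => ∑ a ∈ s, f a i) = ∑ a ∈ s, av (f a) := by
  unfold av
  rw [Finset.sum_comm, Finset.sum_div]

end av

/-- literals -/
abbrev Lit (n : ℕ) := Fin n × Bool
/-- assignments -/
abbrev Asg (n : ℕ) := Fin n → Bool
/-- clauses: `k` literals -/
abbrev Cl (n k : ℕ) := Fin k → Lit n

variable {n k : ℕ}

/-- assignments satisfying a literal -/
def litSet (a : Lit n) : Finset (Asg n) := Finset.univ.filter (fun s => s a.1 = a.2)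

/-- assignments satisfying a clause -/
def clSet (C : Cl n k) : Finset (Asg n) :=
  Finset.univ.filter (fun s => ∃ i, s (C i).1 = (C i).2)

@[simp] lemma mem_litSet {a : Lit n} {s : Asg n} : s ∈ litSet a ↔ s a.1 = a.2 := by
  simp [litSet]

@[simp] lemma mem_clSet {C : Cl n k} {s : Asg n} :
    s ∈ clSet C ↔ ∃ i, s (C i).1 = (C i).2 := by
  simp [clSet]

/-- probability that `r` random clauses exclude all of `S` -/
noncomputable def th (n k : ℕ) : ℕ → Finset (Asg n) → ℝ
  | 0, S => if S = ∅ then 1 else 0
  | r + 1, S => av (fun C : Cl n k => th n k r (S ∩ clSet C))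

/-- random unit operator: fraction of literals that are false on `S` -/
noncomputable def psi (S : Finset (Asg n)) : ℝ :=
  av (fun a : Lit n => if S ∩ litSet a = ∅ then (1 : ℝ) else 0)

/-- `N_L(S;a)`. -/
noncomputable def NN (n k T : ℕ) : ℕ → Finset (Asg n) → Lit n → ℝ
  | 0, S, a => if S ∩ litSet a = ∅ then 1 - th n k T S else 0
  | L + 1, S, a => av (fun C : Cl n k => NN n k T L (S ∩ clSet C) a)

/-- probability that `D` random units exclude `K` -/
noncomputable def lam (n : ℕ) : ℕ → Finset (Asg n) → ℝ
  | 0, S => if S = ∅ then 1 else 0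
  | D + 1, S => av (fun a : Lit n => lam n D (S ∩ litSet a))

lemma th_nonneg (r : ℕ) (S : Finset (Asg n)) : 0 ≤ th n k r S := by
  induction r generalizing S with
  | zero => unfold th; split_ifs <;> norm_num
  | succ r ih => unfold th; exact av_nonneg fun C => ih _

lemma th_empty [NeZero n] (r : ℕ) : th n k r (∅ : Finset (Asg n)) = 1 := by
  induction r with
  | zero => simp [th]
  | succ r ih =>
    unfold th
    simp only [Finset.empty_inter, ih]
    exact av_const 1

lemma th_le_one [NeZero n] (r : ℕ) (S : Finset (Asg n)) : th n k r S ≤ 1 := by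
  induction r generalizing S with
  | zero => unfold th; split_ifs <;> norm_num
  | succ r ih => unfold th; exact av_le_const fun C => ih _

/-- `th` is antitone in the set -/
lemma th_anti (r : ℕ) {S S' : Finset (Asg n)} (h : S ⊆ S') : th n k r S' ≤ th n k r S := by
  induction r generalizing S S' with
  | zero =>
    unfold th
    by_cases h' : S' = ∅
    · have : S = ∅ := by
        rw [h'] at h; exact Finset.subset_empty.mp h
      simp [h', this]
    · simp only [h', if_false]; split_ifs <;> norm_num
  | succ r ih =>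
    unfold th
    exact av_mono fun C => ih (Finset.inter_subset_inter_right h)

lemma lam_nonneg (D : ℕ) (S : Finset (Asg n)) : 0 ≤ lam n D S := by
  induction D generalizing S with
  | zero => unfold lam; split_ifs <;> norm_num
  | succ r ih => unfold lam; exact av_nonneg fun C => ih _

lemma lam_le_one [NeZero n] (D : ℕ) (S : Finset (Asg n)) : lam n D S ≤ 1 := by
  induction D generalizing S with
  | zero => unfold lam; split_ifs <;> norm_num
  | succ r ih => unfold lam; exact av_le_const fun C => ih _

lemma NN_nonneg [NeZero n] (T L : ℕ) (S : Finset (Asg n)) (a : Lit n) : 0 ≤ NN n k T L S a := by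
  induction L generalizing S with
  | zero =>
    unfold NN
    split_ifs
    · have := th_le_one (k := k) T S; linarith
    · exact le_rfl
  | succ r ih => unfold NN; exact av_nonneg fun C => ih _

lemma NN_le_one [NeZero n] (T L : ℕ) (S : Finset (Asg n)) (a : Lit n) : NN n k T L S a ≤ 1 := by
  induction L generalizing S with
  | zero =>
    unfold NN
    split_ifs
    · have := th_nonneg (k := k) T S; linarith
    · norm_num
  | succ r ih => unfold NN; exact av_le_const fun C => ih _

lemma psi_nonneg (S : Finset (Asg n)) : 0 ≤ psi S :=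
  av_nonneg fun a => by split_ifs <;> norm_num

lemma psi_le_one [NeZero n] (S : Finset (Asg n)) : psi S ≤ 1 :=
  av_le_const fun a => by split_ifs <;> norm_num

lemma psi_mono {S S' : Finset (Asg n)} (h : S ⊆ S') : psi S' ≤ psi S := by
  refine av_mono fun a => ?_
  by_cases h' : S' ∩ litSet a = ∅
  · have : S ∩ litSet a = ∅ := by
      apply Finset.subset_empty.mp
      rw [← h']
      exact Finset.inter_subset_inter_right h
    simp [h', this]
  · simp only [h', if_false]; split_ifs <;> norm_num

/-- a clause kills `S` iff every literal does -/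
lemma inter_clSet_eq_empty (S : Finset (Asg n)) (C : Cl n k) :
    S ∩ clSet C = ∅ ↔ ∀ i, S ∩ litSet (C i) = ∅ := by
  simp only [Finset.eq_empty_iff_forall_notMem, Finset.mem_inter, mem_clSet, mem_litSet]
  constructor
  · intro h i s hs
    exact h s ⟨hs.1, i, hs.2⟩
  · rintro h s ⟨hs, i, hi⟩
    exact h i s ⟨hs, hi⟩

/-- probability that a random clause kills `S` is `psi^k` -/
lemma av_kill [NeZero n] (S : Finset (Asg n)) :
    av (fun C : Cl n k => if S ∩ clSet C = ∅ then (1 : ℝ) else 0) = psi S ^ k := by
  have h1 : ∀ C : Cl n k, (if S ∩ clSet C = ∅ then (1 : ℝ) else 0)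
      = ∏ i, (if S ∩ litSet (C i) = ∅ then (1 : ℝ) else 0) := by
    intro C
    by_cases h : S ∩ clSet C = ∅
    · rw [if_pos h]
      rw [inter_clSet_eq_empty] at h
      simp [h]
    · rw [if_neg h]
      rw [inter_clSet_eq_empty] at h
      push Not at h
      obtain ⟨i, hi⟩ := h
      symm
      apply Finset.prod_eq_zero (Finset.mem_univ i)
      rw [if_neg hi.ne_empty]
  unfold psi av
  simp only [h1]
  rw [div_pow, Fintype.sum_pow]
  congr 1
  simp [Fintype.card_pi]

end KSat6
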