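import Vale.Agent.KSat.Defs
import Vale.Agent.KSat.H6Core

/-! # P170: bridge between the two sets of definitions -/

namespace KSat

open Finset

theorem th_eq_six (n k m : ℕ) (S : Finset (Asg (Fin n))) :
    th k m S = KSat6.th n k m S := by
  induction m generalizing S with
  | zero => rfl
  | succ m ih =>
    unfold KSat6.th
    show T k (It k m unsat) S = _
    unfold T avg KSat6.av
    congr 1
    refine Finset.sum_congr rfl fun C _ => ?_
    have h : cut S C = S ∩ KSat6.clSet C := by
      ext σ
      simp [cut, KSat6.clSet]
    have h2 := ih (cut S C)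
    rw [h] at h2
    show It k m unsat (cut S C) = KSat6.th n k m (S ∩ KSat6.clSet C)
    rw [h]
    exact h2

theorem u_eq_six (n k m : ℕ) : u k n m = KSat6.th n k m univ := th_eq_six n k m _

end KSat
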