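import Mathlib

/-!
# P170: random k-SAT, the model with k independent uniform literals per clause

States are sets of assignments (the solution set of the formula read so far).
-/

namespace KSat

open Finset

/-- A literal: a variable and the truth value which makes it true. -/
abbrev Lit (V : Type) := V × Bool

/-- An assignment. -/
abbrev Asg (V : Type) := V → Bool

/-- A clause: `k` literals, repetitions allowed. -/
abbrev Cl (V : Type) (k : ℕ) := Fin k → Lit V

variable {V : Type} [Fintype V] [DecidableEq V]

/-- The average of a function over a finite type. -/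
noncomputable def avg {α : Type} [Fintype α] (g : α → ℝ) : ℝ :=
  (∑ x, g x) / (Fintype.card α : ℝ)

/-- Keep the assignments which satisfy the literal `a`. -/
def cutL (S : Finset (Asg V)) (a : Lit V) : Finset (Asg V) :=
  S.filter (fun σ => σ a.1 = a.2)

/-- Keep the assignments which satisfy all the literals `b i`. -/
def cutU {D : ℕ} (S : Finset (Asg V)) (b : Fin D → Lit V) : Finset (Asg V) :=
  S.filter (fun σ => ∀ i, σ (b i).1 = (b i).2)

/-- Keep the assignments which satisfy the clause `C`. -/
def cut {k : ℕ} (S : Finset (Asg V)) (C : Cl V k) : Finset (Asg V) :=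
  S.filter (fun σ => ∃ i, σ (C i).1 = (C i).2)

/-- Keep the assignments which satisfy all the clauses of `F`. -/
def cutF {k m : ℕ} (S : Finset (Asg V)) (F : Fin m → Cl V k) : Finset (Asg V) :=
  S.filter (fun σ => ∀ j, ∃ i, σ (F j i).1 = (F j i).2)

/-- Indicator of unsatisfiability. -/
def unsat (S : Finset (Asg V)) : ℝ := if S = ∅ then 1 else 0

/-- Averaging over one random clause. -/
noncomputable def T (k : ℕ) (g : Finset (Asg V) → ℝ) (S : Finset (Asg V)) : ℝ :=
  avg (fun C : Cl V k => g (cut S C))

/-- Averaging over `r` random clauses. -/
noncomputable def It (k : ℕ) : ℕ → (Finset (Asg V) → ℝ) → Finset (Asg V) → ℝ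
  | 0, g => g
  | r + 1, g => T k (It k r g)

/-- Probability that the state dies after `r` random clauses. -/
noncomputable def th (k r : ℕ) (S : Finset (Asg V)) : ℝ := It k r unsat S

/-- Probability that `m` random clauses on `n` variables are unsatisfiable. -/
noncomputable def u (k n m : ℕ) : ℝ := th k m (univ : Finset (Asg (Fin n)))

/-- `N_L(S;a)`: `L` random clauses and the unit `a` kill `S`, but the `L` clauses and `T'`
further clauses do not. -/
noncomputable def NN (k L T' : ℕ) (S : Finset (Asg V)) (a : Lit V) : ℝ :=
  It k L (fun K => unsat (cutL K a) * (1 - th k T' K)) S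

/-- Probability that all literals of a random clause are `y`-dangerous. -/
noncomputable def qq (k T' : ℕ) (y : ℝ) (L : ℕ) (S : Finset (Asg V)) : ℝ := by
  classical
  exact avg (fun C : Cl V k => if ∀ i, y ≤ NN k L T' S (C i) then (1 : ℝ) else 0)

/-- Expected number of dangerous steps among the next `r`. -/
noncomputable def QQ (k T' : ℕ) (y : ℝ) : ℕ → Finset (Asg V) → ℝ
  | 0, _ => 0
  | r + 1, S => qq k T' y r S + T k (QQ k T' y r) S

end KSat
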