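import Mathlib

/-!
P170, pieces HALL (positivity) and FM (first moment), formula level, rep model:
a clause is a `Fin k`-tuple of literals, a literal is an element of `Fin n × Bool`.
-/

namespace KSat

open Finset

/-- The formula `F` (a tuple of `m` clauses, each a `k`-tuple of literals) is satisfiable. -/
def SatF {n k m : ℕ} (F : Fin m → Fin k → Fin n × Bool) : Prop :=
  ∃ σ : Fin n → Bool, ∀ i, ∃ j, σ (F i j).1 = (F i j).2

section hall

variable {n k m : ℕ}

/-- the variables of clause `i` -/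
private def varsOf (F : Fin m → Fin k → Fin n × Bool) (i : Fin m) : Finset (Fin n) :=
  univ.image (fun j => (F i j).1)

lemma satF_of_hall (F : Fin m → Fin k → Fin n × Bool)
    (h : ∀ s : Finset (Fin m), s.card ≤ (s.biUnion (fun i => univ.image (fun j => (F i j).1))).card) :
    SatF F := by
  classical
  obtain ⟨f, hf, hmem⟩ := (Finset.all_card_le_biUnion_card_iff_exists_injective
    (fun i => (univ.image (fun j => (F i j).1) : Finset (Fin n)))).1 h
  have hc : ∀ i, ∃ j, (F i j).1 = f i := by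
    intro i
    have := hmem i
    rw [Finset.mem_image] at this
    obtain ⟨j, _, hj⟩ := this
    exact ⟨j, hj⟩
  choose c hcc using hc
  refine ⟨fun v => if hv : ∃ i, f i = v then (F hv.choose (c hv.choose)).2 else true, ?_⟩
  intro i
  refine ⟨c i, ?_⟩
  have hv : ∃ i', f i' = (F i (c i)).1 := ⟨i, (hcc i).symm⟩
  have hi : hv.choose = i := hf (by rw [hv.choose_spec, hcc i])
  simp only [dif_pos hv]
  rw [hi]

lemma not_satF_witness (hmn : m ≤ n) (F : Fin m → Fin k → Fin n × Bool) (h : ¬ SatF F) :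
    ∃ s : Finset (Fin m), s.Nonempty ∧ ∃ V : Finset (Fin n), V.card = s.card ∧
      ∀ i ∈ s, ∀ j, (F i j).1 ∈ V := by
  classical
  have h1 : ¬ ∀ s : Finset (Fin m),
      s.card ≤ (s.biUnion (fun i => univ.image (fun j => (F i j).1))).card :=
    fun h' => h (satF_of_hall F h')
  push Not at h1
  obtain ⟨s, hs⟩ := h1
  have hsn : s.card ≤ n := by
    have := Finset.card_le_univ s
    simp at this
    omega
  obtain ⟨V, hsub, hV⟩ := Finset.exists_superset_card_eq (s := s.biUnion (fun i => univ.image (fun j => (F i j).1)))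
    (n := s.card) hs.le (by simpa using hsn)
  refine ⟨s, ?_, V, hV, ?_⟩
  · rw [← Finset.card_pos]
    omega
  · intro i hi j
    apply hsub
    rw [Finset.mem_biUnion]
    exact ⟨i, hi, Finset.mem_image_of_mem _ (Finset.mem_univ j)⟩

lemma card_confined [DecidableEq (Fin n × Bool)] (s : Finset (Fin m)) (V : Finset (Fin n)) :
    ((univ.filter (fun F : Fin m → Fin k → Fin n × Bool => ∀ i ∈ s, ∀ j, (F i j).1 ∈ V)).card : ℝ)
      = (2 * (V.card : ℝ)) ^ (k * s.card) * (2 * (n : ℝ)) ^ (k * (m - s.card)) := by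
  classical
  have hset : (univ.filter (fun F : Fin m → Fin k → Fin n × Bool => ∀ i ∈ s, ∀ j, (F i j).1 ∈ V))
      = Fintype.piFinset (fun i : Fin m => Fintype.piFinset (fun _ : Fin k =>
        if i ∈ s then V ×ˢ (univ : Finset Bool) else (univ : Finset (Fin n × Bool)))) := by
    ext F
    simp only [mem_filter, mem_univ, true_and, Fintype.mem_piFinset]
    constructor
    · intro h i j
      split_ifs with hi
      · simp [h i hi j]
      · simp
    · intro h i hi j
      have := h i j
      rw [if_pos hi] at this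
      simpa using this
  rw [hset, Fintype.card_piFinset]
  have h2 : ∀ i : Fin m, (Fintype.piFinset (fun _ : Fin k =>
        if i ∈ s then V ×ˢ (univ : Finset Bool) else (univ : Finset (Fin n × Bool)))).card
        = if i ∈ s then (2 * V.card) ^ k else (2 * n) ^ k := by
    intro i
    rw [Fintype.card_piFinset]
    split_ifs with hi
    · simp [Finset.card_product, mul_comm]
    · simp [mul_comm]
  simp_rw [h2]
  rw [Finset.prod_ite]
  simp only [Finset.prod_const]
  have h3 : (univ.filter (fun i : Fin m => i ∈ s)).card = s.card := by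
    congr 1
    ext i; simp
  have h4 : (univ.filter (fun i : Fin m => i ∉ s)).card = m - s.card := by
    have : (univ.filter (fun i : Fin m => i ∉ s)) = sᶜ := by ext i; simp
    rw [this, Finset.card_compl, Fintype.card_fin]
  rw [h3, h4]
  push_cast
  rw [← pow_mul, ← pow_mul]

lemma term_bound (hk : 2 ≤ k) (hmn : 32 * m ≤ n) (j : ℕ) (hj : 1 ≤ j) (hjm : j ≤ m) :
    (m.choose j : ℝ) * ((n.choose j : ℝ) * ((j : ℝ) / n) ^ (k * j)) ≤ (1 / 4 : ℝ) ^ j := by
  have hn0 : 0 < n := by omega
  have hn : (0 : ℝ) < n := by exact_mod_cast hn0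
  have hjn : (j : ℝ) ≤ n := by exact_mod_cast (by omega : j ≤ n)
  have hx0 : 0 ≤ (j : ℝ) / n := by positivity
  have hx1 : (j : ℝ) / n ≤ 1 := by rw [div_le_one hn]; exact hjn
  have h1 : ((j : ℝ) / n) ^ (k * j) ≤ ((j : ℝ) / n) ^ (2 * j) :=
    pow_le_pow_of_le_one hx0 hx1 (Nat.mul_le_mul_right j hk)
  have h2 : (m.choose j : ℝ) ≤ (m : ℝ) ^ j / (j.factorial : ℝ) := Nat.choose_le_pow_div j m
  have h3 : (n.choose j : ℝ) ≤ (n : ℝ) ^ j / (j.factorial : ℝ) := Nat.choose_le_pow_div j n
  have h4 : (j : ℝ) ^ j / (j.factorial : ℝ) ≤ Real.exp j :=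
    Real.pow_div_factorial_le_exp (j : ℝ) (by positivity) j
  have hf : (0 : ℝ) < (j.factorial : ℝ) := by exact_mod_cast Nat.factorial_pos j
  have h5 : (m.choose j : ℝ) * ((n.choose j : ℝ) * ((j : ℝ) / n) ^ (k * j))
      ≤ ((m : ℝ) ^ j / (j.factorial : ℝ)) * (((n : ℝ) ^ j / (j.factorial : ℝ)) * ((j : ℝ) / n) ^ (2 * j)) := by
    gcongr
  have h6 : ((m : ℝ) ^ j / (j.factorial : ℝ)) * (((n : ℝ) ^ j / (j.factorial : ℝ)) * ((j : ℝ) / n) ^ (2 * j))
      = ((m : ℝ) / n) ^ j * ((j : ℝ) ^ j / (j.factorial : ℝ)) ^ 2 := by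
    rw [two_mul, pow_add, div_pow, div_pow]
    field_simp
  have h7 : ((j : ℝ) ^ j / (j.factorial : ℝ)) ^ 2 ≤ (8 : ℝ) ^ j := by
    have ha : ((j : ℝ) ^ j / (j.factorial : ℝ)) ^ 2 ≤ (Real.exp j) ^ 2 := by
      apply pow_le_pow_left₀ (by positivity) h4
    have hb : (Real.exp j) ^ 2 = ((Real.exp 1) ^ 2) ^ j := by
      rw [← Real.exp_nat_mul, ← Real.exp_nat_mul, ← Real.exp_nat_mul]
      congr 1
      push_cast
      ring
    have hc : (Real.exp 1) ^ 2 ≤ 8 := by
      have := Real.exp_one_lt_d9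
      have h0 := Real.exp_pos 1
      nlinarith
    rw [hb] at ha
    exact ha.trans (pow_le_pow_left₀ (by positivity) hc j)
  have h8 : ((m : ℝ) / n) ≤ 1 / 32 := by
    rw [div_le_div_iff₀ hn (by norm_num)]
    have : (32 * m : ℝ) ≤ n := by exact_mod_cast hmn
    linarith
  calc (m.choose j : ℝ) * ((n.choose j : ℝ) * ((j : ℝ) / n) ^ (k * j))
      ≤ ((m : ℝ) / n) ^ j * ((j : ℝ) ^ j / (j.factorial : ℝ)) ^ 2 := h5.trans h6.le
    _ ≤ (1 / 32 : ℝ) ^ j * (8 : ℝ) ^ j := by
        gcongr
    _ = (1 / 4 : ℝ) ^ j := by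
        rw [← mul_pow]; norm_num

/-- **Positivity.**  If `32 m ≤ n` and `k ≥ 2`, at most half of the formulas are unsatisfiable
(rep model). -/
theorem hall_pos_card (hk : 2 ≤ k) (hmn : 32 * m ≤ n) [DecidablePred (fun F : Fin m → Fin k → Fin n × Bool => ¬ SatF F)] :
    2 * ((univ.filter (fun F : Fin m → Fin k → Fin n × Bool => ¬ SatF F)).card : ℝ)
      ≤ (Fintype.card (Fin m → Fin k → Fin n × Bool) : ℝ) := by
  classical
  rcases Nat.eq_zero_or_pos m with hm0 | hm0
  · subst hm0
    have : (univ.filter (fun F : Fin 0 → Fin k → Fin n × Bool => ¬ SatF F)) = ∅ := by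
      rw [Finset.filter_eq_empty_iff]
      intro F _ h
      exact h ⟨fun _ => true, fun i => i.elim0⟩
    rw [this]
    simp
  have hn0 : 0 < n := by omega
  have hn : (0 : ℝ) < n := by exact_mod_cast hn0
  have hcardall : (Fintype.card (Fin m → Fin k → Fin n × Bool) : ℝ) = (2 * (n : ℝ)) ^ (k * m) := by
    rw [Fintype.card_fun, Fintype.card_fun, Fintype.card_prod, Fintype.card_fin, Fintype.card_fin,
      Fintype.card_bool, Fintype.card_fin]
    push_cast
    rw [← pow_mul, mul_comm (n : ℝ) 2]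
  -- union bound
  have hsub : (univ.filter (fun F : Fin m → Fin k → Fin n × Bool => ¬ SatF F)) ⊆
      ((univ : Finset (Finset (Fin m))).filter (fun s => s.Nonempty)).biUnion (fun s =>
        ((univ : Finset (Fin n)).powersetCard s.card).biUnion (fun V =>
          univ.filter (fun F : Fin m → Fin k → Fin n × Bool => ∀ i ∈ s, ∀ j, (F i j).1 ∈ V))) := by
    intro F hF
    rw [mem_filter] at hF
    obtain ⟨s, hs, V, hV, hsv⟩ := not_satF_witness (by omega) F hF.2
    rw [mem_biUnion]
    refine ⟨s, by simp [hs], ?_⟩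
    rw [mem_biUnion]
    refine ⟨V, by simp [mem_powersetCard, hV], ?_⟩
    rw [mem_filter]
    exact ⟨mem_univ _, hsv⟩
  have hcard1 : ((univ.filter (fun F : Fin m → Fin k → Fin n × Bool => ¬ SatF F)).card : ℝ)
      ≤ ∑ s ∈ (univ : Finset (Finset (Fin m))).filter (fun s => s.Nonempty),
          ∑ V ∈ (univ : Finset (Fin n)).powersetCard s.card,
          (2 * (V.card : ℝ)) ^ (k * s.card) * (2 * (n : ℝ)) ^ (k * (m - s.card)) := by
    calc ((univ.filter (fun F : Fin m → Fin k → Fin n × Bool => ¬ SatF F)).card : ℝ)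
        ≤ ((((univ : Finset (Finset (Fin m))).filter (fun s => s.Nonempty)).biUnion (fun s =>
        ((univ : Finset (Fin n)).powersetCard s.card).biUnion (fun V =>
          univ.filter (fun F : Fin m → Fin k → Fin n × Bool => ∀ i ∈ s, ∀ j, (F i j).1 ∈ V)))).card : ℝ) := by
          exact_mod_cast Finset.card_le_card hsub
      _ ≤ ((∑ s ∈ (univ : Finset (Finset (Fin m))).filter (fun s => s.Nonempty),
          ∑ V ∈ (univ : Finset (Fin n)).powersetCard s.card,
          (univ.filter (fun F : Fin m → Fin k → Fin n × Bool => ∀ i ∈ s, ∀ j, (F i j).1 ∈ V)).card : ℕ) : ℝ) := by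
          norm_cast
          refine Finset.card_biUnion_le.trans ?_
          refine Finset.sum_le_sum (fun s _ => Finset.card_biUnion_le)
      _ = _ := by
          push_cast
          refine Finset.sum_congr rfl (fun s _ => Finset.sum_congr rfl (fun V _ => ?_))
          exact card_confined s V
  have hcard2 : ∑ s ∈ (univ : Finset (Finset (Fin m))).filter (fun s => s.Nonempty),
          ∑ V ∈ (univ : Finset (Fin n)).powersetCard s.card,
          (2 * (V.card : ℝ)) ^ (k * s.card) * (2 * (n : ℝ)) ^ (k * (m - s.card))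
      = (2 * (n : ℝ)) ^ (k * m) * ∑ s ∈ (univ : Finset (Finset (Fin m))).filter (fun s => s.Nonempty),
          ((n.choose s.card : ℝ) * ((s.card : ℝ) / n) ^ (k * s.card)) := by
    rw [Finset.mul_sum]
    refine Finset.sum_congr rfl (fun s _ => ?_)
    have hsm : s.card ≤ m := by simpa using Finset.card_le_univ s
    have h1 : ∀ V ∈ (univ : Finset (Fin n)).powersetCard s.card,
        (2 * (V.card : ℝ)) ^ (k * s.card) * (2 * (n : ℝ)) ^ (k * (m - s.card))
        = (2 * (s.card : ℝ)) ^ (k * s.card) * (2 * (n : ℝ)) ^ (k * (m - s.card)) := by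
      intro V hV
      rw [(mem_powersetCard.1 hV).2]
    rw [Finset.sum_congr rfl h1, Finset.sum_const, Finset.card_powersetCard]
    simp only [card_univ, Fintype.card_fin, nsmul_eq_mul]
    have h2 : (2 * (n : ℝ)) ^ (k * m) = (2 * (n : ℝ)) ^ (k * s.card) * (2 * (n : ℝ)) ^ (k * (m - s.card)) := by
      rw [← pow_add, ← Nat.mul_add]
      congr 2
      omega
    rw [h2, div_pow]
    have h3 : (n : ℝ) ^ (k * s.card) ≠ 0 := by positivity
    rw [mul_pow, mul_pow 2 (n : ℝ) (k * s.card)]
    field_simp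
  have hsum : ∑ s ∈ (univ : Finset (Finset (Fin m))).filter (fun s => s.Nonempty),
          ((n.choose s.card : ℝ) * ((s.card : ℝ) / n) ^ (k * s.card)) ≤ 1 / 2 := by
    have h1 : ∑ s ∈ (univ : Finset (Finset (Fin m))).filter (fun s => s.Nonempty),
          ((n.choose s.card : ℝ) * ((s.card : ℝ) / n) ^ (k * s.card))
        = ∑ s ∈ (univ : Finset (Fin m)).powerset,
          (fun j : ℕ => if j = 0 then (0 : ℝ) else ((n.choose j : ℝ) * ((j : ℝ) / n) ^ (k * j))) s.card := by
      rw [Finset.sum_filter, Finset.powerset_univ]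
      refine Finset.sum_congr rfl (fun s _ => ?_)
      by_cases hs : s.Nonempty
      · have : s.card ≠ 0 := by rw [← Finset.card_pos] at hs; omega
        simp [hs, this]
      · have : s.card = 0 := by
          rw [Finset.not_nonempty_iff_eq_empty] at hs; simp [hs]
        simp [hs, this]
    have h1' := Finset.sum_powerset_apply_card
      (fun j : ℕ => if j = 0 then (0 : ℝ) else ((n.choose j : ℝ) * ((j : ℝ) / n) ^ (k * j)))
      (x := (univ : Finset (Fin m)))
    rw [h1]
    refine (le_of_eq h1').trans ?_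
    simp only [card_univ, Fintype.card_fin, nsmul_eq_mul]
    rw [Finset.sum_range_succ']
    simp only [if_true, mul_zero, add_zero]
    have h2 : ∀ j ∈ range m, (m.choose (j + 1) : ℝ) *
        (if j + 1 = 0 then (0 : ℝ) else ((n.choose (j + 1) : ℝ) * (((j + 1 : ℕ) : ℝ) / n) ^ (k * (j + 1))))
        ≤ (1 / 4 : ℝ) ^ (j + 1) := by
      intro j hj
      rw [mem_range] at hj
      rw [if_neg (by omega)]
      exact term_bound hk hmn (j + 1) (by omega) (by omega)
    refine (Finset.sum_le_sum h2).trans ?_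
    have h3 : ∑ j ∈ range m, (1 / 4 : ℝ) ^ (j + 1) = (1 / 4) * ∑ j ∈ range m, (1 / 4 : ℝ) ^ j := by
      rw [Finset.mul_sum]
      refine Finset.sum_congr rfl (fun j _ => by rw [pow_succ]; ring)
    rw [h3, geom_sum_eq (by norm_num)]
    have : (0 : ℝ) ≤ (1 / 4 : ℝ) ^ m := by positivity
    have h4 : ((1 / 4 : ℝ) ^ m - 1) / (1 / 4 - 1) = (1 - (1 / 4 : ℝ) ^ m) * (4 / 3) := by
      field_simp
      ring
    rw [h4]
    linarith
  rw [hcardall]
  have hpos : (0 : ℝ) ≤ (2 * (n : ℝ)) ^ (k * m) := by positivity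
  have := hcard1.trans hcard2.le
  nlinarith [mul_le_mul_of_nonneg_left hsum hpos]

/-- **First moment.** -/
theorem first_moment_card [DecidablePred (fun F : Fin m → Fin k → Fin n × Bool => SatF F)] :
    ((univ.filter (fun F : Fin m → Fin k → Fin n × Bool => SatF F)).card : ℝ)
      ≤ 2 ^ n * (1 - (1 / 2 : ℝ) ^ k) ^ m * (Fintype.card (Fin m → Fin k → Fin n × Bool) : ℝ) := by
  classical
  have hsub : (univ.filter (fun F : Fin m → Fin k → Fin n × Bool => SatF F)) ⊆
      (univ : Finset (Fin n → Bool)).biUnion (fun σ =>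
        univ.filter (fun F : Fin m → Fin k → Fin n × Bool => ∀ i, ∃ j, σ (F i j).1 = (F i j).2)) := by
    intro F hF
    rw [mem_filter] at hF
    obtain ⟨σ, hσ⟩ := hF.2
    rw [mem_biUnion]
    exact ⟨σ, mem_univ _, by rw [mem_filter]; exact ⟨mem_univ _, hσ⟩⟩
  have hcl : ∀ σ : Fin n → Bool,
      ((univ.filter (fun c : Fin k → Fin n × Bool => ∃ j, σ (c j).1 = (c j).2)).card : ℝ)
        = (1 - (1 / 2 : ℝ) ^ k) * (2 * (n : ℝ)) ^ k := by
    intro σ
    have h1 : (univ.filter (fun c : Fin k → Fin n × Bool => ∃ j, σ (c j).1 = (c j).2))ᶜ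
        = Fintype.piFinset (fun _ : Fin k => (univ : Finset (Fin n)).image (fun v => (v, !(σ v)))) := by
      ext c
      simp only [mem_compl, mem_filter, mem_univ, true_and, not_exists, Fintype.mem_piFinset,
        mem_image]
      refine forall_congr' (fun j => ?_)
      constructor
      · intro h
        refine ⟨(c j).1, ?_⟩
        ext
        · rfl
        · rcases hb : (c j).2 with _ | _ <;> rcases hs : σ (c j).1 with _ | _ <;> simp_all
      · rintro ⟨v, hv⟩ h
        rw [← hv] at h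
        simp at h
    have h2 : ((univ.filter (fun c : Fin k → Fin n × Bool => ∃ j, σ (c j).1 = (c j).2))ᶜ.card : ℝ)
        = (n : ℝ) ^ k := by
      rw [h1, Fintype.card_piFinset]
      simp only [Finset.prod_const, card_univ, Fintype.card_fin]
      rw [Finset.card_image_of_injective _ (fun a b h => by simpa using congrArg Prod.fst h)]
      simp
    have h3 := Finset.card_add_card_compl
      (univ.filter (fun c : Fin k → Fin n × Bool => ∃ j, σ (c j).1 = (c j).2))
    have h4 : (Fintype.card (Fin k → Fin n × Bool) : ℝ) = (2 * (n : ℝ)) ^ k := by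
      rw [Fintype.card_fun, Fintype.card_prod, Fintype.card_fin, Fintype.card_bool, Fintype.card_fin]
      push_cast
      rw [mul_comm (n : ℝ) 2]
    have h5 : ((univ.filter (fun c : Fin k → Fin n × Bool => ∃ j, σ (c j).1 = (c j).2)).card : ℝ)
        = (2 * (n : ℝ)) ^ k - (n : ℝ) ^ k := by
      rw [← h4, ← h2, ← h3]
      push_cast
      ring
    rw [h5, sub_mul, one_mul, ← mul_pow]
    congr 2
    ring
  have hall : ∀ σ : Fin n → Bool,
      ((univ.filter (fun F : Fin m → Fin k → Fin n × Bool => ∀ i, ∃ j, σ (F i j).1 = (F i j).2)).card : ℝ)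
        = (1 - (1 / 2 : ℝ) ^ k) ^ m * ((2 * (n : ℝ)) ^ k) ^ m := by
    intro σ
    have h1 : (univ.filter (fun F : Fin m → Fin k → Fin n × Bool => ∀ i, ∃ j, σ (F i j).1 = (F i j).2))
        = Fintype.piFinset (fun _ : Fin m =>
          univ.filter (fun c : Fin k → Fin n × Bool => ∃ j, σ (c j).1 = (c j).2)) := by
      ext F
      simp [Fintype.mem_piFinset]
    rw [h1, Fintype.card_piFinset]
    simp only [Finset.prod_const, card_univ, Fintype.card_fin]
    push_cast
    rw [hcl σ, mul_pow]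
  have hcardall : (Fintype.card (Fin m → Fin k → Fin n × Bool) : ℝ) = ((2 * (n : ℝ)) ^ k) ^ m := by
    rw [Fintype.card_fun, Fintype.card_fun, Fintype.card_prod, Fintype.card_fin, Fintype.card_fin,
      Fintype.card_bool, Fintype.card_fin]
    push_cast
    rw [mul_comm (n : ℝ) 2]
  calc ((univ.filter (fun F : Fin m → Fin k → Fin n × Bool => SatF F)).card : ℝ)
      ≤ (((univ : Finset (Fin n → Bool)).biUnion (fun σ =>
        univ.filter (fun F : Fin m → Fin k → Fin n × Bool => ∀ i, ∃ j, σ (F i j).1 = (F i j).2))).card : ℝ) := by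
        exact_mod_cast Finset.card_le_card hsub
    _ ≤ ∑ σ : Fin n → Bool, ((univ.filter (fun F : Fin m → Fin k → Fin n × Bool =>
          ∀ i, ∃ j, σ (F i j).1 = (F i j).2)).card : ℝ) := by
        exact_mod_cast Finset.card_biUnion_le
    _ = ∑ _σ : Fin n → Bool, (1 - (1 / 2 : ℝ) ^ k) ^ m * ((2 * (n : ℝ)) ^ k) ^ m :=
        Finset.sum_congr rfl (fun σ _ => hall σ)
    _ = _ := by
        rw [Finset.sum_const, card_univ, Fintype.card_fun, Fintype.card_bool, Fintype.card_fin,
          hcardall, nsmul_eq_mul]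
        push_cast
        ring

end hall

end KSat
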