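import Vale.Agent.KSat.Basic
import Vale.Agent.KSat.Hall

/-! # P170: first moment (piece FIRST) and positivity of the threshold (piece HALL) -/

namespace KSat

open Finset Filter Topology

lemma unsat_cutF_eq {n k m : ℕ} (F : Fin m → Cl (Fin n) k) [Decidable (SatF F)] :
    unsat (cutF (univ : Finset (Asg (Fin n))) F) = if SatF F then 0 else 1 := by
  unfold unsat
  by_cases h : SatF F
  · rw [if_pos h, if_neg]
    obtain ⟨σ, hσ⟩ := h
    intro h0
    have hmem : σ ∈ cutF (univ : Finset (Asg (Fin n))) F := by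
      unfold cutF
      rw [mem_filter]
      exact ⟨mem_univ _, hσ⟩
    rw [h0] at hmem
    exact absurd hmem (by simp)
  · rw [if_neg h, if_pos]
    rw [Finset.eq_empty_iff_forall_notMem]
    intro σ hσ
    unfold cutF at hσ
    rw [mem_filter] at hσ
    exact h ⟨σ, hσ.2⟩

lemma u_eq_card {n k : ℕ} (m : ℕ) [DecidablePred (fun F : Fin m → Fin k → Fin n × Bool => ¬ SatF F)] :
    u k n m = ((univ.filter (fun F : Fin m → Fin k → Fin n × Bool => ¬ SatF F)).card : ℝ)
      / (Fintype.card (Fin m → Fin k → Fin n × Bool) : ℝ) := by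
  classical
  unfold u th
  rw [It_eq_avg]
  unfold avg
  congr 1
  rw [Finset.card_filter]
  push_cast
  refine Finset.sum_congr rfl (fun F _ => ?_)
  rw [unsat_cutF_eq F]
  by_cases h : SatF F <;> simp [h]

theorem first_moment {k n : ℕ} (hn : 1 ≤ n) (m : ℕ) :
    1 - u k n m ≤ 2 ^ n * (1 - (1 / 2 : ℝ) ^ k) ^ m := by
  classical
  haveI : Nonempty (Fin n) := ⟨⟨0, hn⟩⟩
  rw [u_eq_card]
  have h1 := first_moment_card (n := n) (k := k) (m := m)
  have hpos : (0 : ℝ) < (Fintype.card (Fin m → Fin k → Fin n × Bool) : ℝ) := by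
    exact_mod_cast Fintype.card_pos
  have h2 := Finset.card_filter_add_card_filter_not (s := (univ : Finset (Fin m → Fin k → Fin n × Bool)))
    (fun F => SatF F)
  have h3 : (((univ.filter (fun F : Fin m → Fin k → Fin n × Bool => SatF F)).card : ℝ)
      + ((univ.filter (fun F : Fin m → Fin k → Fin n × Bool => ¬ SatF F)).card : ℝ))
      = (Fintype.card (Fin m → Fin k → Fin n × Bool) : ℝ) := by
    rw [← Finset.card_univ, ← h2]
    push_cast
    rfl
  rw [one_sub_div hpos.ne', div_le_iff₀ hpos, ← h3]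
  rw [h3]
  linarith

/-- Positivity: for small density a random formula is satisfiable (system of distinct
representatives by Hall, union bound). -/
theorem hall_pos {k : ℕ} (hk : 2 ≤ k) {n m : ℕ} (h : 32 * m ≤ n) : u k n m ≤ 1 / 2 := by
  classical
  rcases Nat.eq_zero_or_pos m with hm | hm
  · subst hm
    rw [u_zero]
    norm_num
  have hn : 1 ≤ n := by omega
  haveI : Nonempty (Fin n) := ⟨⟨0, hn⟩⟩
  rw [u_eq_card]
  have hpos : (0 : ℝ) < (Fintype.card (Fin m → Fin k → Fin n × Bool) : ℝ) := by
    exact_mod_cast Fintype.card_pos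
  rw [div_le_iff₀ hpos]
  have := hall_pos_card (n := n) (k := k) (m := m) hk h
  linarith

end KSat
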