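import Vale.Agent.KSat.H6Core

/-! Random k-SAT: units against clauses, lemmas L1 and L2. -/

namespace KSat6

open Finset

variable {n k : ℕ}

/-- survival probability of `t` clauses from a lower bound of the unit density -/
lemma one_sub_th_le [NeZero n] {q : ℝ} (hq0 : 0 ≤ q) (hq1 : q ≤ 1) (t : ℕ)
    (S : Finset (Asg n)) (hS : q ≤ psi S) : 1 - th n k t S ≤ (1 - q ^ k) ^ t := by
  have hqk : 0 ≤ 1 - q ^ k := by
    have : q ^ k ≤ 1 := pow_le_one₀ hq0 hq1
    linarith
  induction t generalizing S with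
  | zero =>
    have := th_nonneg (k := k) 0 S
    simp only [pow_zero]
    linarith
  | succ t ih =>
    unfold th
    have h1 : 1 - av (fun C : Cl n k => th n k t (S ∩ clSet C))
        = av (fun C : Cl n k => 1 - th n k t (S ∩ clSet C)) := by
      rw [av_sub, av_const]
    rw [h1]
    have h2 : av (fun C : Cl n k => 1 - th n k t (S ∩ clSet C))
        ≤ av (fun C : Cl n k => (1 - (if S ∩ clSet C = ∅ then (1 : ℝ) else 0)) * (1 - q ^ k) ^ t) := by
      refine av_mono fun C => ?_
      by_cases h : S ∩ clSet C = ∅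
      · rw [if_pos h, h, th_empty]; simp
      · rw [if_neg h]
        have := ih (S ∩ clSet C) (hS.trans (psi_mono Finset.inter_subset_left))
        linarith
    refine h2.trans ?_
    rw [av_mul_right, av_sub, av_const, av_kill, pow_succ, mul_comm]
    apply mul_le_mul_of_nonneg_left _ (pow_nonneg hqk t)
    have : q ^ k ≤ psi S ^ k := pow_le_pow_left₀ hq0 hS k
    linarith

/-- (L1) with an abstract bound `τ` for `x (1 - x^k)^t`. -/
lemma L1 [NeZero n] {t : ℕ} {τ : ℝ} (hτ : ∀ x : ℝ, 0 ≤ x → x ≤ 1 → x * (1 - x ^ k) ^ t ≤ τ)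
    (S : Finset (Asg n)) : psi S * (1 - th n k t S) ≤ τ := by
  have h0 := psi_nonneg S
  have h1 := psi_le_one S
  refine le_trans ?_ (hτ (psi S) h0 h1)
  exact mul_le_mul_of_nonneg_left (one_sub_th_le h0 h1 t S le_rfl) h0

/-- average of `N_L(S;a)` over `a` -/
lemma av_NN_le [NeZero n] {T : ℕ} {τ : ℝ}
    (hτ : ∀ x : ℝ, 0 ≤ x → x ≤ 1 → x * (1 - x ^ k) ^ T ≤ τ) (L : ℕ)
    (S : Finset (Asg n)) : av (fun a : Lit n => NN n k T L S a) ≤ τ := by
  induction L generalizing S with
  | zero =>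
    unfold NN
    have : av (fun a : Lit n => if S ∩ litSet a = ∅ then 1 - th n k T S else 0)
        = psi S * (1 - th n k T S) := by
      unfold psi
      rw [← av_mul_right]
      congr 1
      funext a
      split_ifs <;> simp
    rw [this]
    exact L1 hτ S
  | succ L ih =>
    unfold NN
    rw [av_comm]
    exact av_le_const fun C => ih _

/-- the step inequality for (L2) -/
lemma one_sub_th_add_le [NeZero n] (t L : ℕ) (K : Finset (Asg n)) (b : Lit n) :
    1 - th n k (L + t) K ≤ (1 - th n k L (K ∩ litSet b)) + NN n k t L K b := by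
  induction L generalizing K with
  | zero =>
    simp only [Nat.zero_add]
    unfold NN
    by_cases h : K ∩ litSet b = ∅
    · rw [if_pos h, h, th_empty]; linarith
    · rw [if_neg h]
      have h1 : th n k 0 (K ∩ litSet b) = 0 := by simp [th, h]
      rw [h1]
      have := th_nonneg (k := k) t K
      linarith
  | succ L ih =>
    have e : L + 1 + t = (L + t) + 1 := by ring
    rw [e]
    unfold th NN
    have h1 : 1 - av (fun C : Cl n k => th n k (L + t) (K ∩ clSet C))
        = av (fun C : Cl n k => 1 - th n k (L + t) (K ∩ clSet C)) := by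
      rw [av_sub, av_const]
    have h2 : 1 - av (fun C : Cl n k => th n k L (K ∩ litSet b ∩ clSet C))
        = av (fun C : Cl n k => 1 - th n k L (K ∩ litSet b ∩ clSet C)) := by
      rw [av_sub, av_const]
    rw [h1, h2, ← av_add]
    refine av_mono fun C => ?_
    have := ih (K ∩ clSet C)
    rwa [Finset.inter_right_comm] at this

/-- (L2) -/
lemma L2 [NeZero n] {t : ℕ} {τ : ℝ} (hτ0 : 0 ≤ τ)
    (hτ : ∀ x : ℝ, 0 ≤ x → x ≤ 1 → x * (1 - x ^ k) ^ t ≤ τ) (D T : ℕ) (hT : D * t ≤ T)
    (K : Finset (Asg n)) : lam n D K * (1 - th n k T K) ≤ D * τ := by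
  induction D generalizing T K with
  | zero =>
    unfold lam
    by_cases h : K = ∅
    · rw [h, th_empty]; simp
    · simp [h]
  | succ D ih =>
    obtain ⟨L, rfl⟩ : ∃ L, T = L + t := by
      refine ⟨T - t, ?_⟩
      have : t ≤ T := le_trans (Nat.le_mul_of_pos_left t (Nat.succ_pos D)) hT
      omega
    have hL : D * t ≤ L := by
      have : (D + 1) * t = D * t + t := by ring
      omega
    unfold lam
    rw [← av_mul_right]
    calc av (fun a : Lit n => lam n D (K ∩ litSet a) * (1 - th n k (L + t) K))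
        ≤ av (fun a : Lit n => (D : ℝ) * τ + NN n k t L K a) := by
          refine av_mono fun a => ?_
          have h1 := one_sub_th_add_le (k := k) t L K a
          have h2 := ih L hL (K ∩ litSet a)
          have h3 := lam_nonneg D (K ∩ litSet a)
          have h4 := lam_le_one D (K ∩ litSet a)
          have h5 := NN_nonneg (k := k) t L K a
          nlinarith
      _ = (D : ℝ) * τ + av (fun a : Lit n => NN n k t L K a) := by
          rw [av_add, av_const]
      _ ≤ (D : ℝ) * τ + τ := by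
          have := av_NN_le hτ L K
          linarith
      _ = ((D + 1 : ℕ) : ℝ) * τ := by push_cast; ring

/-- elementary bound: `(x (1 - x^k)^t)^k * t ≤ 1` -/
lemma tau_pow {x : ℝ} (h0 : 0 ≤ x) (h1 : x ≤ 1) (hk : 1 ≤ k) (t : ℕ) :
    (x * (1 - x ^ k) ^ t) ^ k * t ≤ 1 := by
  set s := x ^ k with hs
  have s0 : 0 ≤ s := pow_nonneg h0 k
  have s1 : s ≤ 1 := pow_le_one₀ h0 h1
  have a1 : (1 - s) ^ t * (1 + t * s) ≤ 1 := by
    have b1 : 1 + (t : ℝ) * s ≤ (1 + s) ^ t := one_add_mul_le_pow (by linarith) t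
    have b2 : (1 - s) ^ t * (1 + s) ^ t ≤ 1 := by
      rw [← mul_pow]
      apply pow_le_one₀
      · nlinarith
      · nlinarith
    have b3 : 0 ≤ (1 - s) ^ t := pow_nonneg (by linarith) t
    nlinarith
  have a2 : 0 ≤ (1 - s) ^ t := pow_nonneg (by linarith) t
  have a3 : (1 - s) ^ t ≤ 1 := pow_le_one₀ (by linarith) (by linarith)
  have a4 : ((1 - s) ^ t) ^ k ≤ (1 - s) ^ t := by
    calc ((1 - s) ^ t) ^ k ≤ ((1 - s) ^ t) ^ 1 := pow_le_pow_of_le_one a2 a3 hk
      _ = _ := pow_one _
  rw [mul_pow, ← hs]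
  have t0 : (0 : ℝ) ≤ t := Nat.cast_nonneg t
  calc s * ((1 - s) ^ t) ^ k * t ≤ s * (1 - s) ^ t * t := by
        apply mul_le_mul_of_nonneg_right _ t0
        exact mul_le_mul_of_nonneg_left a4 s0
    _ ≤ 1 := by nlinarith

/-- the function `t^(-1/k)` bounds `x (1 - x^k)^t`, in the form: any `τ ≥ 0` with
`1 ≤ τ^k t` works -/
lemma tau_le {τ : ℝ} (hτ0 : 0 ≤ τ) (hk : 1 ≤ k) {t : ℕ} (ht : 1 ≤ τ ^ k * t) :
    ∀ x : ℝ, 0 ≤ x → x ≤ 1 → x * (1 - x ^ k) ^ t ≤ τ := by
  intro x h0 h1
  by_contra hc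
  push Not at hc
  have h2 := tau_pow h0 h1 hk t
  have h3 : τ ^ k < (x * (1 - x ^ k) ^ t) ^ k := pow_lt_pow_left₀ hc hτ0 (by omega)
  have ht0 : (0 : ℝ) < t := by
    rcases Nat.eq_zero_or_pos t with h | h
    · subst h; simp at ht; linarith
    · exact_mod_cast h
  nlinarith

end KSat6
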