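import Vale.Agent.KSat.H6L

/-! Random k-SAT: unfolding one variable, second moment of `N_L(S;a)`. -/

namespace KSat6

open Finset

variable {n k : ℕ}

/-- resampling one coordinate -/
lemma av_update {ι κ : Type*} [Fintype ι] [DecidableEq ι] [Fintype κ] [Nonempty κ]
    (q : ι) (g : (ι → κ) → ℝ) :
    av g = av (fun b : κ => av (fun C : ι → κ => g (Function.update C q b))) := by
  have key : ∑ p : κ × (ι → κ), g (Function.update p.2 q p.1) = ∑ p : κ × (ι → κ), g p.2 := by
    let e : κ × (ι → κ) → κ × (ι → κ) := fun p => (p.2 q, Function.update p.2 q p.1)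
    have he : Function.Involutive e := by
      rintro ⟨b, C⟩
      simp [e]
    exact Equiv.sum_comp he.toPerm (fun p => g p.2)
  rw [Fintype.sum_prod_type, Fintype.sum_prod_type] at key
  dsimp only at key
  unfold av
  simp only [← Finset.sum_div]
  rw [key, Finset.sum_const, Finset.card_univ, nsmul_eq_mul]
  have h1 : (Fintype.card κ : ℝ) ≠ 0 := by exact_mod_cast Fintype.card_ne_zero
  field_simp

/-- three distinct coordinates are independent -/
lemma av_three {ι κ : Type*} [Fintype ι] [DecidableEq ι] [Fintype κ] [Nonempty κ]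
    {p q r : ι} (hpq : p ≠ q) (hpr : p ≠ r) (hqr : q ≠ r) (g : κ → κ → κ → ℝ) :
    av (fun C : ι → κ => g (C p) (C q) (C r))
      = av (fun a : κ => av (fun b : κ => av (fun c : κ => g a b c))) := by
  rw [av_update p]
  congr 1; funext a
  rw [av_update q]
  congr 1; funext b
  rw [av_update r]
  congr 1; funext c
  simp [Function.update_of_ne, av_const, hpq.symm, hpr.symm, hqr.symm]

lemma av_two {ι κ : Type*} [Fintype ι] [DecidableEq ι] [Fintype κ] [Nonempty κ]
    {p q : ι} (hpq : p ≠ q) (g : κ → κ → ℝ) :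
    av (fun C : ι → κ => g (C p) (C q))
      = av (fun a : κ => av (fun b : κ => g a b)) := by
  rw [av_update p]
  congr 1; funext a
  rw [av_update q]
  congr 1; funext b
  simp [Function.update_of_ne, av_const, hpq.symm]

/-- the negation of a literal -/
def ng (a : Lit n) : Lit n := (a.1, !a.2)

/-- `K1` is closed under setting `a` true -/
def XI (a : Lit n) (K : Finset (Asg n)) : Prop := ∀ s ∈ K, Function.update s a.1 a.2 ∈ K

lemma XI_lit {a b : Lit n} (hb : b.1 ≠ a.1) {K : Finset (Asg n)} (h : XI a K) :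
    XI a (K ∩ litSet b) := by
  intro s hs
  rw [Finset.mem_inter, mem_litSet] at hs ⊢
  refine ⟨h s hs.1, ?_⟩
  rw [Function.update_of_ne hb]
  exact hs.2

lemma XI_cl {a : Lit n} {C : Cl n k} (hC : ∀ i, (C i).1 ≠ a.1) {K : Finset (Asg n)}
    (h : XI a K) : XI a (K ∩ clSet C) := by
  intro s hs
  rw [Finset.mem_inter, mem_clSet] at hs ⊢
  obtain ⟨h1, i, hi⟩ := hs
  refine ⟨h s h1, i, ?_⟩
  rw [Function.update_of_ne (hC i)]
  exact hi

lemma XI_empty {a : Lit n} {K : Finset (Asg n)} (h : XI a K) (he : K ∩ litSet a = ∅) : K = ∅ := by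
  by_contra hne
  obtain ⟨s, hs⟩ := Finset.nonempty_iff_ne_empty.mpr hne
  have : Function.update s a.1 a.2 ∈ K ∩ litSet a := by
    rw [Finset.mem_inter, mem_litSet]
    exact ⟨h s hs, by simp⟩
  rw [he] at this
  exact absurd this (Finset.notMem_empty _)

/-- index of an occurrence of the negation of `a` -/
noncomputable def pos (a : Lit n) (C : Cl n k) (h : ∃ p, C p = ng a) : Fin k := h.choose

lemma pos_spec (a : Lit n) (C : Cl n k) (h : ∃ p, C p = ng a) : C (pos a C h) = ng a :=
  h.choose_spec

open Classical in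
/-- one-copy unfolded process -/
noncomputable def NT (n k T : ℕ) (f : Fin k → Fin k) (a : Lit n) :
    ℕ → Finset (Asg n) → Finset (Asg n) → ℝ
  | 0, K, K1 => if K1 = ∅ then 1 - th n k T K else 0
  | L + 1, K, K1 => av (fun C : Cl n k =>
      if ∃ i, C i = a then NT n k T f a L K K1
      else if h : ∃ p, C p = ng a then
        (if (C (f (pos a C h))).1 = a.1 then 1
          else NT n k T f a L K (K1 ∩ litSet (C (f (pos a C h)))))
      else NT n k T f a L (K ∩ clSet C) (K1 ∩ clSet C))

open Classical in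
/-- two-copy unfolded process -/
noncomputable def MT (n k T L : ℕ) (f g : Fin k → Fin k) (a : Lit n) :
    ℕ → Finset (Asg n) → Finset (Asg n) → Finset (Asg n) → ℝ
  | 0, K, K1, K2 => NT n k T f a L K K1 * NT n k T g a L K K2
  | j + 1, K, K1, K2 => av (fun C : Cl n k =>
      if ∃ i, C i = a then MT n k T L f g a j K K1 K2
      else if h : ∃ p, C p = ng a then
        (if (C (f (pos a C h))).1 = a.1 ∨ (C (g (pos a C h))).1 = a.1 then 1
          else MT n k T L f g a j K (K1 ∩ litSet (C (f (pos a C h))))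
            (K2 ∩ litSet (C (g (pos a C h)))))
      else MT n k T L f g a j (K ∩ clSet C) (K1 ∩ clSet C) (K2 ∩ clSet C))

/-- average of the square of `N_L` over `j` clauses -/
noncomputable def NS (n k T L : ℕ) : ℕ → Finset (Asg n) → Lit n → ℝ
  | 0, S, a => (NN n k T L S a) ^ 2
  | j + 1, S, a => av (fun C : Cl n k => NS n k T L j (S ∩ clSet C) a)

lemma NT_nonneg [NeZero n] (T : ℕ) (f : Fin k → Fin k) (a : Lit n) (L : ℕ)
    (K K1 : Finset (Asg n)) : 0 ≤ NT n k T f a L K K1 := by
  induction L generalizing K K1 with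
  | zero =>
    unfold NT
    split_ifs
    · have := th_le_one (k := k) T K; linarith
    · exact le_rfl
  | succ L ih =>
    unfold NT
    refine av_nonneg fun C => ?_
    split_ifs
    · exact ih _ _
    · norm_num
    · exact ih _ _
    · exact ih _ _

lemma NT_le_one [NeZero n] (T : ℕ) (f : Fin k → Fin k) (a : Lit n) (L : ℕ)
    (K K1 : Finset (Asg n)) : NT n k T f a L K K1 ≤ 1 := by
  induction L generalizing K K1 with
  | zero =>
    unfold NT
    split_ifs
    · have := th_nonneg (k := k) T K; linarith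
    · norm_num
  | succ L ih =>
    unfold NT
    refine av_le_const fun C => ?_
    split_ifs
    · exact ih _ _
    · norm_num
    · exact ih _ _
    · exact ih _ _

lemma MT_nonneg [NeZero n] (T L : ℕ) (f g : Fin k → Fin k) (a : Lit n) (j : ℕ)
    (K K1 K2 : Finset (Asg n)) : 0 ≤ MT n k T L f g a j K K1 K2 := by
  induction j generalizing K K1 K2 with
  | zero =>
    unfold MT
    exact mul_nonneg (NT_nonneg _ _ _ _ _ _) (NT_nonneg _ _ _ _ _ _)
  | succ L ih =>
    unfold MT
    refine av_nonneg fun C => ?_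
    split_ifs
    · exact ih _ _ _
    · norm_num
    · exact ih _ _ _
    · exact ih _ _ _

lemma NS_le_one [NeZero n] (T L : ℕ) (j : ℕ) (S : Finset (Asg n)) (a : Lit n) :
    NS n k T L j S a ≤ 1 := by
  induction j generalizing S with
  | zero =>
    unfold NS
    exact pow_le_one₀ (NN_nonneg _ _ _ _) (NN_le_one _ _ _ _)
  | succ L ih =>
    unfold NS
    exact av_le_const fun C => ih _

/-- a clause without `a` and without its negation has no literal on the variable of `a` -/
lemma out_of {a : Lit n} {C : Cl n k} (h1 : ¬ ∃ i, C i = a) (h2 : ¬ ∃ p, C p = ng a) :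
    ∀ i, (C i).1 ≠ a.1 := by
  intro i hi
  push Not at h1 h2
  have := h1 i
  have := h2 i
  rcases hb : (C i).2 with _ | _ <;> rcases ha : a.2 with _ | _ <;>
    simp_all [ng, Prod.ext_iff]

lemma lit_sub_cl (C : Cl n k) (i : Fin k) : litSet (C i) ⊆ clSet C := by
  intro s hs
  rw [mem_litSet] at hs
  rw [mem_clSet]
  exact ⟨i, hs⟩

/-- comparison, one copy -/
lemma NN_le_NT [NeZero n] (T : ℕ) (f : Fin k → Fin k) (a : Lit n) (L : ℕ)
    (S K K1 : Finset (Asg n)) (h1 : S ⊆ K) (h2 : K1 ∩ litSet a ⊆ S) (h3 : XI a K1) :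
    NN n k T L S a ≤ NT n k T f a L K K1 := by
  induction L generalizing S K K1 with
  | zero =>
    unfold NN NT
    by_cases h : S ∩ litSet a = ∅
    · have hK1 : K1 = ∅ := by
        apply XI_empty h3
        apply Finset.subset_empty.mp
        rw [← h]
        exact Finset.subset_inter h2 Finset.inter_subset_right
      rw [if_pos h, if_pos hK1]
      have := th_anti (k := k) T h1
      linarith
    · rw [if_neg h]
      have h4 := th_le_one (k := k) T K
      split_ifs
      · linarith
      · exact le_rfl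
  | succ L ih =>
    unfold NN NT
    refine av_mono fun C => ?_
    split_ifs with c1 c2 c3
    · obtain ⟨i, hi⟩ := c1
      refine ih _ _ _ (Finset.inter_subset_left.trans h1) ?_ h3
      refine Finset.subset_inter h2 (Finset.inter_subset_right.trans ?_)
      rw [← hi]
      exact lit_sub_cl C i
    · exact NN_le_one _ _ _ _
    · refine ih _ _ _ (Finset.inter_subset_left.trans h1) ?_ (XI_lit c3 h3)
      intro s hs
      simp only [Finset.mem_inter] at hs ⊢
      refine ⟨h2 (Finset.mem_inter.mpr ⟨hs.1.1, hs.2⟩), lit_sub_cl C _ hs.1.2⟩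
    · refine ih _ _ _ (Finset.inter_subset_inter_right h1) ?_ (XI_cl (out_of c1 c2) h3)
      intro s hs
      simp only [Finset.mem_inter] at hs ⊢
      exact ⟨h2 (Finset.mem_inter.mpr ⟨hs.1.1, hs.2⟩), hs.1.2⟩

/-- comparison, two copies -/
lemma NS_le_MT [NeZero n] (T L : ℕ) (f g : Fin k → Fin k) (a : Lit n) (j : ℕ)
    (S K K1 K2 : Finset (Asg n)) (h1 : S ⊆ K) (h2 : K1 ∩ litSet a ⊆ S) (h3 : XI a K1)
    (h4 : K2 ∩ litSet a ⊆ S) (h5 : XI a K2) :
    NS n k T L j S a ≤ MT n k T L f g a j K K1 K2 := by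
  induction j generalizing S K K1 K2 with
  | zero =>
    unfold NS MT
    rw [sq]
    exact mul_le_mul (NN_le_NT T f a L S K K1 h1 h2 h3) (NN_le_NT T g a L S K K2 h1 h4 h5)
      (NN_nonneg _ _ _ _) (NT_nonneg _ _ _ _ _ _)
  | succ L ih =>
    unfold NS MT
    refine av_mono fun C => ?_
    split_ifs with c1 c2 c3
    · obtain ⟨i, hi⟩ := c1
      refine ih _ _ _ _ (Finset.inter_subset_left.trans h1) ?_ h3 ?_ h5
      · refine Finset.subset_inter h2 (Finset.inter_subset_right.trans ?_)
        rw [← hi]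
        exact lit_sub_cl C i
      · refine Finset.subset_inter h4 (Finset.inter_subset_right.trans ?_)
        rw [← hi]
        exact lit_sub_cl C i
    · exact NS_le_one _ _ _ _ _
    · push Not at c3
      refine ih _ _ _ _ (Finset.inter_subset_left.trans h1) ?_ (XI_lit c3.1 h3) ?_
        (XI_lit c3.2 h5)
      · intro s hs
        simp only [Finset.mem_inter] at hs ⊢
        refine ⟨h2 (Finset.mem_inter.mpr ⟨hs.1.1, hs.2⟩), lit_sub_cl C _ hs.1.2⟩
      · intro s hs
        simp only [Finset.mem_inter] at hs ⊢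
        refine ⟨h4 (Finset.mem_inter.mpr ⟨hs.1.1, hs.2⟩), lit_sub_cl C _ hs.1.2⟩
    · refine ih _ _ _ _ (Finset.inter_subset_inter_right h1) ?_ (XI_cl (out_of c1 c2) h3) ?_
        (XI_cl (out_of c1 c2) h5)
      · intro s hs
        simp only [Finset.mem_inter] at hs ⊢
        exact ⟨h2 (Finset.mem_inter.mpr ⟨hs.1.1, hs.2⟩), hs.1.2⟩
      · intro s hs
        simp only [Finset.mem_inter] at hs ⊢
        exact ⟨h4 (Finset.mem_inter.mpr ⟨hs.1.1, hs.2⟩), hs.1.2⟩

end KSat6
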