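import Vale.Agent.KSat.H6U

/-! Random k-SAT: bounds for the unfolded processes. -/

namespace KSat6

open Finset

variable {n k : ℕ}

/-- averaging over `D` random units -/
noncomputable def BI (n : ℕ) : ℕ → (Finset (Asg n) → ℝ) → Finset (Asg n) → ℝ
  | 0, g, K => g K
  | D + 1, g, K => av (fun b : Lit n => BI n D g (K ∩ litSet b))

lemma BI_mono (D : ℕ) {g h : Finset (Asg n) → ℝ} (H : ∀ K, g K ≤ h K) (K : Finset (Asg n)) :
    BI n D g K ≤ BI n D h K := by
  induction D generalizing K with
  | zero => exact H K
  | succ D ih => unfold BI; exact av_mono fun b => ih _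

lemma BI_nonneg (D : ℕ) {g : Finset (Asg n) → ℝ} (H : ∀ K, 0 ≤ g K) (K : Finset (Asg n)) :
    0 ≤ BI n D g K := by
  induction D generalizing K with
  | zero => exact H K
  | succ D ih => unfold BI; exact av_nonneg fun b => ih _

lemma BI_const [NeZero n] (D : ℕ) (c : ℝ) (K : Finset (Asg n)) : BI n D (fun _ => c) K = c := by
  induction D generalizing K with
  | zero => rfl
  | succ D ih => unfold BI; simp only [ih]; exact av_const c

lemma BI_inter (D : ℕ) (g : Finset (Asg n) → ℝ) (K X : Finset (Asg n)) :
    BI n D g (K ∩ X) = BI n D (fun K' => g (K' ∩ X)) K := by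
  induction D generalizing K with
  | zero => rfl
  | succ D ih =>
    unfold BI
    congr 1; funext b
    rw [← ih, Finset.inter_right_comm]

lemma BI_av {ι : Type*} [Fintype ι] (D : ℕ) (g : ι → Finset (Asg n) → ℝ) (K : Finset (Asg n)) :
    BI n D (fun K' => av (fun i => g i K')) K = av (fun i => BI n D (g i) K) := by
  induction D generalizing K with
  | zero => rfl
  | succ D ih =>
    unfold BI
    simp only [ih]
    rw [av_comm]

lemma BI_mul_right (D : ℕ) (g : Finset (Asg n) → ℝ) (c : ℝ) (K : Finset (Asg n)) :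
    BI n D (fun K' => g K' * c) K = BI n D g K * c := by
  induction D generalizing K with
  | zero => rfl
  | succ D ih => unfold BI; simp only [ih]; rw [av_mul_right]

lemma BI_mul_left (D : ℕ) (g : Finset (Asg n) → ℝ) (c : ℝ) (K : Finset (Asg n)) :
    BI n D (fun K' => c * g K') K = c * BI n D g K := by
  induction D generalizing K with
  | zero => rfl
  | succ D ih => unfold BI; simp only [ih]; rw [av_mul_left]

lemma BI_lam (D : ℕ) (c : ℝ) (K : Finset (Asg n)) :
    BI n D (fun K' => if K' = ∅ then c else 0) K = lam n D K * c := by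
  have h : (fun K' : Finset (Asg n) => if K' = ∅ then c else 0)
      = fun K' => (if K' = ∅ then (1 : ℝ) else 0) * c := by
    funext K'; split_ifs <;> simp
  rw [h, BI_mul_right]
  congr 1
  induction D generalizing K with
  | zero => rfl
  | succ D ih => unfold BI lam; simp only [ih]

/-- two independent families of `D` units -/
noncomputable def BJ (n D : ℕ) (H : Finset (Asg n) → Finset (Asg n) → ℝ)
    (K1 K2 : Finset (Asg n)) : ℝ :=
  BI n D (fun X => BI n D (fun Y => H X Y) K2) K1

lemma BJ_mono (D : ℕ) {g h : Finset (Asg n) → Finset (Asg n) → ℝ}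
    (H : ∀ K L, g K L ≤ h K L) (K L : Finset (Asg n)) :
    BJ n D g K L ≤ BJ n D h K L :=
  BI_mono D (fun X => BI_mono D (fun Y => H X Y) L) K

lemma BJ_nonneg (D : ℕ) {g : Finset (Asg n) → Finset (Asg n) → ℝ}
    (H : ∀ K L, 0 ≤ g K L) (K L : Finset (Asg n)) : 0 ≤ BJ n D g K L :=
  BI_nonneg D (fun X => BI_nonneg D (fun Y => H X Y) L) K

lemma BJ_const [NeZero n] (D : ℕ) (c : ℝ) (K L : Finset (Asg n)) :
    BJ n D (fun _ _ => c) K L = c := by
  unfold BJ
  simp only [BI_const]

lemma BJ_inter (D : ℕ) (g : Finset (Asg n) → Finset (Asg n) → ℝ) (K L X Y : Finset (Asg n)) :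
    BJ n D g (K ∩ X) (L ∩ Y) = BJ n D (fun K' L' => g (K' ∩ X) (L' ∩ Y)) K L := by
  unfold BJ
  rw [BI_inter]
  congr 1; funext K'
  rw [BI_inter]

lemma BJ_av {ι : Type*} [Fintype ι] (D : ℕ) (g : ι → Finset (Asg n) → Finset (Asg n) → ℝ)
    (K L : Finset (Asg n)) :
    BJ n D (fun K' L' => av (fun i => g i K' L')) K L = av (fun i => BJ n D (g i) K L) := by
  unfold BJ
  simp only [BI_av]

lemma BJ_succ (D : ℕ) (g : Finset (Asg n) → Finset (Asg n) → ℝ) (K L : Finset (Asg n)) :
    BJ n (D + 1) g K L
      = av (fun b : Lit n => av (fun c : Lit n => BJ n D g (K ∩ litSet b) (L ∩ litSet c))) := by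
  unfold BJ
  show av (fun b : Lit n => BI n D (fun X => av (fun c : Lit n =>
    BI n D (fun Y => g X Y) (L ∩ litSet c))) (K ∩ litSet b)) = _
  congr 1; funext b
  rw [BI_av]

lemma BJ_prod (D : ℕ) (g h : Finset (Asg n) → ℝ) (K L : Finset (Asg n)) :
    BJ n D (fun X Y => g X * h Y) K L = BI n D g K * BI n D h L := by
  unfold BJ
  simp only [BI_mul_left]
  rw [BI_mul_right]

lemma card_Lit : (Fintype.card (Lit n) : ℝ) = 2 * n := by
  simp [Fintype.card_prod, mul_comm]

lemma av_eq_lit (a : Lit n) (X : ℝ) :
    av (fun b : Lit n => if b = a then X else 0) = X / (2 * n) := by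
  unfold av
  rw [card_Lit]
  simp

lemma av_var_lit [NeZero n] (a : Lit n) :
    av (fun b : Lit n => if b.1 = a.1 then (1 : ℝ) else 0) = 1 / n := by
  unfold av
  rw [card_Lit, Fintype.sum_prod_type]
  have hn : (n : ℝ) ≠ 0 := by exact_mod_cast NeZero.ne n
  have h1 : ∀ x : Fin n, (∑ y : Bool, if (x, y).1 = a.1 then (1 : ℝ) else 0)
      = if x = a.1 then 2 else 0 := by
    intro x
    rw [Fintype.sum_bool]
    dsimp only
    split_ifs <;> norm_num
  rw [Finset.sum_congr rfl (fun x _ => h1 x), Finset.sum_ite_eq' Finset.univ a.1]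
  simp only [Finset.mem_univ, if_true]
  field_simp

open Classical in
/-- cost of a unit clause -/
lemma av_unit_le [NeZero n] (f g : Fin k → Fin k) (hf : ∀ p, f p ≠ p) (hg : ∀ p, g p ≠ p)
    (hfg : ∀ p, f p ≠ g p) (a : Lit n) (H : Lit n → Lit n → ℝ) (hH : ∀ b c, 0 ≤ H b c) :
    av (fun C : Cl n k => if h : ∃ p, C p = ng a then
        H (C (f (pos a C h))) (C (g (pos a C h))) else 0)
      ≤ (k : ℝ) / (2 * n) * av (fun b => av (fun c => H b c)) := by
  have h1 : ∀ C : Cl n k, (if h : ∃ p, C p = ng a then
        H (C (f (pos a C h))) (C (g (pos a C h))) else 0)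
      ≤ ∑ p : Fin k, (if C p = ng a then H (C (f p)) (C (g p)) else 0) := by
    intro C
    have hnn : ∀ p ∈ (Finset.univ : Finset (Fin k)),
        0 ≤ (if C p = ng a then H (C (f p)) (C (g p)) else 0) := by
      intro p _
      split_ifs
      · exact hH _ _
      · exact le_rfl
    split_ifs with h
    · have h2 := Finset.single_le_sum hnn (Finset.mem_univ (pos a C h))
      rw [if_pos (pos_spec a C h)] at h2
      exact h2
    · exact Finset.sum_nonneg hnn
  refine (av_mono h1).trans ?_
  rw [av_sum]
  have h3 : ∀ p ∈ (Finset.univ : Finset (Fin k)),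
      av (fun C : Cl n k => if C p = ng a then H (C (f p)) (C (g p)) else 0)
        = av (fun b => av (fun c => H b c)) / (2 * n) := by
    intro p _
    rw [av_three (hf p).symm (hg p).symm (hfg p)
      (fun a' b c => if a' = ng a then H b c else 0)]
    rw [← av_eq_lit (ng a)]
    congr 1; funext a'
    split_ifs with h
    · rfl
    · simp only [av_const]
  rw [Finset.sum_congr rfl h3, Finset.sum_const, Finset.card_univ, Fintype.card_fin,
    nsmul_eq_mul]
  apply le_of_eq
  ring

/-- first moment bound for the one-copy process -/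
lemma NTB [NeZero n] {T : ℕ} (f g : Fin k → Fin k) (hf : ∀ p, f p ≠ p) (hg : ∀ p, g p ≠ p)
    (hfg : ∀ p, f p ≠ g p) (a : Lit n) {ρ : ℝ} (hρ0 : 0 ≤ ρ)
    (hρ : ∀ (D : ℕ) (K : Finset (Asg n)), lam n D K * (1 - th n k T K) ≤ ρ * 2 ^ D)
    (L D : ℕ) (K : Finset (Asg n)) :
    BI n D (NT n k T f a L K) K
      ≤ (ρ * 2 ^ D + L * ((k : ℝ) / (2 * n) * (1 / n))) * (1 + 2 * ((k : ℝ) / (2 * n))) ^ L := by
  set q : ℝ := (k : ℝ) / (2 * n) with hq
  have hq0 : 0 ≤ q := by positivity
  have hn0 : (0 : ℝ) ≤ 1 / n := by positivity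
  induction L generalizing D K with
  | zero =>
    have h1 : BI n D (NT n k T f a 0 K) K = lam n D K * (1 - th n k T K) := by
      rw [← BI_lam]
      rfl
    rw [h1]
    have := hρ D K
    simpa using this
  | succ L ih =>
    set β : ℕ → ℝ := fun D => (ρ * 2 ^ D + L * (q * (1 / n))) * (1 + 2 * q) ^ L with hβ
    have hβ0 : ∀ D, 0 ≤ β D := fun D => by positivity
    have hstep : NT n k T f a (L + 1) K = fun K1 => av (fun C : Cl n k =>
      if ∃ i, C i = a then NT n k T f a L K K1
      else if h : ∃ p, C p = ng a then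
        (if (C (f (pos a C h))).1 = a.1 then 1
          else NT n k T f a L K (K1 ∩ litSet (C (f (pos a C h)))))
      else NT n k T f a L (K ∩ clSet C) (K1 ∩ clSet C)) := by
      funext K1
      conv_lhs => unfold NT
    rw [hstep, BI_av]
    set G : Lit n → ℝ := fun b => (if b.1 = a.1 then (1 : ℝ) else 0)
      + BI n D (NT n k T f a L K) (K ∩ litSet b) with hG
    have hG0 : ∀ b, 0 ≤ G b := by
      intro b
      have := BI_nonneg D (fun K1 => NT_nonneg T f a L K K1) (K ∩ litSet b)
      have h2 : (0 : ℝ) ≤ (if b.1 = a.1 then (1 : ℝ) else 0) := by split_ifs <;> norm_num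
      exact add_nonneg h2 this
    have hC : ∀ C : Cl n k, BI n D (fun K1 =>
      if ∃ i, C i = a then NT n k T f a L K K1
      else if h : ∃ p, C p = ng a then
        (if (C (f (pos a C h))).1 = a.1 then 1
          else NT n k T f a L K (K1 ∩ litSet (C (f (pos a C h)))))
      else NT n k T f a L (K ∩ clSet C) (K1 ∩ clSet C)) K
        ≤ β D + (if h : ∃ p, C p = ng a then G (C (f (pos a C h))) else 0) := by
      intro C
      by_cases c1 : ∃ i, C i = a
      · simp only [if_pos c1]
        have h1 := ih D K
        have h2 : (0 : ℝ) ≤ (if h : ∃ p, C p = ng a then G (C (f (pos a C h))) else 0) := by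
          split_ifs
          · exact hG0 _
          · exact le_rfl
        exact h1.trans (le_add_of_nonneg_right h2)
      · simp only [if_neg c1]
        by_cases c2 : ∃ p, C p = ng a
        · simp only [dif_pos c2]
          by_cases c3 : (C (f (pos a C c2))).1 = a.1
          · simp only [if_pos c3, BI_const]
            have h1 : 1 ≤ G (C (f (pos a C c2))) := by
              rw [hG]
              dsimp only
              rw [if_pos c3]
              have := BI_nonneg D (fun K1 => NT_nonneg T f a L K K1)
                (K ∩ litSet (C (f (pos a C c2))))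
              linarith
            have := hβ0 D
            linarith
          · simp only [if_neg c3]
            rw [← BI_inter]
            have h1 : BI n D (NT n k T f a L K) (K ∩ litSet (C (f (pos a C c2))))
                ≤ G (C (f (pos a C c2))) := by
              rw [hG]
              dsimp only
              rw [if_neg c3]
              linarith
            have := hβ0 D
            linarith
        · simp only [dif_neg c2, add_zero]
          rw [← BI_inter D (fun X => NT n k T f a L (K ∩ clSet C) X)]
          exact ih D (K ∩ clSet C)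
    refine (av_mono hC).trans ?_
    rw [av_add, av_const]
    have hU := av_unit_le f g hf hg hfg a (fun b _ => G b) (fun b _ => hG0 b)
    have hav : av (fun b : Lit n => av (fun _ : Lit n => G b))
        = 1 / n + BI n (D + 1) (NT n k T f a L K) K := by
      simp only [av_const]
      rw [hG, av_add, av_var_lit]
      rfl
    rw [hav] at hU
    have h5 := ih (D + 1) K
    have h6 : q * (1 / n + BI n (D + 1) (NT n k T f a L K) K) ≤ q * (1 / n + β (D + 1)) :=
      mul_le_mul_of_nonneg_left (by linarith) hq0
    have h7 : β D + q * (1 / n + β (D + 1)) ≤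
        (ρ * 2 ^ D + ((L + 1 : ℕ) : ℝ) * (q * (1 / n))) * (1 + 2 * q) ^ (L + 1) := by
      rw [hβ]
      dsimp only
      have hP1 : (1 : ℝ) ≤ (1 + 2 * q) ^ L := one_le_pow₀ (by linarith)
      rw [pow_succ (1 + 2 * q) L, pow_succ (2 : ℝ) D]
      set P := (1 + 2 * q) ^ L with hP
      push_cast
      have hr0 : (0 : ℝ) ≤ ρ * 2 ^ D := by positivity
      have hqn : (0 : ℝ) ≤ q * (1 / n) := by positivity
      have hL0 : (0 : ℝ) ≤ L := Nat.cast_nonneg L
      set s := q * (1 / (n : ℝ)) with hs
      set w := ρ * 2 ^ D with hw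
      have e1 : ρ * (2 ^ D * 2) = 2 * w := by rw [hw]; ring
      rw [e1]
      have e2 : q * (1 / (n : ℝ) + (2 * w + L * s) * P) = s + q * ((2 * w + L * s) * P) := by
        rw [hs]; ring
      rw [e2]
      have e3 : (w + (L + 1) * s) * (P * (1 + 2 * q)) - ((w + L * s) * P
          + (s + q * ((2 * w + L * s) * P))) = s * (P - 1) + 2 * q * P * s + q * P * (L * s) := by
        ring
      have e4 : 0 ≤ s * (P - 1) + 2 * q * P * s + q * P * (L * s) := by
        have : 0 ≤ P - 1 := by linarith
        have hP0 : 0 ≤ P := by linarith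
        positivity
      linarith
    linarith

/-- second moment bound for the two-copy process -/
lemma MTB [NeZero n] {T L : ℕ} (f g : Fin k → Fin k) (hf : ∀ p, f p ≠ p) (hg : ∀ p, g p ≠ p)
    (hfg : ∀ p, f p ≠ g p) (a : Lit n) {G0 H0 : ℝ} (hG0 : 0 ≤ G0) (hH0 : 0 ≤ H0)
    (hbase : ∀ (D : ℕ) (K : Finset (Asg n)),
      BI n D (NT n k T f a L K) K * BI n D (NT n k T g a L K) K ≤ G0 * 4 ^ D + H0)
    (j D : ℕ) (K : Finset (Asg n)) :
    BJ n D (MT n k T L f g a j K) K K
      ≤ (G0 * 4 ^ D + H0 + j * ((k : ℝ) / (2 * n) * (2 / n)))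
        * (1 + 4 * ((k : ℝ) / (2 * n))) ^ j := by
  set q : ℝ := (k : ℝ) / (2 * n) with hq
  have hq0 : 0 ≤ q := by positivity
  have hn0 : (0 : ℝ) ≤ 1 / n := by positivity
  induction j generalizing D K with
  | zero =>
    have h1 : BJ n D (MT n k T L f g a 0 K) K K
        = BI n D (NT n k T f a L K) K * BI n D (NT n k T g a L K) K := by
      rw [← BJ_prod]
      rfl
    rw [h1]
    have := hbase D K
    simpa using this
  | succ j ih =>
    set β : ℕ → ℝ := fun D => (G0 * 4 ^ D + H0 + j * (q * (2 / n))) * (1 + 4 * q) ^ j with hβ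
    have hβ0 : ∀ D, 0 ≤ β D := fun D => by positivity
    have hstep : MT n k T L f g a (j + 1) K = fun K1 K2 => av (fun C : Cl n k =>
      if ∃ i, C i = a then MT n k T L f g a j K K1 K2
      else if h : ∃ p, C p = ng a then
        (if (C (f (pos a C h))).1 = a.1 ∨ (C (g (pos a C h))).1 = a.1 then 1
          else MT n k T L f g a j K (K1 ∩ litSet (C (f (pos a C h))))
            (K2 ∩ litSet (C (g (pos a C h)))))
      else MT n k T L f g a j (K ∩ clSet C) (K1 ∩ clSet C) (K2 ∩ clSet C)) := by
      funext K1 K2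
      conv_lhs => unfold MT
    rw [hstep, BJ_av]
    set G : Lit n → Lit n → ℝ := fun b c => ((if b.1 = a.1 then (1 : ℝ) else 0)
      + (if c.1 = a.1 then (1 : ℝ) else 0))
      + BJ n D (MT n k T L f g a j K) (K ∩ litSet b) (K ∩ litSet c) with hG
    have hi0 : ∀ b : Lit n, (0 : ℝ) ≤ (if b.1 = a.1 then (1 : ℝ) else 0) := by
      intro b; split_ifs <;> norm_num
    have hJ0 : ∀ X Y, 0 ≤ BJ n D (MT n k T L f g a j K) X Y := fun X Y =>
      BJ_nonneg D (fun K1 K2 => MT_nonneg T L f g a j K K1 K2) X Y
    have hGnn : ∀ b c, 0 ≤ G b c := by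
      intro b c
      exact add_nonneg (add_nonneg (hi0 b) (hi0 c)) (hJ0 _ _)
    have hC : ∀ C : Cl n k, BJ n D (fun K1 K2 =>
      if ∃ i, C i = a then MT n k T L f g a j K K1 K2
      else if h : ∃ p, C p = ng a then
        (if (C (f (pos a C h))).1 = a.1 ∨ (C (g (pos a C h))).1 = a.1 then 1
          else MT n k T L f g a j K (K1 ∩ litSet (C (f (pos a C h))))
            (K2 ∩ litSet (C (g (pos a C h)))))
      else MT n k T L f g a j (K ∩ clSet C) (K1 ∩ clSet C) (K2 ∩ clSet C)) K K
        ≤ β D + (if h : ∃ p, C p = ng a then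
            G (C (f (pos a C h))) (C (g (pos a C h))) else 0) := by
      intro C
      by_cases c1 : ∃ i, C i = a
      · simp only [if_pos c1]
        have h1 := ih D K
        have h2 : (0 : ℝ) ≤ (if h : ∃ p, C p = ng a then
            G (C (f (pos a C h))) (C (g (pos a C h))) else 0) := by
          split_ifs
          · exact hGnn _ _
          · exact le_rfl
        exact h1.trans (le_add_of_nonneg_right h2)
      · simp only [if_neg c1]
        by_cases c2 : ∃ p, C p = ng a
        · simp only [dif_pos c2]
          by_cases c3 : (C (f (pos a C c2))).1 = a.1 ∨ (C (g (pos a C c2))).1 = a.1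
          · simp only [if_pos c3, BJ_const]
            have h1 : 1 ≤ G (C (f (pos a C c2))) (C (g (pos a C c2))) := by
              rw [hG]
              dsimp only
              have h2 := hJ0 (K ∩ litSet (C (f (pos a C c2)))) (K ∩ litSet (C (g (pos a C c2))))
              have h3 := hi0 (C (f (pos a C c2)))
              have h4 := hi0 (C (g (pos a C c2)))
              rcases c3 with c3 | c3
              · rw [if_pos c3] at h3 ⊢
                linarith
              · rw [if_pos c3] at h4 ⊢
                linarith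
            have := hβ0 D
            linarith
          · simp only [if_neg c3]
            rw [← BJ_inter]
            have h1 : BJ n D (MT n k T L f g a j K) (K ∩ litSet (C (f (pos a C c2))))
                (K ∩ litSet (C (g (pos a C c2))))
                ≤ G (C (f (pos a C c2))) (C (g (pos a C c2))) := by
              rw [hG]
              dsimp only
              have h3 := hi0 (C (f (pos a C c2)))
              have h4 := hi0 (C (g (pos a C c2)))
              linarith
            have := hβ0 D
            linarith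
        · simp only [dif_neg c2, add_zero]
          rw [← BJ_inter D (fun X Y => MT n k T L f g a j (K ∩ clSet C) X Y)]
          exact ih D (K ∩ clSet C)
    refine (av_mono hC).trans ?_
    rw [av_add, av_const]
    have hU := av_unit_le f g hf hg hfg a G hGnn
    have hav : av (fun b : Lit n => av (fun c : Lit n => G b c))
        = 2 / n + BJ n (D + 1) (MT n k T L f g a j K) K K := by
      rw [hG, BJ_succ]
      simp only [av_add, av_const, av_var_lit]
      ring
    rw [hav] at hU
    have h5 := ih (D + 1) K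
    have h6 : q * (2 / n + BJ n (D + 1) (MT n k T L f g a j K) K K) ≤ q * (2 / n + β (D + 1)) :=
      mul_le_mul_of_nonneg_left (by linarith) hq0
    have h7 : β D + q * (2 / n + β (D + 1)) ≤
        (G0 * 4 ^ D + H0 + ((j + 1 : ℕ) : ℝ) * (q * (2 / n))) * (1 + 4 * q) ^ (j + 1) := by
      rw [hβ]
      dsimp only
      have hP1 : (1 : ℝ) ≤ (1 + 4 * q) ^ j := one_le_pow₀ (by linarith)
      rw [pow_succ (1 + 4 * q) j, pow_succ (4 : ℝ) D]
      set P := (1 + 4 * q) ^ j with hP
      push_cast
      have hr0 : (0 : ℝ) ≤ G0 * 4 ^ D := by positivity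
      have hqn : (0 : ℝ) ≤ q * (2 / n) := by positivity
      have hL0 : (0 : ℝ) ≤ j := Nat.cast_nonneg j
      set s := q * (2 / (n : ℝ)) with hs
      set w := G0 * 4 ^ D with hw
      have e1 : G0 * (4 ^ D * 4) = 4 * w := by rw [hw]; ring
      rw [e1]
      have e2 : q * (2 / (n : ℝ) + (4 * w + H0 + j * s) * P)
          = s + q * ((4 * w + H0 + j * s) * P) := by
        rw [hs]; ring
      rw [e2]
      have e3 : (w + H0 + (j + 1) * s) * (P * (1 + 4 * q)) - ((w + H0 + j * s) * P
          + (s + q * ((4 * w + H0 + j * s) * P)))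
          = s * (P - 1) + 4 * q * P * s + 3 * q * P * (j * s) + 3 * q * P * H0 := by
        ring
      have e4 : 0 ≤ s * (P - 1) + 4 * q * P * s + 3 * q * P * (j * s) + 3 * q * P * H0 := by
        have : 0 ≤ P - 1 := by linarith
        have hP0 : 0 ≤ P := by linarith
        positivity
      linarith
    linarith

end KSat6
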