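import Vale.Agent.KSat.H6V

/-! Random k-SAT: the final second moment bound for `N_L(S;a)`. -/

namespace KSat6

open Finset

variable {n k : ℕ}

lemma rpow_facts {T : ℕ} (hT : 1 ≤ T) (hk : 1 ≤ k) :
    0 < (T : ℝ) ^ (-(1 / (k : ℝ))) ∧ ((T : ℝ) ^ (-(1 / (k : ℝ)))) ^ k * T = 1 := by
  have hT0 : (0 : ℝ) < T := by exact_mod_cast hT
  have hk0 : (k : ℝ) ≠ 0 := by
    have : k ≠ 0 := by omega
    exact_mod_cast this
  refine ⟨Real.rpow_pos_of_pos hT0 _, ?_⟩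
  rw [← Real.rpow_natCast, ← Real.rpow_mul hT0.le]
  have e : -(1 / (k : ℝ)) * (k : ℝ) = -1 := by field_simp
  rw [e, Real.rpow_neg_one]
  field_simp

lemma sq_le_two_pow (D : ℕ) : (D : ℝ) ^ 2 ≤ 2 * 2 ^ D := by
  have h : ∀ D : ℕ, D ^ 2 ≤ 2 * 2 ^ D := by
    intro D
    induction D with
    | zero => norm_num
    | succ D ih =>
      rcases Nat.lt_or_ge D 3 with h | h
      · interval_cases D <;> norm_num
      · rw [pow_succ 2 D]
        nlinarith
  exact_mod_cast h D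

lemma lam_th_le [NeZero n] {T : ℕ} (hT : 1 ≤ T) (hk : 1 ≤ k) (D : ℕ) (K : Finset (Asg n)) :
    lam n D K * (1 - th n k T K) ≤ (4 * (T : ℝ) ^ (-(1 / (k : ℝ)))) * 2 ^ D := by
  obtain ⟨hp, hpk⟩ := rpow_facts (k := k) hT hk
  set τ := (T : ℝ) ^ (-(1 / (k : ℝ))) with hτ
  have hT0 : (0 : ℝ) < T := by exact_mod_cast hT
  rcases Nat.eq_zero_or_pos D with hD | hD
  · subst hD
    unfold lam
    by_cases h : K = ∅
    · rw [h, th_empty]; simp; exact hp.le
    · simp [h]; exact hp.le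
  · have hD1 : (1 : ℝ) ≤ D := by exact_mod_cast hD
    have hsq := sq_le_two_pow D
    rcases Nat.lt_or_ge T D with h | h
    · -- D > T
      have h1 : lam n D K * (1 - th n k T K) ≤ 1 := by
        have a1 := lam_le_one D K
        have a2 := lam_nonneg D K
        have a3 := th_nonneg (k := k) T K
        have a4 := th_le_one (k := k) T K
        nlinarith
      -- 1 ≤ D τ
      have h2 : 1 ≤ (D : ℝ) * τ := by
        by_contra hc
        push Not at hc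
        have h3 : ((D : ℝ) * τ) ^ k ≤ (D : ℝ) * τ := by
          have h0 : 0 ≤ (D : ℝ) * τ := by positivity
          calc ((D : ℝ) * τ) ^ k ≤ ((D : ℝ) * τ) ^ 1 := pow_le_pow_of_le_one h0 hc.le hk
            _ = _ := pow_one _
        have h4 : (D : ℝ) ^ k ≥ D := by
          calc (D : ℝ) = (D : ℝ) ^ 1 := (pow_one _).symm
            _ ≤ (D : ℝ) ^ k := pow_le_pow_right₀ hD1 hk
        have h5 : ((D : ℝ) * τ) ^ k * T = (D : ℝ) ^ k := by
          rw [mul_pow, mul_assoc, hpk, mul_one]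
        have h6 : (T : ℝ) < D := by exact_mod_cast h
        have h7 : ((D : ℝ) * τ) ^ k * T < 1 * T :=
          mul_lt_mul_of_pos_right (lt_of_le_of_lt h3 hc) hT0
        linarith
      have h3 : (D : ℝ) ≤ 2 ^ D := by
        have : D < 2 ^ D := Nat.lt_two_pow_self
        exact_mod_cast this.le
      nlinarith
    · -- D ≤ T
      have ht1 : 1 ≤ T / D := (Nat.one_le_div_iff hD).mpr h
      have hdt : D * (T / D) ≤ T := Nat.mul_div_le T D
      have hlt : T < D * (T / D) + D := by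
        have := Nat.mod_lt T hD
        have := Nat.div_add_mod T D
        omega
      have hb := L2 (k := k) (t := T / D) (τ := 2 * D * τ) (by positivity)
        (tau_le (by positivity) hk (by
          have e1 : (2 * (D : ℝ) * τ) ^ k * ((T / D : ℕ) : ℝ)
              = (2 * (D : ℝ)) ^ k * (τ ^ k * T) * (((T / D : ℕ) : ℝ) / T) := by
            rw [mul_pow]; field_simp
          rw [e1, hpk, mul_one]
          have e2 : 2 * (D : ℝ) ≤ (2 * (D : ℝ)) ^ k := by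
            calc 2 * (D : ℝ) = (2 * (D : ℝ)) ^ 1 := (pow_one _).symm
              _ ≤ _ := pow_le_pow_right₀ (by linarith) hk
          have e3 : (T : ℝ) ≤ 2 * D * ((T / D : ℕ) : ℝ) := by
            have : T ≤ 2 * D * (T / D) := by
              have : D * 1 ≤ D * (T / D) := Nat.mul_le_mul_left D ht1
              have e : 2 * D * (T / D) = D * (T / D) + D * (T / D) := by ring
              omega
            exact_mod_cast this
          have e4 : (0 : ℝ) ≤ ((T / D : ℕ) : ℝ) / T := by positivity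
          calc (1 : ℝ) = T / T := by field_simp
            _ ≤ 2 * D * ((T / D : ℕ) : ℝ) / T := div_le_div_of_nonneg_right e3 hT0.le
            _ = 2 * D * (((T / D : ℕ) : ℝ) / T) := by ring
            _ ≤ (2 * (D : ℝ)) ^ k * (((T / D : ℕ) : ℝ) / T) :=
              mul_le_mul_of_nonneg_right e2 e4)) D T hdt K
      refine hb.trans ?_
      nlinarith

/-- two choice functions -/
lemma exists_fg (hk : 3 ≤ k) : ∃ f g : Fin k → Fin k, (∀ p, f p ≠ p) ∧ (∀ p, g p ≠ p) ∧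
    (∀ p, f p ≠ g p) := by
  obtain ⟨m, rfl⟩ : ∃ m, k = m + 3 := ⟨k - 3, by omega⟩
  have h2 : ((2 : Fin (m + 3)) : ℕ) = 2 := by
    show 2 % (m + 3) = 2
    exact Nat.mod_eq_of_lt (by omega)
  have h1 : ((1 : Fin (m + 3)) : ℕ) = 1 := by
    show 1 % (m + 3) = 1
    exact Nat.mod_eq_of_lt (by omega)
  refine ⟨fun p => p + 1, fun p => p + 2, ?_, ?_, ?_⟩
  · intro p hp
    have : (1 : Fin (m + 3)) = 0 := left_eq_add.mp hp.symm
    have h3 := congrArg Fin.val this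
    rw [h1] at h3
    simp at h3
  · intro p hp
    have : (2 : Fin (m + 3)) = 0 := by simpa using hp
    have h3 := congrArg Fin.val this
    rw [h2] at h3
    simp at h3
  · intro p hp
    have : (1 : Fin (m + 3)) = 2 := by simpa using hp
    have h3 := congrArg Fin.val this
    rw [h1, h2] at h3
    omega

lemma base_le [NeZero n] {T : ℕ} (f g : Fin k → Fin k) (hf : ∀ p, f p ≠ p) (hg : ∀ p, g p ≠ p)
    (hfg : ∀ p, f p ≠ g p) (a : Lit n) {ρ : ℝ} (hρ0 : 0 ≤ ρ)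
    (hρ : ∀ (D : ℕ) (K : Finset (Asg n)), lam n D K * (1 - th n k T K) ≤ ρ * 2 ^ D)
    {q : ℝ} (hq : q = (k : ℝ) / (2 * n)) (L D : ℕ) (K : Finset (Asg n)) :
    BI n D (NT n k T f a L K) K * BI n D (NT n k T g a L K) K
      ≤ (2 * ρ ^ 2 * ((1 + 2 * q) ^ L) ^ 2) * 4 ^ D
        + 2 * (L * (q * (1 / n))) ^ 2 * ((1 + 2 * q) ^ L) ^ 2 := by
  have hq0 : 0 ≤ q := by rw [hq]; positivity
  have h1 := NTB f g hf hg hfg a hρ0 hρ L D K
  have h2 := NTB g f hg hf (fun p => (hfg p).symm) a hρ0 hρ L D K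
  have h3 := BI_nonneg D (fun K1 => NT_nonneg T g a L K K1) K
  rw [← hq] at h1 h2
  have h4 : 0 ≤ (ρ * 2 ^ D + L * (q * (1 / n))) * (1 + 2 * q) ^ L := by positivity
  refine (mul_le_mul h1 h2 h3 h4).trans ?_
  have e1 : (ρ * 2 ^ D + L * (q * (1 / n))) * (1 + 2 * q) ^ L
      * ((ρ * 2 ^ D + L * (q * (1 / n))) * (1 + 2 * q) ^ L)
      = (ρ * 2 ^ D + L * (q * (1 / n))) ^ 2 * ((1 + 2 * q) ^ L) ^ 2 := by ring
  rw [e1]
  have e2 : (4 : ℝ) ^ D = (2 ^ D) ^ 2 := by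
    rw [← pow_mul, mul_comm D 2, pow_mul]; norm_num
  have e3 : (ρ * 2 ^ D + L * (q * (1 / n))) ^ 2
      ≤ 2 * ρ ^ 2 * (2 ^ D) ^ 2 + 2 * (L * (q * (1 / n))) ^ 2 := by
    nlinarith [sq_nonneg (ρ * 2 ^ D - L * (q * (1 / n)))]
  calc (ρ * 2 ^ D + L * (q * (1 / n))) ^ 2 * ((1 + 2 * q) ^ L) ^ 2
      ≤ (2 * ρ ^ 2 * (2 ^ D) ^ 2 + 2 * (L * (q * (1 / n))) ^ 2) * ((1 + 2 * q) ^ L) ^ 2 :=
        mul_le_mul_of_nonneg_right e3 (by positivity)
    _ = _ := by rw [e2]; ring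

/-- the real inequality at the end of (U) -/
lemma final_real {n k j L : ℕ} {A q τ : ℝ} (hA : 0 ≤ A) (hn1 : 1 ≤ n)
    (hM : ((j + L : ℕ) : ℝ) ≤ A * n) (hq : q = (k : ℝ) / (2 * n)) :
    (2 * (4 * τ) ^ 2 * ((1 + 2 * q) ^ L) ^ 2 * 4 ^ 0
      + 2 * (L * (q * (1 / n))) ^ 2 * ((1 + 2 * q) ^ L) ^ 2 + j * (q * (2 / n)))
      * (1 + 4 * q) ^ j
    ≤ Real.exp (2 * k * A) * (32 + A ^ 2 * k ^ 2 + A * k) * (τ ^ 2 + 1 / n) := by
  have hn : (1 : ℝ) ≤ n := by exact_mod_cast hn1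
  have hn0 : (0 : ℝ) < n := by linarith
  have hq0 : 0 ≤ q := by rw [hq]; positivity
  obtain ⟨pb, hpb⟩ : ∃ pb : ℝ, pb = q * (1 / n) := ⟨_, rfl⟩
  have hpb0 : 0 ≤ pb := by rw [hpb]; positivity
  rw [← hpb]
  obtain ⟨E, hE⟩ : ∃ E : ℝ, E = ((1 + 2 * q) ^ L) ^ 2 := ⟨_, rfl⟩
  rw [← hE]
  obtain ⟨P, hP⟩ : ∃ P : ℝ, P = (1 + 4 * q) ^ j := ⟨_, rfl⟩
  rw [← hP]
  have hP1 : 1 ≤ P := by rw [hP]; exact one_le_pow₀ (by linarith)
  have hE1 : 1 ≤ E := by rw [hE]; exact one_le_pow₀ (one_le_pow₀ (by linarith))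
  have hEP : E * P ≤ Real.exp (2 * k * A) := by
    have a1 : E ≤ Real.exp (4 * q * L) := by
      have b1 : 1 + 2 * q ≤ Real.exp (2 * q) := by
        have := Real.add_one_le_exp (2 * q); linarith
      rw [hE, ← pow_mul]
      calc (1 + 2 * q) ^ (L * 2) ≤ (Real.exp (2 * q)) ^ (L * 2) :=
            pow_le_pow_left₀ (by positivity) b1 _
        _ = Real.exp (4 * q * L) := by
            rw [← Real.exp_nat_mul]; congr 1; push_cast; ring
    have a2 : P ≤ Real.exp (4 * q * j) := by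
      have b1 : 1 + 4 * q ≤ Real.exp (4 * q) := by
        have := Real.add_one_le_exp (4 * q); linarith
      rw [hP]
      calc (1 + 4 * q) ^ j ≤ (Real.exp (4 * q)) ^ j :=
            pow_le_pow_left₀ (by positivity) b1 _
        _ = Real.exp (4 * q * j) := by
            rw [← Real.exp_nat_mul]; congr 1; ring
    calc E * P ≤ Real.exp (4 * q * L) * Real.exp (4 * q * j) :=
          mul_le_mul a1 a2 (by linarith) (Real.exp_pos _).le
      _ = Real.exp (4 * q * L + 4 * q * j) := (Real.exp_add _ _).symm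
      _ ≤ Real.exp (2 * k * A) := by
          apply Real.exp_le_exp.mpr
          have e1 : 4 * q * L + 4 * q * j = 2 * k * (((j + L : ℕ) : ℝ) / n) := by
            rw [hq]; push_cast; field_simp; ring
          rw [e1]
          have e2 : ((j + L : ℕ) : ℝ) / n ≤ A := by
            rw [div_le_iff₀ hn0]; exact hM
          have e3 : (0 : ℝ) ≤ 2 * k := by positivity
          exact mul_le_mul_of_nonneg_left e2 e3
  have hEP0 : 0 ≤ E * P := mul_nonneg (by linarith) (by linarith)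
  have hLA : (L : ℝ) ≤ A * n := by
    have : (L : ℝ) ≤ ((j + L : ℕ) : ℝ) := by
      push_cast; linarith [(Nat.cast_nonneg j : (0:ℝ) ≤ j)]
    linarith
  have hjA : (j : ℝ) ≤ A * n := by
    have : (j : ℝ) ≤ ((j + L : ℕ) : ℝ) := by
      push_cast; linarith [(Nat.cast_nonneg L : (0:ℝ) ≤ L)]
    linarith
  have hLpb : L * pb ≤ A * k / (2 * n) := by
    calc L * pb ≤ (A * n) * pb := mul_le_mul_of_nonneg_right hLA hpb0
      _ = A * k / (2 * n) := by rw [hpb, hq]; field_simp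
  have hLpb0 : 0 ≤ L * pb := by positivity
  have hinv : (1 : ℝ) / n ≤ 1 := by rw [div_le_one hn0]; exact hn
  have hinv0 : (0 : ℝ) < 1 / n := by positivity
  have t2 : 2 * (L * pb) ^ 2 ≤ A ^ 2 * k ^ 2 * (1 / n) := by
    have b1 : (L * pb) ^ 2 ≤ (A * k / (2 * n)) ^ 2 := pow_le_pow_left₀ hLpb0 hLpb 2
    have b2 : 2 * (A * k / (2 * n)) ^ 2 = A ^ 2 * k ^ 2 * (1 / n) * (1 / n) / 2 := by
      field_simp
    have b4 : (0 : ℝ) ≤ A ^ 2 * k ^ 2 * (1 / n) := by positivity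
    have b3 : A ^ 2 * k ^ 2 * (1 / n) * (1 / n) ≤ A ^ 2 * k ^ 2 * (1 / n) :=
      mul_le_of_le_one_right b4 hinv
    linarith
  have t3 : (j : ℝ) * (q * (2 / n)) ≤ A * k * (1 / n) := by
    calc (j : ℝ) * (q * (2 / n)) ≤ (A * n) * (q * (2 / n)) :=
          mul_le_mul_of_nonneg_right hjA (by positivity)
      _ = A * k * (1 / n) := by rw [hq]; field_simp
  have t3' : (0 : ℝ) ≤ (j : ℝ) * (q * (2 / n)) := by positivity
  have s1 : (2 * (4 * τ) ^ 2 * E * 4 ^ 0 + 2 * (L * pb) ^ 2 * E + j * (q * (2 / n))) * P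
      ≤ (E * P) * (2 * (4 * τ) ^ 2 + 2 * (L * pb) ^ 2 + j * (q * (2 / n))) := by
    have h1 : (j : ℝ) * (q * (2 / n)) ≤ (j : ℝ) * (q * (2 / n)) * E :=
      le_mul_of_one_le_right t3' hE1
    have h2 : (2 * (4 * τ) ^ 2 * E * 4 ^ 0 + 2 * (L * pb) ^ 2 * E + j * (q * (2 / n))) * P
        ≤ (2 * (4 * τ) ^ 2 * E + 2 * (L * pb) ^ 2 * E + j * (q * (2 / n)) * E) * P := by
      apply mul_le_mul_of_nonneg_right _ (by linarith)
      simp only [pow_zero, mul_one]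
      linarith
    refine h2.trans (le_of_eq ?_)
    ring
  have s2 : (E * P) * (2 * (4 * τ) ^ 2 + 2 * (L * pb) ^ 2 + j * (q * (2 / n)))
      ≤ (E * P) * (32 * τ ^ 2 + A ^ 2 * k ^ 2 * (1 / n) + A * k * (1 / n)) := by
    apply mul_le_mul_of_nonneg_left _ hEP0
    have : 2 * (4 * τ) ^ 2 = 32 * τ ^ 2 := by ring
    linarith
  have s3 : (E * P) * (32 * τ ^ 2 + A ^ 2 * k ^ 2 * (1 / n) + A * k * (1 / n))
      ≤ Real.exp (2 * k * A) * (32 * τ ^ 2 + A ^ 2 * k ^ 2 * (1 / n) + A * k * (1 / n)) :=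
    mul_le_mul_of_nonneg_right hEP (by positivity)
  have s4 : 32 * τ ^ 2 + A ^ 2 * k ^ 2 * (1 / n) + A * k * (1 / n)
      ≤ (32 + A ^ 2 * k ^ 2 + A * k) * (τ ^ 2 + 1 / n) := by
    have c1 : 0 ≤ (A ^ 2 * k ^ 2 + A * k) * τ ^ 2 := by positivity
    have c2 : 0 ≤ 32 * (1 / (n : ℝ)) := by positivity
    have c3 : (32 + A ^ 2 * k ^ 2 + A * k) * (τ ^ 2 + 1 / n)
        = (32 * τ ^ 2 + A ^ 2 * k ^ 2 * (1 / n) + A * k * (1 / n))
          + (A ^ 2 * k ^ 2 + A * k) * τ ^ 2 + 32 * (1 / (n : ℝ)) := by ring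
    linarith
  calc _ ≤ _ := s1
    _ ≤ _ := s2
    _ ≤ _ := s3
    _ ≤ Real.exp (2 * k * A) * ((32 + A ^ 2 * k ^ 2 + A * k) * (τ ^ 2 + 1 / n)) :=
      mul_le_mul_of_nonneg_left s4 (Real.exp_pos _).le
    _ = _ := by ring

/-- the second moment bound (U) -/
theorem NS_le (hk : 3 ≤ k) {A : ℝ} (hA : 0 ≤ A) [NeZero n] (a : Lit n) (j L T : ℕ)
    (hT : 1 ≤ T) (hM : ((j + L : ℕ) : ℝ) ≤ A * n) :
    NS n k T L j univ a ≤ Real.exp (2 * k * A) * (32 + A ^ 2 * k ^ 2 + A * k)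
      * ((T : ℝ) ^ (-(2 / (k : ℝ))) + 1 / n) := by
  have hk1 : 1 ≤ k := by omega
  have hτ2 : (T : ℝ) ^ (-(2 / (k : ℝ))) = ((T : ℝ) ^ (-(1 / (k : ℝ)))) ^ 2 := by
    rw [← Real.rpow_natCast, ← Real.rpow_mul (Nat.cast_nonneg T)]
    congr 1
    push_cast
    ring
  rw [hτ2]
  have hp := (rpow_facts (k := k) hT hk1).1
  have hn1 : 1 ≤ n := NeZero.one_le
  obtain ⟨f, g, hf, hg, hfg⟩ := exists_fg hk
  obtain ⟨q, hq⟩ : ∃ q : ℝ, q = (k : ℝ) / (2 * n) := ⟨_, rfl⟩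
  have hq0 : 0 ≤ q := by rw [hq]; positivity
  have hρ0 : 0 ≤ 4 * (T : ℝ) ^ (-(1 / (k : ℝ))) := by positivity
  have hbase := fun (D : ℕ) (K : Finset (Asg n)) => base_le (T := T) f g hf hg hfg a hρ0
    (fun D K => lam_th_le hT hk1 D K) hq L D K
  have hM1 := MTB (T := T) (L := L) f g hf hg hfg a (by positivity) (by positivity) hbase
    j 0 univ
  have hS := NS_le_MT (k := k) T L f g a j univ univ univ univ (Finset.subset_univ _)
    (Finset.subset_univ _) (fun s _ => Finset.mem_univ _) (Finset.subset_univ _)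
    (fun s _ => Finset.mem_univ _)
  rw [← hq] at hM1
  exact hS.trans (le_trans hM1 (final_real hA hn1 hM hq))

end KSat6
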