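import Vale.Agent.KSat.LB

/-! # P170: units against clauses (pieces L1, L2), see H6L.lean and LB.lean -/

namespace KSat

open Finset

variable {V : Type} [Fintype V] [DecidableEq V]

theorem avg_NN_le [Nonempty V] {k L T' : ℕ} (hk : 1 ≤ k) (hT : 1 ≤ T') (S : Finset (Asg V)) :
    avg (fun a : Lit V => NN k L T' S a) ≤ (T' : ℝ) ^ (-(1 / (k : ℝ))) :=
  avg_NN_le' hk hT S

end KSat
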