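import Vale.Agent.KSat.Basic
import Vale.Agent.KSat.H6W
import Vale.Agent.KSat.Bridge6

/-! # P170: units against clauses, proof of `avg_NN_le` for general variable types -/

namespace KSat

open Finset

variable {V : Type} [Fintype V] [DecidableEq V]

/-- fraction of the literals that kill `S` -/
noncomputable def psiV (S : Finset (Asg V)) : ℝ := avg (fun a : Lit V => unsat (cutL S a))

omit [Fintype V] [DecidableEq V] in
theorem cut_eq_empty {k : ℕ} (S : Finset (Asg V)) (C : Cl V k) :
    cut S C = ∅ ↔ ∀ i, cutL S (C i) = ∅ := by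
  unfold cut cutL
  simp only [Finset.filter_eq_empty_iff]
  constructor
  · intro h i s hs hi
    exact h hs ⟨i, hi⟩
  · rintro h s hs ⟨i, hi⟩
    exact h i hs hi

theorem avg_kill {k : ℕ} (S : Finset (Asg V)) :
    avg (fun C : Cl V k => unsat (cut S C)) = psiV S ^ k := by
  have h1 : ∀ C : Cl V k, unsat (cut S C) = ∏ i, unsat (cutL S (C i)) := by
    intro C
    unfold unsat
    by_cases h : cut S C = ∅
    · rw [if_pos h]
      rw [cut_eq_empty] at h
      simp [h]
    · rw [if_neg h]
      rw [cut_eq_empty] at h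
      push Not at h
      obtain ⟨i, hi⟩ := h
      symm
      apply Finset.prod_eq_zero (Finset.mem_univ i)
      rw [if_neg hi.ne_empty]
  simp only [h1]
  rw [avg_pi_prod (fun _ : Fin k => fun a : Lit V => unsat (cutL S a))]
  simp [psiV]

theorem psiV_nonneg (S : Finset (Asg V)) : 0 ≤ psiV S := avg_nonneg fun _ => unsat_nonneg _

theorem psiV_le_one (S : Finset (Asg V)) : psiV S ≤ 1 := avg_le_one fun _ => unsat_le_one _

theorem psiV_mono {S S' : Finset (Asg V)} (h : S ⊆ S') : psiV S' ≤ psiV S :=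
  avg_mono fun _ => unsat_anti (Finset.filter_subset_filter _ h)

theorem surv_le' [Nonempty V] {k : ℕ} {q : ℝ} (hq0 : 0 ≤ q) (hq1 : q ≤ 1) (t : ℕ)
    (S : Finset (Asg V)) (hS : q ≤ psiV S) : 1 - th k t S ≤ (1 - q ^ k) ^ t := by
  have hqk : 0 ≤ 1 - q ^ k := by
    have : q ^ k ≤ 1 := pow_le_one₀ hq0 hq1
    linarith
  induction t generalizing S with
  | zero =>
    have := th_nonneg k 0 S
    simp only [pow_zero]
    linarith
  | succ t ih =>
    rw [th_succ]
    have h1 : 1 - avg (fun C : Cl V k => th k t (cut S C))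
        = avg (fun C : Cl V k => 1 - th k t (cut S C)) := by
      rw [avg_sub, avg_const]
    rw [h1]
    have h2 : avg (fun C : Cl V k => 1 - th k t (cut S C))
        ≤ avg (fun C : Cl V k => (1 - unsat (cut S C)) * (1 - q ^ k) ^ t) := by
      refine avg_mono fun C => ?_
      by_cases h : cut S C = ∅
      · rw [h, th_empty, unsat_empty]; simp
      · have h3 : unsat (cut S C) = 0 := by simp [unsat, h]
        rw [h3]
        have := ih (cut S C) (hS.trans (psiV_mono (Finset.filter_subset _ _)))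
        linarith
    refine h2.trans ?_
    rw [avg_mul_right, avg_sub, avg_const, avg_kill, pow_succ, mul_comm]
    apply mul_le_mul_of_nonneg_left _ (pow_nonneg hqk t)
    have : q ^ k ≤ psiV S ^ k := pow_le_pow_left₀ hq0 hS k
    linarith

theorem avg_NN_le' [Nonempty V] {k L T' : ℕ} (hk : 1 ≤ k) (hT : 1 ≤ T') (S : Finset (Asg V)) :
    avg (fun a : Lit V => NN k L T' S a) ≤ (T' : ℝ) ^ (-(1 / (k : ℝ))) := by
  obtain ⟨hp, hpk⟩ := KSat6.rpow_facts (k := k) hT hk
  have hτ := KSat6.tau_le (k := k) (t := T') hp.le hk (le_of_eq hpk.symm)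
  have hL1 : ∀ K : Finset (Asg V), psiV K * (1 - th k T' K) ≤ (T' : ℝ) ^ (-(1 / (k : ℝ))) := by
    intro K
    have h0 := psiV_nonneg K
    have h1 := psiV_le_one K
    refine le_trans ?_ (hτ (psiV K) h0 h1)
    exact mul_le_mul_of_nonneg_left (surv_le' h0 h1 T' K le_rfl) h0
  unfold NN
  rw [← It_avg k L (fun (a : Lit V) (K : Finset (Asg V)) => unsat (cutL K a) * (1 - th k T' K)) S]
  have h2 : ∀ K : Finset (Asg V),
      avg (fun a : Lit V => unsat (cutL K a) * (1 - th k T' K)) ≤ (T' : ℝ) ^ (-(1 / (k : ℝ))) := by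
    intro K
    rw [avg_mul_right]
    exact hL1 K
  refine (It_mono k L h2 S).trans ?_
  rw [It_const]

/-! bridge to the definitions of `KSat6` -/

theorem NN_eq_six (n k L T' : ℕ) (S : Finset (Asg (Fin n))) (a : Lit (Fin n)) :
    NN k L T' S a = KSat6.NN n k T' L S a := by
  induction L generalizing S with
  | zero =>
    show unsat (cutL S a) * (1 - th k T' S) = _
    unfold KSat6.NN
    have h : cutL S a = S ∩ KSat6.litSet a := by
      ext σ
      simp [cutL, KSat6.litSet]
    rw [h, th_eq_six]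
    unfold unsat
    split_ifs <;> simp
  | succ L ih =>
    unfold KSat6.NN
    show avg (fun C : Cl (Fin n) k => NN k L T' (cut S C) a) = _
    unfold avg KSat6.av
    congr 1
    refine Finset.sum_congr rfl fun C _ => ?_
    have h : cut S C = S ∩ KSat6.clSet C := by
      ext σ
      simp [cut, KSat6.clSet]
    dsimp only
    rw [← ih, h]

theorem It_NN_sq_eq (n k j L T' : ℕ) (S : Finset (Asg (Fin n))) (a : Lit (Fin n)) :
    It k j (fun K => NN k L T' K a ^ 2) S = KSat6.NS n k T' L j S a := by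
  induction j generalizing S with
  | zero =>
    show NN k L T' S a ^ 2 = _
    unfold KSat6.NS
    rw [NN_eq_six]
  | succ j ih =>
    unfold KSat6.NS
    rw [It_succ]
    unfold avg KSat6.av
    congr 1
    refine Finset.sum_congr rfl fun C _ => ?_
    have h : cut S C = S ∩ KSat6.clSet C := by
      ext σ
      simp [cut, KSat6.clSet]
    dsimp only
    rw [← ih, h]

/-- (U) in the skeleton names -/
theorem NN_sq_bd {k : ℕ} (hk : 3 ≤ k) {A : ℝ} (hA : 0 < A) :
    ∃ C : ℝ, 0 < C ∧ ∀ n : ℕ, 2 ≤ n → ∀ (a : Lit (Fin n)) (j L T' : ℕ), 1 ≤ T' →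
      ((j + L : ℕ) : ℝ) ≤ A * n →
      It k j (fun S => NN k L T' S a ^ 2) (univ : Finset (Asg (Fin n))) ≤
        C * ((T' : ℝ) ^ (-(2 / (k : ℝ))) + 1 / n) := by
  refine ⟨Real.exp (2 * k * A) * (32 + A ^ 2 * k ^ 2 + A * k), by positivity, ?_⟩
  intro n hn a j L T' hT hM
  have : NeZero n := ⟨by omega⟩
  rw [It_NN_sq_eq]
  exact KSat6.NS_le hk hA.le a j L T' hT hM

end KSat
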