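import Mathlib

/-! # P170: pure analysis for the limit (LIMd) -/

namespace KSat

open Finset Filter Topology

/-- Iterated almost superadditivity along multiples. -/
theorem mult_of {r : ℕ → ℝ} {n0 : ℕ} {ε C : ℝ} (he : 0 < ε) (hC : 0 < C)
    (hsa : ∀ n1 n2 : ℕ, n0 ≤ n1 → n0 ≤ n2 → n1 ≤ 2 * n2 → n2 ≤ 2 * n1 →
      min (r n1) (r n2) - C * ((n1 + n2 : ℕ) : ℝ) ^ (-ε) ≤ r (n1 + n2)) :
    ∃ K : ℝ, 0 < K ∧ ∀ n : ℕ, n0 ≤ n → 1 ≤ n → ∀ q : ℕ, 1 ≤ q →
      r n - K * (n : ℝ) ^ (-ε) ≤ r (q * n) := by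
  have h32 : (1 : ℝ) < (3 / 2 : ℝ) ^ ε := Real.one_lt_rpow (by norm_num) he
  set K : ℝ := C / ((3 / 2 : ℝ) ^ ε - 1) with hKdef
  have hden : 0 < (3 / 2 : ℝ) ^ ε - 1 := by linarith
  have hK : 0 < K := div_pos hC hden
  have hKC : K * ((3 / 2 : ℝ) ^ ε - 1) = C := by
    rw [hKdef]; field_simp
  refine ⟨K, hK, ?_⟩
  intro n hn hn1
  have hnpos : (0 : ℝ) < n := by exact_mod_cast hn1
  have hnp : (0 : ℝ) < (n : ℝ) ^ (-ε) := Real.rpow_pos_of_pos hnpos _
  have key : ∀ q : ℕ, 1 ≤ q → r n - K * (1 - (q : ℝ) ^ (-ε)) * (n : ℝ) ^ (-ε) ≤ r (q * n) := by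
    intro q
    induction q using Nat.strong_induction_on with
    | _ q ih =>
      intro hq
      rcases Nat.lt_or_ge q 2 with h2 | h2
      · have : q = 1 := by omega
        subst this
        simp
      · set a := q / 2 with ha
        set b := q - q / 2 with hb
        have hab : a + b = q := by omega
        have ha1 : 1 ≤ a := by omega
        have hb1 : 1 ≤ b := by omega
        have haq : a < q := by omega
        have hbq : b < q := by omega
        have hle : a ≤ b := by omega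
        have hle2 : b ≤ 2 * a := by omega
        have iha := ih a haq ha1
        have ihb := ih b hbq hb1
        have hs := hsa (a * n) (b * n) (le_trans hn (Nat.le_mul_of_pos_left _ ha1))
          (le_trans hn (Nat.le_mul_of_pos_left _ hb1)) (by nlinarith) (by nlinarith)
        have hsum : a * n + b * n = q * n := by rw [← add_mul, hab]
        rw [hsum] at hs
        have hqpos : (0 : ℝ) < q := by positivity
        have hapos : (0 : ℝ) < a := by exact_mod_cast ha1
        have hbpos : (0 : ℝ) < b := by exact_mod_cast hb1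
        have hqn : ((q * n : ℕ) : ℝ) ^ (-ε) = (q : ℝ) ^ (-ε) * (n : ℝ) ^ (-ε) := by
          push_cast
          rw [Real.mul_rpow hqpos.le hnpos.le]
        rw [hqn] at hs
        have hba : (b : ℝ) ^ (-ε) ≤ (a : ℝ) ^ (-ε) :=
          Real.rpow_le_rpow_of_nonpos hapos (by exact_mod_cast hle) (by linarith)
        -- lower bound for the minimum
        have hmin : r n - K * (1 - (b : ℝ) ^ (-ε)) * (n : ℝ) ^ (-ε) ≤ min (r (a * n)) (r (b * n)) := by
          refine le_min ?_ ihb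
          refine le_trans ?_ iha
          have : K * (1 - (a : ℝ) ^ (-ε)) * (n : ℝ) ^ (-ε)
              ≤ K * (1 - (b : ℝ) ^ (-ε)) * (n : ℝ) ^ (-ε) := by
            apply mul_le_mul_of_nonneg_right _ hnp.le
            apply mul_le_mul_of_nonneg_left _ hK.le
            linarith
          linarith
        -- the gain
        have hgain : C * (q : ℝ) ^ (-ε) ≤ K * ((b : ℝ) ^ (-ε) - (q : ℝ) ^ (-ε)) := by
          have hqb : (3 / 2 : ℝ) * b ≤ q := by
            have : 3 * b ≤ 2 * q := by omega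
            have : ((3 * b : ℕ) : ℝ) ≤ ((2 * q : ℕ) : ℝ) := by exact_mod_cast this
            push_cast at this
            linarith
          have h1 : (b : ℝ) ^ (-ε) ≥ (3 / 2 : ℝ) ^ ε * (q : ℝ) ^ (-ε) := by
            have h2 : ((2 / 3 : ℝ) * q) ^ (-ε) ≤ (b : ℝ) ^ (-ε) :=
              Real.rpow_le_rpow_of_nonpos hbpos (by linarith) (by linarith)
            rw [Real.mul_rpow (by norm_num) hqpos.le] at h2
            have h3 : (2 / 3 : ℝ) ^ (-ε) = (3 / 2 : ℝ) ^ ε := by
              rw [Real.rpow_neg (by norm_num), ← Real.inv_rpow (by norm_num)]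
              norm_num
            rw [h3] at h2
            exact h2
          have hqp : 0 < (q : ℝ) ^ (-ε) := Real.rpow_pos_of_pos hqpos _
          calc C * (q : ℝ) ^ (-ε) = K * (((3 / 2 : ℝ) ^ ε - 1) * (q : ℝ) ^ (-ε)) := by
                rw [← mul_assoc, hKC]
            _ ≤ K * ((b : ℝ) ^ (-ε) - (q : ℝ) ^ (-ε)) := by
                apply mul_le_mul_of_nonneg_left _ hK.le
                nlinarith
        have hgain' := mul_le_mul_of_nonneg_right hgain hnp.le
        nlinarith [hmin, hs, hgain']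
  intro q hq
  refine le_trans ?_ (key q hq)
  have hqp : 0 ≤ (q : ℝ) ^ (-ε) := Real.rpow_nonneg (Nat.cast_nonneg _) _
  have : K * (1 - (q : ℝ) ^ (-ε)) * (n : ℝ) ^ (-ε) ≤ K * (n : ℝ) ^ (-ε) := by
    apply mul_le_mul_of_nonneg_right _ hnp.le
    nlinarith
  linarith

/-- [LIMd] pure analysis. -/
theorem conv_of' {r : ℕ → ℝ} {k n0 n0' : ℕ} {R ε C ε' C' : ℝ} (h0 : ∀ n, 0 ≤ r n)
    (hR : ∀ n, 1 ≤ n → r n ≤ R) (he : 0 < ε) (hC : 0 < C) (he' : 0 < ε') (_hC' : 0 < C')
    (hsa : ∀ n1 n2 : ℕ, n0 ≤ n1 → n0 ≤ n2 → n1 ≤ 2 * n2 → n2 ≤ 2 * n1 →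
      min (r n1) (r n2) - C * ((n1 + n2 : ℕ) : ℝ) ^ (-ε) ≤ r (n1 + n2))
    (hth : ∀ N N' : ℕ, n0' ≤ N → N ≤ N' → N' ≤ 2 * N →
      ((N : ℝ) / N') ^ k * r N' - C' * (N : ℝ) ^ (-ε') ≤ r N) :
    ∃ β : ℝ, Tendsto r atTop (𝓝 β) := by
  obtain ⟨K, hK, hmul⟩ := mult_of he hC hsa
  have hbdd_above : IsBoundedUnder (· ≤ ·) atTop r :=
    ⟨R, by
      rw [eventually_map]
      filter_upwards [eventually_ge_atTop 1] with n hn using hR n hn⟩
  have hbdd_below : IsBoundedUnder (· ≥ ·) atTop r :=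
    ⟨0, by
      rw [eventually_map]
      exact Eventually.of_forall fun n => h0 n⟩
  -- for each large n: r n - K n^{-ε} ≤ liminf r
  have hkey : ∀ n : ℕ, n0 ≤ n → 1 ≤ n → r n - K * (n : ℝ) ^ (-ε) ≤ liminf r atTop := by
    intro n hn hn1
    have hnpos : (0 : ℝ) < n := by exact_mod_cast hn1
    set x : ℝ := r n - K * (n : ℝ) ^ (-ε) with hx
    have hlim : Tendsto (fun N : ℕ => ((N : ℝ) / (N + n)) ^ k * x - C' * (N : ℝ) ^ (-ε')) atTop
        (𝓝 ((1 : ℝ) ^ k * x - C' * 0)) := by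
      have t1 : Tendsto (fun N : ℕ => (N : ℝ) / (N + n)) atTop (𝓝 1) := by
        have := tendsto_natCast_div_add_atTop (𝕜 := ℝ) (n : ℝ)
        simpa using this
      have t2 : Tendsto (fun N : ℕ => (N : ℝ) ^ (-ε')) atTop (𝓝 0) :=
        (tendsto_rpow_neg_atTop he').comp tendsto_natCast_atTop_atTop
      exact ((t1.pow k).mul_const x).sub (t2.const_mul C')
    rw [one_pow, one_mul, mul_zero, sub_zero] at hlim
    rw [← hlim.liminf_eq]
    refine liminf_le_liminf ?_ hlim.isBoundedUnder_ge hbdd_above.isCoboundedUnder_ge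
    filter_upwards [eventually_ge_atTop (max n n0'), eventually_ge_atTop 1] with N hN hN1
    have hNn : n ≤ N := le_trans (le_max_left _ _) hN
    have hN0 : n0' ≤ N := le_trans (le_max_right _ _) hN
    have hNpos : (0 : ℝ) < N := by exact_mod_cast hN1
    -- choose the multiple
    set q : ℕ := (N + n - 1) / n with hq
    have hq1 : 1 ≤ q := by
      rw [hq, Nat.one_le_div_iff (by omega)]
      omega
    have hqlow : N ≤ q * n := by
      have h := Nat.lt_div_mul_add (a := N + n - 1) (b := n) (by omega)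
      rw [← hq] at h
      omega
    have hqhigh : q * n ≤ N + n := by
      have h := Nat.div_mul_le_self (N + n - 1) n
      rw [← hq] at h
      omega
    have h2N : q * n ≤ 2 * N := by omega
    have hA := hth N (q * n) hN0 hqlow h2N
    have hB := hmul n hn hn1 q hq1
    refine le_trans ?_ hA
    have hqnpos : (0 : ℝ) < ((q * n : ℕ) : ℝ) := by
      have : 0 < q * n := lt_of_lt_of_le (by omega) hqlow
      exact_mod_cast this
    have hratio : (N : ℝ) / (N + n) ≤ (N : ℝ) / ((q * n : ℕ) : ℝ) := by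
      apply div_le_div_of_nonneg_left hNpos.le hqnpos
      exact_mod_cast hqhigh
    have hpow : ((N : ℝ) / (N + n)) ^ k ≤ ((N : ℝ) / ((q * n : ℕ) : ℝ)) ^ k :=
      pow_le_pow_left₀ (by positivity) hratio k
    have hC1 : ((N : ℝ) / (N + n)) ^ k * x ≤ ((N : ℝ) / ((q * n : ℕ) : ℝ)) ^ k * r (q * n) := by
      calc ((N : ℝ) / (N + n)) ^ k * x ≤ ((N : ℝ) / (N + n)) ^ k * r (q * n) :=
            mul_le_mul_of_nonneg_left hB (by positivity)
        _ ≤ ((N : ℝ) / ((q * n : ℕ) : ℝ)) ^ k * r (q * n) :=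
            mul_le_mul_of_nonneg_right hpow (h0 _)
    linarith
  have hlimK : Tendsto (fun n : ℕ => liminf r atTop + K * (n : ℝ) ^ (-ε)) atTop
      (𝓝 (liminf r atTop + K * 0)) := by
    have t2 : Tendsto (fun N : ℕ => (N : ℝ) ^ (-ε)) atTop (𝓝 0) :=
      (tendsto_rpow_neg_atTop he).comp tendsto_natCast_atTop_atTop
    exact tendsto_const_nhds.add (t2.const_mul K)
  rw [mul_zero, add_zero] at hlimK
  have hsup : limsup r atTop ≤ liminf r atTop := by
    rw [← hlimK.limsup_eq]
    refine limsup_le_limsup ?_ hbdd_below.isCoboundedUnder_le hlimK.isBoundedUnder_le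
    filter_upwards [eventually_ge_atTop (max n0 1)] with n hn
    have := hkey n (le_trans (le_max_left _ _) hn) (le_trans (le_max_right _ _) hn)
    linarith
  exact ⟨liminf r atTop, tendsto_of_le_liminf_of_limsup_le le_rfl hsup hbdd_above hbdd_below⟩

end KSat
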