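import Vale.Agent.KSat.LimF
import Vale.Agent.KSat.LimD

/-! # P170: existence of the limiting threshold for the model with repetitions (piece LIMe) -/

namespace KSat

open Finset Filter Topology

theorem ev_pow {e : ℝ} (he : 0 < e) {d : ℝ} (hd : 0 < d) :
    ∀ᶠ n : ℕ in atTop, (n : ℝ) ^ (1 - e) + 3 ≤ d * n := by
  have h1 : Tendsto (fun n : ℕ => (n : ℝ) ^ (-e)) atTop (𝓝 0) :=
    (tendsto_rpow_neg_atTop he).comp tendsto_natCast_atTop_atTop
  have h2 : Tendsto (fun n : ℕ => (3 : ℝ) / n) atTop (𝓝 0) :=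
    tendsto_const_div_atTop_nhds_zero_nat 3
  have h3 := h1.add h2
  rw [add_zero] at h3
  filter_upwards [(tendsto_order.1 h3).2 d hd, eventually_ge_atTop 1] with n hn hn1
  have hn0 : (0 : ℝ) < n := by exact_mod_cast hn1
  have h4 : (n : ℝ) ^ (1 - e) = n * (n : ℝ) ^ (-e) := by
    rw [sub_eq_add_neg, Real.rpow_add hn0, Real.rpow_one]
  have h5 : ((n : ℝ) ^ (-e) + 3 / n) * n ≤ d * n := mul_le_mul_of_nonneg_right hn.le hn0.le
  have h6 : ((n : ℝ) ^ (-e) + 3 / n) * n = n * (n : ℝ) ^ (-e) + 3 := by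
    field_simp
  rw [h4]
  linarith

/-- [LIMd] pure analysis. -/
theorem conv_of {r : ℕ → ℝ} {k n0 n0' : ℕ} {R ε C ε' C' : ℝ} (h0 : ∀ n, 0 ≤ r n)
    (hR : ∀ n, 1 ≤ n → r n ≤ R) (he : 0 < ε) (hC : 0 < C) (he' : 0 < ε') (hC' : 0 < C')
    (hsa : ∀ n1 n2 : ℕ, n0 ≤ n1 → n0 ≤ n2 → n1 ≤ 2 * n2 → n2 ≤ 2 * n1 →
      min (r n1) (r n2) - C * ((n1 + n2 : ℕ) : ℝ) ^ (-ε) ≤ r (n1 + n2))
    (hth : ∀ N N' : ℕ, n0' ≤ N → N ≤ N' → N' ≤ 2 * N →
      ((N : ℝ) / N') ^ k * r N' - C' * (N : ℝ) ^ (-ε') ≤ r N) :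
    ∃ β : ℝ, Tendsto r atTop (𝓝 β) :=
  conv_of' h0 hR he hC he' hC' hsa hth

/-- [LIMe] the threshold in the model with repetitions. -/
theorem limit_rep {k : ℕ} (hk : 3 ≤ k) :
    ∃ α : ℝ, 0 < α ∧
      (∀ c : ℝ, 0 ≤ c → c < α → Tendsto (fun n : ℕ => u k n ⌊c * n⌋₊) atTop (𝓝 0)) ∧
      (∀ c : ℝ, α < c → Tendsto (fun n : ℕ => u k n ⌊c * n⌋₊) atTop (𝓝 1)) := by
  obtain ⟨ε, C, n0, h1, h2, hsa⟩ := rr_sa hk
  obtain ⟨ε', C', n0', h1', h2', hth⟩ := rr_thin hk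
  obtain ⟨R, _, hR⟩ := rr_bdd hk
  obtain ⟨α, hα⟩ := conv_of (rr_nonneg k) hR h1 h2 h1' h2' hsa hth
  have hα0 : (1 / 64 : ℝ) ≤ α := by
    have h3 : Tendsto (fun n : ℕ => (1 / 64 : ℝ)) atTop (𝓝 (1 / 64 : ℝ)) := tendsto_const_nhds
    refine le_of_tendsto_of_tendsto h3 hα ?_
    filter_upwards [eventually_ge_atTop 64] with n hn
    have hn1 : 1 ≤ n := by omega
    have hn0 : (0 : ℝ) < n := by exact_mod_cast hn1
    have h4 := le_mstar hk hn1 (hall_pos (k := k) (by omega) (n := n) (m := n / 32) (by omega))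
    have h5 : n ≤ 64 * mstar k n := by omega
    have h6 : (n : ℝ) ≤ 64 * mstar k n := by exact_mod_cast h5
    unfold rr
    rw [le_div_iff₀ hn0]
    linarith
  refine ⟨α, by linarith, fun c hc0' hc => ?_, fun c hc => ?_⟩
  · refine tendsto_order.2 ⟨fun a ha => Eventually.of_forall fun n => ha.trans_le (u_nonneg _ _ _),
      fun a ha => ?_⟩
    obtain ⟨e, he, he2, n1, hn1⟩ := win_low hk (δ := min (a / 2) (1 / 2)) (by positivity)
      (min_le_right _ _)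
    have hd : 0 < (α - c) / 2 := by linarith
    filter_upwards [(tendsto_order.1 hα).1 ((α + c) / 2) (by linarith), ev_pow he hd,
      eventually_ge_atTop n1, eventually_ge_atTop 1] with n hr hp hn hn1'
    have hn0 : (0 : ℝ) < n := by exact_mod_cast hn1'
    have h4 : (α + c) / 2 * n < mstar k n := by
      rw [← rr_mul hn1']
      exact mul_lt_mul_of_pos_right hr hn0
    have h5 : (⌊c * n⌋₊ : ℝ) ≤ c * n := Nat.floor_le (by positivity)
    have h6 := Nat.ceil_lt_add_one (Real.rpow_nonneg hn0.le (1 - e))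
    have h7 : ⌊c * n⌋₊ + ⌈(n : ℝ) ^ (1 - e)⌉₊ ≤ mstar k n := by
      have : (⌊c * n⌋₊ : ℝ) + (⌈(n : ℝ) ^ (1 - e)⌉₊ : ℝ) ≤ mstar k n := by
        have h8 : (α - c) / 2 * n = (α + c) / 2 * n - c * n := by ring
        linarith
      exact_mod_cast this
    have h8 := hn1 n hn hn1' _ h7
    have h9 := min_le_left (a / 2) (1 / 2 : ℝ)
    linarith
  · have hc1 : 0 < c := by linarith
    refine tendsto_order.2 ⟨fun a ha => ?_,
      fun a ha => Eventually.of_forall fun n => (u_le_one _ _ _).trans_lt ha⟩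
    obtain ⟨e, he, he2, n1, hn1⟩ := win_high hk (A := c) (δ := min ((1 - a) / 2) (1 / 2)) hc1
      (lt_min (by linarith) (by norm_num)) (min_le_right _ _)
    have hd : 0 < (c - α) / 2 := by linarith
    filter_upwards [(tendsto_order.1 hα).2 ((α + c) / 2) (by linarith), ev_pow he hd,
      eventually_ge_atTop n1, eventually_ge_atTop 1] with n hr hp hn hn1'
    have hn0 : (0 : ℝ) < n := by exact_mod_cast hn1'
    have h4 : mstar k n < (α + c) / 2 * n := by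
      rw [← rr_mul hn1']
      exact mul_lt_mul_of_pos_right hr hn0
    have h5 : (⌊c * n⌋₊ : ℝ) ≤ c * n := Nat.floor_le (by positivity)
    have h5' : c * n < ⌊c * n⌋₊ + 1 := Nat.lt_floor_add_one _
    have h6 := Nat.ceil_lt_add_one (Real.rpow_nonneg hn0.le (1 - e))
    have h7 : mstar k n + ⌈(n : ℝ) ^ (1 - e)⌉₊ + 1 ≤ ⌊c * n⌋₊ := by
      have : (mstar k n : ℝ) + (⌈(n : ℝ) ^ (1 - e)⌉₊ : ℝ) + 1 ≤ ⌊c * n⌋₊ := by
        have h8 : (c - α) / 2 * n = c * n - (α + c) / 2 * n := by ring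
        linarith
      exact_mod_cast this
    have h8 := hn1 n hn hn1' _ h5 h7
    have h9 := min_le_left ((1 - a) / 2) (1 / 2 : ℝ)
    linarith

end KSat
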