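import Vale.Agent.KSat.SAdef

/-! # P170: superadditivity, block operators on product states -/

namespace KSat

open Finset

section prodState
variable {V1 V2 : Type} [Fintype V1] [DecidableEq V1] [Fintype V2] [DecidableEq V2] {k : ℕ}

/-- Product of two states on disjoint sets of variables. -/
def prodSt (S1 : Finset (Asg V1)) (S2 : Finset (Asg V2)) : Finset (Asg (V1 ⊕ V2)) :=
  univ.filter (fun σ => (fun v => σ (Sum.inl v)) ∈ S1 ∧ (fun v => σ (Sum.inr v)) ∈ S2)

theorem prodSt_univ : prodSt (univ : Finset (Asg V1)) (univ : Finset (Asg V2)) = univ := by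
  simp [prodSt]

theorem mem_prodSt (S1 : Finset (Asg V1)) (S2 : Finset (Asg V2)) (σ : Asg (V1 ⊕ V2)) :
    σ ∈ prodSt S1 S2 ↔ (fun v => σ (Sum.inl v)) ∈ S1 ∧ (fun v => σ (Sum.inr v)) ∈ S2 := by
  simp [prodSt]

theorem cut_inlC (S1 : Finset (Asg V1)) (S2 : Finset (Asg V2)) (C : Cl V1 k) :
    cut (prodSt S1 S2) (inlC V2 C) = prodSt (cut S1 C) S2 := by
  ext σ
  rw [cut, mem_filter, mem_prodSt, mem_prodSt, cut, mem_filter]
  constructor
  · rintro ⟨⟨h1, h2⟩, h3⟩
    exact ⟨⟨h1, h3⟩, h2⟩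
  · rintro ⟨⟨h1, h3⟩, h2⟩
    exact ⟨⟨h1, h2⟩, h3⟩

theorem cut_inrC (S1 : Finset (Asg V1)) (S2 : Finset (Asg V2)) (C : Cl V2 k) :
    cut (prodSt S1 S2) (inrC V1 C) = prodSt S1 (cut S2 C) := by
  ext σ
  rw [cut, mem_filter, mem_prodSt, mem_prodSt, cut, mem_filter]
  constructor
  · rintro ⟨⟨h1, h2⟩, h3⟩
    exact ⟨h1, h2, h3⟩
  · rintro ⟨h1, h2, h3⟩
    exact ⟨⟨h1, h2⟩, h3⟩

theorem unsat_prodSt (S1 : Finset (Asg V1)) (S2 : Finset (Asg V2)) :
    unsat (prodSt S1 S2) = 1 - (1 - unsat S1) * (1 - unsat S2) := by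
  have key : prodSt S1 S2 = ∅ ↔ S1 = ∅ ∨ S2 = ∅ := by
    constructor
    · intro h
      by_contra hne
      rw [not_or] at hne
      obtain ⟨h1, h2⟩ := hne
      obtain ⟨s1, hs1⟩ := Finset.nonempty_iff_ne_empty.mpr h1
      obtain ⟨s2, hs2⟩ := Finset.nonempty_iff_ne_empty.mpr h2
      have : (Sum.elim s1 s2 : Asg (V1 ⊕ V2)) ∈ prodSt S1 S2 := by
        rw [mem_prodSt]
        exact ⟨by simpa using hs1, by simpa using hs2⟩
      rw [h] at this
      simp at this
    · rintro (h | h) <;> subst h <;> ext σ <;> simp [mem_prodSt]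
  unfold unsat
  by_cases h1 : S1 = ∅
  · rw [if_pos (key.mpr (Or.inl h1)), if_pos h1]; ring
  · by_cases h2 : S2 = ∅
    · rw [if_pos (key.mpr (Or.inr h2)), if_pos h2]; ring
    · rw [if_neg (fun h => by rcases key.mp h with h | h <;> contradiction), if_neg h1,
        if_neg h2]; ring

/-- Block `2` operators on a product state. -/
theorem opR_pow [Nonempty V2] (l : ℕ) (S1 : Finset (Asg V1)) (S2 : Finset (Asg V2)) :
    (((op (inrC V1 : Cl V2 k → Cl (V1 ⊕ V2) k)) ^ l) unsat) (prodSt S1 S2)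
      = 1 - (1 - unsat S1) * (1 - th k l S2) := by
  induction l generalizing S2 with
  | zero => rw [pow_zero, Module.End.one_apply, unsat_prodSt, th_zero]
  | succ l ih =>
    rw [pow_succ', Module.End.mul_apply, op_apply, th_succ]
    simp only [cut_inrC, ih]
    rw [avg_sub, avg_mul_left, avg_sub, avg_const]

/-- Block `1` operators on a product state. -/
theorem opL_pow [Nonempty V1] [Nonempty V2] (j l : ℕ) (S1 : Finset (Asg V1))
    (S2 : Finset (Asg V2)) :
    (((op (inlC V2 : Cl V1 k → Cl (V1 ⊕ V2) k)) ^ j)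
      (((op (inrC V1 : Cl V2 k → Cl (V1 ⊕ V2) k)) ^ l) unsat)) (prodSt S1 S2)
      = 1 - (1 - th k j S1) * (1 - th k l S2) := by
  induction j generalizing S1 with
  | zero => rw [pow_zero, Module.End.one_apply, opR_pow, th_zero]
  | succ j ih =>
    rw [pow_succ', Module.End.mul_apply, op_apply, th_succ]
    simp only [cut_inlC, ih]
    rw [avg_sub, avg_mul_right, avg_sub, avg_const]

theorem sa_prod [Nonempty V1] [Nonempty V2] (j l : ℕ) :
    (((op (inlC V2 : Cl V1 k → Cl (V1 ⊕ V2) k)) ^ j)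
      (((op (inrC V1 : Cl V2 k → Cl (V1 ⊕ V2) k)) ^ l) unsat)) univ
      = 1 - (1 - u k (Fintype.card V1) j) * (1 - u k (Fintype.card V2) l) := by
  rw [← prodSt_univ, opL_pow, th_univ_eq, th_univ_eq]

end prodState

end KSat
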