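import Vale.Agent.KSat.SAop
import Vale.Agent.KSat.SAprod

/-! # P170: superadditivity (piece SA) -/

namespace KSat

open Finset

theorem sa {k n1 n2 : ℕ} (_hk : 1 ≤ k) (h1 : 1 ≤ n1) (h2 : 1 ≤ n2) (m : ℕ) :
    ∑ M ∈ range (m + 1), (m.choose M : ℝ) * ((n1 : ℝ) / (n1 + n2 : ℝ)) ^ M
        * ((n2 : ℝ) / (n1 + n2 : ℝ)) ^ (m - M) * ((1 - u k n1 M) * (1 - u k n2 (m - M)))
      ≤ 1 - u k (n1 + n2) m := by
  have : Nonempty (Fin n1) := ⟨⟨0, h1⟩⟩
  have : Nonempty (Fin n2) := ⟨⟨0, h2⟩⟩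
  have h := sa_op (V1 := Fin n1) (V2 := Fin n2) (k := k) m univ
  have hu : th k m (univ : Finset (Asg (Fin n1 ⊕ Fin n2))) = u k (n1 + n2) m := by
    rw [th_univ_eq, Fintype.card_sum, Fintype.card_fin, Fintype.card_fin]
  rw [hu] at h
  simp only [sa_prod, Fintype.card_fin] at h
  set p : ℝ := (n1 : ℝ) / (n1 + n2 : ℝ) with hp
  set q : ℝ := (n2 : ℝ) / (n1 + n2 : ℝ) with hq
  have hpq : p + q = 1 := by
    have : (0 : ℝ) < (n1 : ℝ) + n2 := by positivity
    rw [hp, hq, ← add_div, div_self this.ne']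
  have hone : ∑ M ∈ range (m + 1), (m.choose M : ℝ) * p ^ M * q ^ (m - M) = 1 := by
    have := add_pow p q m
    rw [hpq, one_pow] at this
    rw [this]
    exact Finset.sum_congr rfl fun M _ => by ring
  have hsplit : ∑ M ∈ range (m + 1), (m.choose M : ℝ) * p ^ M * q ^ (m - M)
        * (1 - (1 - u k n1 M) * (1 - u k n2 (m - M)))
      = (∑ M ∈ range (m + 1), (m.choose M : ℝ) * p ^ M * q ^ (m - M))
        - ∑ M ∈ range (m + 1), (m.choose M : ℝ) * p ^ M * q ^ (m - M)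
        * ((1 - u k n1 M) * (1 - u k n2 (m - M))) := by
    rw [← Finset.sum_sub_distrib]
    exact Finset.sum_congr rfl fun M _ => by ring
  rw [hsplit, hone] at h
  linarith

end KSat
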