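import Vale.Agent.KSat.Basic

/-! # P170: thinning (piece THIN) and Chebyshev (piece CHEB) -/

namespace KSat

open Finset

/-- Pascal recursion for binomial averages. -/
theorem binom_rec (p q : ℝ) (f : ℕ → ℝ) (m : ℕ) :
    ∑ j ∈ range (m + 2), ((m + 1).choose j : ℝ) * p ^ j * q ^ (m + 1 - j) * f j =
      p * ∑ j ∈ range (m + 1), (m.choose j : ℝ) * p ^ j * q ^ (m - j) * f (j + 1) +
      q * ∑ j ∈ range (m + 1), (m.choose j : ℝ) * p ^ j * q ^ (m - j) * f j := by
  have hq : q * ∑ j ∈ range (m + 1), (m.choose j : ℝ) * p ^ j * q ^ (m - j) * f j =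
      ∑ j ∈ range (m + 2), (m.choose j : ℝ) * p ^ j * q ^ (m + 1 - j) * f j := by
    rw [sum_range_succ _ (m + 1), Nat.choose_succ_self, Nat.cast_zero, zero_mul, zero_mul,
      zero_mul, add_zero, mul_sum]
    refine sum_congr rfl fun j hj => ?_
    have : m + 1 - j = (m - j) + 1 := by
      have := mem_range.1 hj
      omega
    rw [this, pow_succ]
    ring
  rw [hq, sum_range_succ' _ (m + 1), sum_range_succ' _ (m + 1), mul_sum]
  have h0 : ((m + 1).choose 0 : ℝ) = (m.choose 0 : ℝ) := by simp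
  rw [h0, ← add_assoc, ← sum_add_distrib]
  congr 1
  refine sum_congr rfl fun j _ => ?_
  rw [Nat.choose_succ_succ, Nat.cast_add, Nat.add_sub_add_right, pow_succ]
  ring

theorem avg_sum {α ι : Type} [Fintype α] (s : Finset ι) (g : ι → α → ℝ) :
    avg (fun x => ∑ i ∈ s, g i x) = ∑ i ∈ s, avg (g i) := by
  unfold avg
  rw [sum_comm, sum_div]

/-- binomial average of death probabilities -/
noncomputable def bth {V : Type} [Fintype V] [DecidableEq V] (k : ℕ) (p : ℝ) (m : ℕ)
    (S : Finset (Asg V)) : ℝ :=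
  ∑ j ∈ range (m + 1), (m.choose j : ℝ) * p ^ j * (1 - p) ^ (m - j) * th k j S

theorem bth_succ {V : Type} [Fintype V] [DecidableEq V] (k : ℕ) (p : ℝ) (m : ℕ)
    (S : Finset (Asg V)) :
    bth k p (m + 1) S = p * avg (fun C : Cl V k => bth k p m (cut S C)) +
      (1 - p) * bth k p m S := by
  have h := binom_rec p (1 - p) (fun j => th k j S) m
  have h2 : avg (fun C : Cl V k => bth k p m (cut S C)) =
      ∑ j ∈ range (m + 1), (m.choose j : ℝ) * p ^ j * (1 - p) ^ (m - j) * th k (j + 1) S := by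
    unfold bth
    rw [avg_sum]
    refine sum_congr rfl fun j _ => ?_
    rw [avg_mul_left, th_succ]
  rw [h2]
  exact h

/-- splitting the average along an injection -/
theorem avg_split_le {α β : Type} [Fintype α] [Fintype β] [DecidableEq β] (e : α ↪ β)
    (hα : 0 < Fintype.card α) {g : β → ℝ} {h : α → ℝ} {w : ℝ}
    (h1 : ∀ x, h x ≤ g (e x)) (h2 : ∀ y, w ≤ g y) :
    (Fintype.card α : ℝ) / Fintype.card β * avg h +
      (1 - (Fintype.card α : ℝ) / Fintype.card β) * w ≤ avg g := by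
  have hle : Fintype.card α ≤ Fintype.card β := Fintype.card_le_of_embedding e
  have hβ : (0 : ℝ) < Fintype.card β := by exact_mod_cast lt_of_lt_of_le hα hle
  have hα' : (0 : ℝ) < Fintype.card α := by exact_mod_cast hα
  have hs : ∑ x, h x + ((Fintype.card β : ℝ) - Fintype.card α) * w ≤ ∑ y, g y := by
    have h3 : ∑ y, g y = ∑ y ∈ univ.map e, g y + ∑ y ∈ (univ.map e)ᶜ, g y :=
      (sum_add_sum_compl _ _).symm
    rw [h3, sum_map]
    refine add_le_add (sum_le_sum fun x _ => h1 x) ?_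
    have h4 : ((univ.map e)ᶜ.card : ℝ) = (Fintype.card β : ℝ) - Fintype.card α := by
      rw [card_compl, card_map, card_univ, Nat.cast_sub hle]
    rw [← h4, ← nsmul_eq_mul]
    exact card_nsmul_le_sum _ _ _ fun y _ => h2 y
  unfold avg
  rw [le_div_iff₀ hβ]
  have h5 : ((Fintype.card α : ℝ) / Fintype.card β * ((∑ x, h x) / Fintype.card α) +
      (1 - (Fintype.card α : ℝ) / Fintype.card β) * w) * Fintype.card β =
      ∑ x, h x + ((Fintype.card β : ℝ) - Fintype.card α) * w := by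
    field_simp
  rw [h5]
  exact hs

section embed

variable {V V' : Type} [Fintype V] [DecidableEq V] [Fintype V'] [DecidableEq V']

/-- embedding of clauses induced by an embedding of variables -/
def embCl (k : ℕ) (ι : V ↪ V') : Cl V k ↪ Cl V' k where
  toFun C := fun i => (ι (C i).1, (C i).2)
  inj' := by
    intro C D h
    funext i
    have h1 := congrFun h i
    simp only [Prod.mk.injEq] at h1
    exact Prod.ext (ι.injective h1.1) h1.2

theorem bth_le_th {k : ℕ} (ι : V ↪ V') (hV : 0 < Fintype.card V) {p : ℝ}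
    (hp : p = ((Fintype.card V : ℝ) / Fintype.card V') ^ k) (m : ℕ) :
    ∀ (S : Finset (Asg V)) (S' : Finset (Asg V')), (∀ σ ∈ S', (fun v => σ (ι v)) ∈ S) →
      bth k p m S ≤ th k m S' := by
  induction m with
  | zero =>
    intro S S' hS
    have h0 : bth k p 0 S = unsat S := by
      simp [bth, th_zero]
    rw [h0, th_zero]
    unfold unsat
    by_cases h : S' = ∅
    · rw [if_pos h]
      split_ifs <;> norm_num
    · obtain ⟨σ, hσ⟩ := nonempty_iff_ne_empty.2 h
      have h2 : S ≠ ∅ := ne_empty_of_mem (hS σ hσ)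
      rw [if_neg h2, if_neg h]
  | succ m ih =>
    intro S S' hS
    have hcard : ((Fintype.card (Cl V k) : ℝ)) / Fintype.card (Cl V' k) = p := by
      rw [hp]
      simp only [Cl, Lit, Fintype.card_fun, Fintype.card_prod, Fintype.card_bool,
        Fintype.card_fin, Nat.cast_pow, Nat.cast_mul]
      rw [← div_pow]
      congr 1
      push_cast
      field_simp
    have hpos : 0 < Fintype.card (Cl V k) := by
      simp only [Cl, Lit, Fintype.card_fun, Fintype.card_prod, Fintype.card_bool,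
        Fintype.card_fin]
      positivity
    rw [bth_succ, th_succ]
    have h := avg_split_le (embCl k ι) hpos (g := fun C' : Cl V' k => th k m (cut S' C'))
      (h := fun C : Cl V k => bth k p m (cut S C)) (w := bth k p m S) ?_ ?_
    · rwa [hcard] at h
    · intro C
      apply ih
      intro σ hσ
      rw [cut, mem_filter] at hσ ⊢
      exact ⟨hS σ hσ.1, hσ.2⟩
    · intro C'
      apply ih
      intro σ hσ
      rw [cut, mem_filter] at hσ
      exact hS σ hσ.1

end embed

theorem thin {k N N' : ℕ} (h1 : 1 ≤ N) (h2 : N ≤ N') (m : ℕ) :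
    ∑ j ∈ range (m + 1), (m.choose j : ℝ) * (((N : ℝ) / N') ^ k) ^ j
        * (1 - ((N : ℝ) / N') ^ k) ^ (m - j) * u k N j ≤ u k N' m := by
  have h := bth_le_th (k := k) (Fin.castLEEmb h2) (by rw [Fintype.card_fin]; omega)
    (p := ((N : ℝ) / N') ^ k) (by rw [Fintype.card_fin, Fintype.card_fin]) m univ univ
    (fun _ _ => mem_univ _)
  exact h

theorem cheb {p s : ℝ} (hp0 : 0 ≤ p) (hp1 : p ≤ 1) (hs : 0 < s) (m : ℕ) :
    ∑ M ∈ (range (m + 1)).filter (fun M : ℕ => s ≤ |(M : ℝ) - m * p|),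
      (m.choose M : ℝ) * p ^ M * (1 - p) ^ (m - M) ≤ m / (4 * s ^ 2) := by
  have hvar : ∑ M ∈ range (m + 1), ((m : ℝ) * p - M) ^ 2 *
      ((m.choose M : ℝ) * p ^ M * (1 - p) ^ (m - M)) = m * p * (1 - p) := by
    have h := congrArg (Polynomial.eval p) (bernsteinPolynomial.variance ℝ m)
    simpa [bernsteinPolynomial, Polynomial.eval_finsetSum] using h
  have hw : ∀ M, 0 ≤ (m.choose M : ℝ) * p ^ M * (1 - p) ^ (m - M) := fun M =>
    mul_nonneg (mul_nonneg (Nat.cast_nonneg _) (pow_nonneg hp0 _))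
      (pow_nonneg (sub_nonneg.2 hp1) _)
  have h1 : ∑ M ∈ (range (m + 1)).filter (fun M : ℕ => s ≤ |(M : ℝ) - m * p|),
      (m.choose M : ℝ) * p ^ M * (1 - p) ^ (m - M) ≤
      ∑ M ∈ (range (m + 1)).filter (fun M : ℕ => s ≤ |(M : ℝ) - m * p|),
      (((m : ℝ) * p - M) ^ 2 *
      ((m.choose M : ℝ) * p ^ M * (1 - p) ^ (m - M))) / s ^ 2 := by
    refine sum_le_sum fun M hM => ?_
    have hM' := (mem_filter.1 hM).2
    rw [le_div_iff₀ (by positivity), mul_comm]
    refine mul_le_mul_of_nonneg_right ?_ (hw M)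
    have h2 : s ^ 2 ≤ |(M : ℝ) - m * p| ^ 2 := by gcongr
    rw [sq_abs] at h2
    calc s ^ 2 ≤ ((M : ℝ) - m * p) ^ 2 := h2
      _ = ((m : ℝ) * p - M) ^ 2 := by ring
  have h2 : ∑ M ∈ (range (m + 1)).filter (fun M : ℕ => s ≤ |(M : ℝ) - m * p|),
      (((m : ℝ) * p - M) ^ 2 *
      ((m.choose M : ℝ) * p ^ M * (1 - p) ^ (m - M))) / s ^ 2 ≤
      ∑ M ∈ range (m + 1), (((m : ℝ) * p - M) ^ 2 *
      ((m.choose M : ℝ) * p ^ M * (1 - p) ^ (m - M))) / s ^ 2 :=
    sum_le_sum_of_subset_of_nonneg (filter_subset _ _) fun M _ _ =>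
      div_nonneg (mul_nonneg (sq_nonneg _) (hw M)) (sq_nonneg _)
  rw [← sum_div (range (m + 1)), hvar] at h2
  refine (h1.trans h2).trans ?_
  rw [div_le_div_iff₀ (by positivity) (by positivity)]
  have h3 : p * (1 - p) ≤ 1 / 4 := by nlinarith [sq_nonneg (p - 1 / 2)]
  have h4 : (0 : ℝ) ≤ m := Nat.cast_nonneg m
  have h5 : 0 ≤ (m : ℝ) * s ^ 2 := by positivity
  nlinarith [mul_le_mul_of_nonneg_left h3 h5]

end KSat
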