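import Vale.Agent.KSat.Win
import Vale.Agent.KSat.SA
import Vale.Agent.KSat.Thin
import Vale.Agent.KSat.First
import Vale.Agent.KSat.Bin

/-! # P170: the quantity `m*(n)` (piece LIMa) -/

namespace KSat

open Finset Filter Topology

/-- `m*(n)`: the largest number of clauses with `P(unsat) <= 1/2`. -/
noncomputable def mstar (k n : ℕ) : ℕ := sSup {m : ℕ | u k n m ≤ 1 / 2}

noncomputable def rr (k n : ℕ) : ℝ := (mstar k n : ℝ) / n

theorem le_of_u_le {k n m : ℕ} (hn : 1 ≤ n) (h : u k n m ≤ 1 / 2) : m ≤ 2 ^ (k + 1) * n := by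
  by_contra hm
  have hm1 : 2 ^ (k + 1) * n + 1 ≤ m := by omega
  have h1 := first_moment (k := k) hn m
  have h2 : (1 : ℝ) - (1 / 2) ^ k ≤ Real.exp (-(1 / 2) ^ k) := by
    have := Real.add_one_le_exp (-(1 / 2 : ℝ) ^ k)
    linarith
  have h20 : (0 : ℝ) ≤ 1 - (1 / 2) ^ k := by
    have : ((1 : ℝ) / 2) ^ k ≤ 1 := pow_le_one₀ (by norm_num) (by norm_num)
    linarith
  have h3 : ((1 : ℝ) - (1 / 2) ^ k) ^ m ≤ Real.exp (-(2 * n)) := by
    calc ((1 : ℝ) - (1 / 2) ^ k) ^ m ≤ (Real.exp (-(1 / 2) ^ k)) ^ m := pow_le_pow_left₀ h20 h2 m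
      _ = Real.exp (-(m * (1 / 2) ^ k)) := by
        rw [← Real.exp_nat_mul]
        congr 1
        ring
      _ ≤ Real.exp (-(2 * n)) := by
        apply Real.exp_le_exp.2
        have h4 : ((2 : ℝ) ^ (k + 1) * n + 1) ≤ m := by exact_mod_cast hm1
        have h5 : (0 : ℝ) < (1 / 2) ^ k := by positivity
        have h6 : ((2 : ℝ) ^ (k + 1) * n) * (1 / 2) ^ k = 2 * n := by
          rw [pow_succ, one_div, inv_pow]
          field_simp
        nlinarith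
  have h4 : (2 : ℝ) ^ n ≤ Real.exp n := by
    have : (2 : ℝ) ≤ Real.exp 1 := by
      have := Real.add_one_le_exp (1 : ℝ)
      linarith
    calc (2 : ℝ) ^ n ≤ (Real.exp 1) ^ n := pow_le_pow_left₀ (by norm_num) this n
      _ = Real.exp n := by rw [← Real.exp_nat_mul, mul_one]
  have h5 : (1 : ℝ) / 2 ≤ Real.exp (-n) := by
    have h6 : (1 : ℝ) / 2 ≤ 2 ^ n * (1 - (1 / 2 : ℝ) ^ k) ^ m := by linarith
    have h7 : (2 : ℝ) ^ n * (1 - (1 / 2 : ℝ) ^ k) ^ m ≤ Real.exp n * Real.exp (-(2 * n)) :=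
      mul_le_mul h4 h3 (pow_nonneg h20 m) (Real.exp_pos _).le
    rw [← Real.exp_add] at h7
    have h8 : (n : ℝ) + -(2 * n) = -n := by ring
    rw [h8] at h7
    linarith
  have h6 : Real.exp (-(n : ℝ)) ≤ Real.exp (-1) := by
    apply Real.exp_le_exp.2
    have : (1 : ℝ) ≤ n := by exact_mod_cast hn
    linarith
  have h7 : Real.exp (-1) < 1 / 2 := by
    rw [Real.exp_neg, one_div]
    apply inv_strictAnti₀ (by norm_num)
    have := Real.add_one_lt_exp (show (1 : ℝ) ≠ 0 by norm_num)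
    linarith
  linarith

theorem mstar_bdd {k n : ℕ} (hn : 1 ≤ n) : BddAbove {m : ℕ | u k n m ≤ 1 / 2} :=
  ⟨2 ^ (k + 1) * n, fun _ hm => le_of_u_le hn hm⟩

/-- [LIMa] -/
theorem le_mstar {k n m : ℕ} (_hk : 3 ≤ k) (hn : 1 ≤ n) (h : u k n m ≤ 1 / 2) :
    m ≤ mstar k n := le_csSup (mstar_bdd hn) h

/-- [LIMa] -/
theorem mstar_spec {k n : ℕ} (hk : 3 ≤ k) (hn : 1 ≤ n) :
    u k n (mstar k n) ≤ 1 / 2 ∧ ∀ m, mstar k n < m → 1 / 2 < u k n m := by
  refine ⟨?_, fun m hm => ?_⟩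
  · have hne : {m : ℕ | u k n m ≤ 1 / 2}.Nonempty := ⟨0, by simp [u_zero]⟩
    exact Nat.sSup_mem hne (mstar_bdd hn)
  · by_contra h
    exact absurd (le_mstar hk hn (not_lt.1 h)) (not_le.2 hm)

theorem mstar_le {k n : ℕ} (hk : 3 ≤ k) (hn : 1 ≤ n) : mstar k n ≤ 2 ^ (k + 1) * n :=
  le_of_u_le hn (mstar_spec hk hn).1

/-- [LIMa] -/
theorem rr_bdd {k : ℕ} (hk : 3 ≤ k) : ∃ R : ℝ, 0 < R ∧ ∀ n : ℕ, 1 ≤ n → rr k n ≤ R := by
  refine ⟨2 ^ (k + 1), by positivity, fun n hn => ?_⟩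
  have h := mstar_le hk hn
  have hn0 : (0 : ℝ) < n := by exact_mod_cast hn
  unfold rr
  rw [div_le_iff₀ hn0]
  exact_mod_cast h

theorem rr_nonneg (k n : ℕ) : 0 ≤ rr k n := by
  unfold rr
  positivity

theorem rr_mul {k n : ℕ} (hn : 1 ≤ n) : rr k n * n = mstar k n := by
  have hn0 : (n : ℝ) ≠ 0 := by
    have : (0 : ℝ) < n := by exact_mod_cast hn
    exact this.ne'
  unfold rr
  field_simp

end KSat
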