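import Vale.Agent.KSat.LimA

/-! # P170: superadditivity of `r(n)` (piece LIMb) -/

namespace KSat

open Finset Filter Topology

/-- the window below `m*(n)` -/
theorem win_low {k : ℕ} (hk : 3 ≤ k) {δ : ℝ} (hδ : 0 < δ) (hδ2 : δ ≤ 1 / 2) :
    ∃ ε : ℝ, 0 < ε ∧ ε < 1 / 2 ∧ ∃ n0 : ℕ, ∀ n : ℕ, n0 ≤ n → 1 ≤ n →
      ∀ m : ℕ, m + ⌈(n : ℝ) ^ (1 - ε)⌉₊ ≤ mstar k n → u k n m ≤ δ := by
  obtain ⟨ε, h1, h2, n0, h0⟩ := window hk (2 ^ (k + 1)) δ (by positivity) hδ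
  refine ⟨ε, h1, h2, n0, fun n hn hn1 m hm => ?_⟩
  have h3 := h0 n hn (mstar k n) (by exact_mod_cast mstar_le hk hn1)
    (by linarith [(mstar_spec hk hn1).1])
  exact (u_mono k hn1 (by omega)).trans h3

/-- the window above `m*(n)` -/
theorem win_high {k : ℕ} (hk : 3 ≤ k) {A δ : ℝ} (hA : 0 < A) (hδ : 0 < δ) (hδ2 : δ ≤ 1 / 2) :
    ∃ ε : ℝ, 0 < ε ∧ ε < 1 / 2 ∧ ∃ n0 : ℕ, ∀ n : ℕ, n0 ≤ n → 1 ≤ n →
      ∀ m : ℕ, (m : ℝ) ≤ A * n → mstar k n + ⌈(n : ℝ) ^ (1 - ε)⌉₊ + 1 ≤ m →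
        1 - δ < u k n m := by
  obtain ⟨ε, h1, h2, n0, h0⟩ := window hk A δ hA hδ
  refine ⟨ε, h1, h2, n0, fun n hn hn1 m hmA hm => ?_⟩
  by_contra hc
  have h3 := h0 n hn m hmA (not_lt.1 hc)
  have h4 := (mstar_spec hk hn1).2 (m - ⌈(n : ℝ) ^ (1 - ε)⌉₊) (by omega)
  linarith

/-- arithmetic of one half -/
theorem saux {A K X Y N n1 ρ t M mp w ms : ℝ} (_hA : 1 ≤ A) (hK : K = 6 * A + 6) (hX : 0 < X)
    (hXY : Y = N * X) (hY1 : 1 ≤ Y) (hN : N ≤ 3 * n1) (hρ : ρ * n1 ≤ ms)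
    (hmp : mp ≤ (ρ - K * X) * n1) (ht : t ≤ 2 * A * Y) (hM : M < mp + t) (hw : w ≤ Y + 1) :
    M + w ≤ ms := by
  have h1 : N * (K * X) ≤ 3 * n1 * (K * X) :=
    mul_le_mul_of_nonneg_right hN (by rw [hK]; positivity)
  have h2 : N * (K * X) = (6 * A + 6) * Y := by rw [hXY, hK]; ring
  have h3 : (2 * A + 2) * Y ≤ K * X * n1 := by nlinarith
  nlinarith

/-- [LIMb] superadditivity of `r(n)` up to a polynomial error. -/
theorem rr_sa {k : ℕ} (hk : 3 ≤ k) :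
    ∃ ε C : ℝ, ∃ n0 : ℕ, 0 < ε ∧ 0 < C ∧ ∀ n1 n2 : ℕ, n0 ≤ n1 → n0 ≤ n2 → n1 ≤ 2 * n2 →
      n2 ≤ 2 * n1 → min (rr k n1) (rr k n2) - C * ((n1 + n2 : ℕ) : ℝ) ^ (-ε) ≤ rr k (n1 + n2) := by
  obtain ⟨e, he, he2, n0, h0⟩ := win_low hk (δ := 1 / 8) (by norm_num) (by norm_num)
  set A : ℝ := 2 ^ (k + 1) with hA
  have hA1 : 1 ≤ A := one_le_pow₀ (by norm_num)
  set K : ℝ := 6 * A + 6 with hK
  refine ⟨e, K + 1, max n0 1, he, by positivity, fun n1 n2 hn1 hn2 h12 h21 => ?_⟩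
  have h11 : 1 ≤ n1 := (le_max_right _ _).trans hn1
  have h22 : 1 ≤ n2 := (le_max_right _ _).trans hn2
  have h1' := h0 n1 ((le_max_left _ _).trans hn1) h11
  have h2' := h0 n2 ((le_max_left _ _).trans hn2) h22
  set N : ℕ := n1 + n2 with hN
  have hN1 : 1 ≤ N := by omega
  have hNr : (1 : ℝ) ≤ N := by exact_mod_cast hN1
  have hN0 : (0 : ℝ) < N := by linarith
  have hn1r : (1 : ℝ) ≤ n1 := by exact_mod_cast h11
  have hn2r : (1 : ℝ) ≤ n2 := by exact_mod_cast h22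
  have hNsum : (N : ℝ) = n1 + n2 := by rw [hN]; push_cast; ring
  set ρ : ℝ := min (rr k n1) (rr k n2) with hρ
  set X : ℝ := (N : ℝ) ^ (-e) with hX
  have hX0 : 0 < X := Real.rpow_pos_of_pos hN0 _
  set Y : ℝ := (N : ℝ) ^ (1 - e) with hY
  have hXY : Y = N * X := by
    rw [hY, hX, sub_eq_add_neg, Real.rpow_add hN0, Real.rpow_one]
  have hY1 : 1 ≤ Y := Real.one_le_rpow hNr (by linarith)
  rcases le_or_gt (ρ - K * X) 0 with hneg | hpos
  · have h13 := rr_nonneg k N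
    have h14 : (K + 1) * X = K * X + X := by ring
    rw [h14]
    linarith
  set m : ℕ := ⌊(ρ - K * X) * N⌋₊ with hm
  have hm1 : (m : ℝ) ≤ (ρ - K * X) * N := Nat.floor_le (by positivity)
  have hm2 : (ρ - K * X) * N < m + 1 := Nat.lt_floor_add_one _
  have hρ1 : ρ * n1 ≤ mstar k n1 := by
    rw [← rr_mul h11]
    exact mul_le_mul_of_nonneg_right (min_le_left _ _) (by linarith)
  have hρ2 : ρ * n2 ≤ mstar k n2 := by
    rw [← rr_mul h22]
    exact mul_le_mul_of_nonneg_right (min_le_right _ _) (by linarith)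
  have hρA : ρ ≤ A := by
    have h3 : (mstar k n1 : ℝ) ≤ A * n1 := by
      rw [hA]
      exact_mod_cast mstar_le hk h11
    have h4 : ρ * n1 ≤ A * n1 := hρ1.trans h3
    exact le_of_mul_le_mul_right h4 (by linarith)
  -- the deviation
  set t : ℝ := 2 * A * Real.sqrt N with ht
  have hsq : Real.sqrt N ^ 2 = N := Real.sq_sqrt hN0.le
  have hs0 : 0 < Real.sqrt N := Real.sqrt_pos.2 hN0
  have ht0 : 0 < t := by positivity
  have htY : t ≤ 2 * A * Y := by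
    have : Real.sqrt N ≤ Y := by
      rw [hY, Real.sqrt_eq_rpow]
      exact Real.rpow_le_rpow_of_exponent_le hNr (by linarith)
    exact mul_le_mul_of_nonneg_left this (by positivity)
  have hmt : (m : ℝ) ≤ t ^ 2 / 2 := by
    have h5 : t ^ 2 / 2 = 2 * A ^ 2 * N := by
      rw [ht, mul_pow, hsq]; ring
    rw [h5]
    have h6 : (m : ℝ) ≤ A * N := by
      have : (ρ - K * X) * N ≤ A * N := by
        apply mul_le_mul_of_nonneg_right _ hN0.le
        have : 0 ≤ K * X := by positivity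
        linarith
      linarith
    have h7 : A * N ≤ 2 * A ^ 2 * N := by
      apply mul_le_mul_of_nonneg_right _ hN0.le
      nlinarith
    linarith
  set p : ℝ := (n1 : ℝ) / (n1 + n2) with hp
  have hp' : p = (n1 : ℝ) / N := by rw [hp, hNsum]
  have hq : 1 - p = (n2 : ℝ) / (n1 + n2) := by
    rw [hp]; field_simp; ring
  have hp0 : 0 ≤ p := by rw [hp]; positivity
  have hp1 : p ≤ 1 := by
    rw [hp, div_le_one (by positivity)]; linarith
  have hsa := sa (k := k) (n1 := n1) (n2 := n2) (by omega) h11 h22 m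
  rw [← hq, ← hp] at hsa
  have hge := KSatLim.bin_avg_ge (b := (7 / 8 : ℝ) * (7 / 8)) m hp0 hp1 ht0 (by norm_num) hmt
    (fun M => (1 - u k n1 M) * (1 - u k n2 (m - M)))
    (fun M => mul_nonneg (by linarith [u_le_one k n1 M]) (by linarith [u_le_one k n2 (m - M)]))
    (by
      intro M hMm hM
      have hmp : (m : ℝ) * p ≤ (ρ - K * X) * n1 := by
        rw [hp', mul_div_assoc', div_le_iff₀ hN0]
        have := mul_le_mul_of_nonneg_right hm1 (by linarith : (0 : ℝ) ≤ n1)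
        linarith
      have hmq : (m : ℝ) * (1 - p) ≤ (ρ - K * X) * n2 := by
        rw [hq, ← hNsum, mul_div_assoc', div_le_iff₀ hN0]
        have := mul_le_mul_of_nonneg_right hm1 (by linarith : (0 : ℝ) ≤ n2)
        linarith
      have hM1 := (abs_lt.1 hM).1
      have hM2 := (abs_lt.1 hM).2
      have hth1 : (N : ℝ) ≤ 3 * n1 := by
        have : (N : ℕ) ≤ 3 * n1 := by omega
        exact_mod_cast this
      have hth2 : (N : ℝ) ≤ 3 * n2 := by
        have : (N : ℕ) ≤ 3 * n2 := by omega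
        exact_mod_cast this
      have hw1 : (⌈(n1 : ℝ) ^ (1 - e)⌉₊ : ℝ) ≤ Y + 1 := by
        have h8 := Nat.ceil_lt_add_one (Real.rpow_nonneg (by linarith : (0 : ℝ) ≤ n1) (1 - e))
        have h9 : (n1 : ℝ) ^ (1 - e) ≤ Y :=
          Real.rpow_le_rpow (by linarith) (by linarith) (by linarith)
        linarith
      have hw2 : (⌈(n2 : ℝ) ^ (1 - e)⌉₊ : ℝ) ≤ Y + 1 := by
        have h8 := Nat.ceil_lt_add_one (Real.rpow_nonneg (by linarith : (0 : ℝ) ≤ n2) (1 - e))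
        have h9 : (n2 : ℝ) ^ (1 - e) ≤ Y :=
          Real.rpow_le_rpow (by linarith) (by linarith) (by linarith)
        linarith
      have g1 : M + ⌈(n1 : ℝ) ^ (1 - e)⌉₊ ≤ mstar k n1 := by
        have : (M : ℝ) + (⌈(n1 : ℝ) ^ (1 - e)⌉₊ : ℝ) ≤ mstar k n1 :=
          saux hA1 hK hX0 hXY hY1 hth1 hρ1 hmp htY (by linarith) hw1
        exact_mod_cast this
      have g2 : (m - M) + ⌈(n2 : ℝ) ^ (1 - e)⌉₊ ≤ mstar k n2 := by
        have hc : ((m - M : ℕ) : ℝ) = m - M := by push_cast [hMm]; ring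
        have : ((m - M : ℕ) : ℝ) + (⌈(n2 : ℝ) ^ (1 - e)⌉₊ : ℝ) ≤ mstar k n2 :=
          saux hA1 hK hX0 hXY hY1 hth2 hρ2 hmq htY (by rw [hc]; linarith) hw2
        exact_mod_cast this
      have g3 := h1' M g1
      have g4 := h2' (m - M) g2
      exact mul_le_mul (by linarith) (by linarith) (by norm_num) (by linarith))
  have hfin : u k N m ≤ 1 / 2 := by
    have : ∑ M ∈ range (m + 1), KSatLim.bin m p M * ((1 - u k n1 M) * (1 - u k n2 (m - M))) ≤
        1 - u k N m := by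
      simpa [KSatLim.bin] using hsa
    have h10 : (7 : ℝ) / 8 * (7 / 8 * (7 / 8)) ≥ 1 / 2 := by norm_num
    linarith
  have hle := le_mstar hk hN1 hfin
  have hler : (m : ℝ) ≤ mstar k N := by exact_mod_cast hle
  rw [← rr_mul hN1] at hler
  have h11' : (ρ - K * X) * N < (rr k N + X) * N := by
    have h12 : 1 ≤ X * N := by rw [mul_comm, ← hXY]; exact hY1
    rw [add_mul]
    linarith
  have := lt_of_mul_lt_mul_right h11' hN0.le
  linarith

end KSat
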