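import Vale.Agent.KSat.LimB

/-! # P170: thinning for `r(n)` (piece LIMc) -/

namespace KSat

open Finset Filter Topology

/-- [LIMc] thinning for `r(n)`. -/
theorem rr_thin {k : ℕ} (hk : 3 ≤ k) :
    ∃ ε C : ℝ, ∃ n0 : ℕ, 0 < ε ∧ 0 < C ∧ ∀ N N' : ℕ, n0 ≤ N → N ≤ N' → N' ≤ 2 * N →
      ((N : ℝ) / N') ^ k * rr k N' - C * (N : ℝ) ^ (-ε) ≤ rr k N := by
  obtain ⟨e, he, he2, n0, h0⟩ := win_high hk (A := 2 ^ (k + 1) + 3) (δ := 1 / 8)
    (by positivity) (by norm_num) (by norm_num)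
  obtain ⟨A, hA⟩ : ∃ A : ℝ, A = 2 ^ (k + 1) := ⟨_, rfl⟩
  have hA1 : 1 ≤ A := by rw [hA]; exact one_le_pow₀ (by norm_num)
  refine ⟨e, 3 * A + 3, max n0 1, he, by positivity, fun N N' hN hNN hN2 => ?_⟩
  have hN1 : 1 ≤ N := (le_max_right _ _).trans hN
  have hN1' : 1 ≤ N' := hN1.trans hNN
  have h0' := h0 N ((le_max_left _ _).trans hN) hN1
  have hNr : (1 : ℝ) ≤ N := by exact_mod_cast hN1
  have hN0 : (0 : ℝ) < N := by linarith
  have hNr' : (N : ℝ) ≤ N' := by exact_mod_cast hNN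
  have hN2r : (N' : ℝ) ≤ 2 * N := by exact_mod_cast hN2
  have hN0' : (0 : ℝ) < N' := by linarith
  obtain ⟨X, hX⟩ : ∃ X : ℝ, X = (N : ℝ) ^ (-e) := ⟨_, rfl⟩
  obtain ⟨Y, hY⟩ : ∃ Y : ℝ, Y = (N : ℝ) ^ (1 - e) := ⟨_, rfl⟩
  have hX0 : 0 < X := by rw [hX]; exact Real.rpow_pos_of_pos hN0 _
  have hXY : Y = N * X := by
    rw [hY, hX, sub_eq_add_neg, Real.rpow_add hN0, Real.rpow_one]
  have hY1 : 1 ≤ Y := by rw [hY]; exact Real.one_le_rpow hNr (by linarith)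
  have hYN : Y ≤ N := by
    rw [hY]
    calc (N : ℝ) ^ (1 - e) ≤ (N : ℝ) ^ (1 : ℝ) :=
          Real.rpow_le_rpow_of_exponent_le hNr (by linarith)
      _ = N := Real.rpow_one _
  have hw : (⌈(N : ℝ) ^ (1 - e)⌉₊ : ℝ) ≤ Y + 1 := by
    have h8 := Nat.ceil_lt_add_one (Real.rpow_nonneg hN0.le (1 - e))
    rw [← hY] at h8 ⊢
    linarith
  obtain ⟨p, hp⟩ : ∃ p : ℝ, p = ((N : ℝ) / N') ^ k := ⟨_, rfl⟩
  have hNN1 : (N : ℝ) / N' ≤ 1 := by rw [div_le_one hN0']; exact hNr'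
  have hp0 : 0 ≤ p := by rw [hp]; positivity
  have hp1 : p ≤ 1 := by rw [hp]; exact pow_le_one₀ (by positivity) hNN1
  obtain ⟨m, hm⟩ : ∃ m : ℕ, m = mstar k N' := ⟨_, rfl⟩
  have hmu : u k N' m ≤ 1 / 2 := by rw [hm]; exact (mstar_spec hk hN1').1
  have hmA : (m : ℝ) ≤ A * N' := by
    rw [hm, hA]; exact_mod_cast mstar_le hk hN1'
  obtain ⟨t, ht⟩ : ∃ t : ℝ, t = 2 * A * Real.sqrt N' := ⟨_, rfl⟩
  have hsq : Real.sqrt N' ^ 2 = N' := Real.sq_sqrt hN0'.le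
  have hs0 : 0 < Real.sqrt N' := Real.sqrt_pos.2 hN0'
  have ht0 : 0 < t := by rw [ht]; positivity
  have htY : t ≤ 3 * A * Y := by
    have h1 : Real.sqrt N' ≤ 3 / 2 * Real.sqrt N := by
      rw [Real.sqrt_le_left (by positivity)]
      rw [mul_pow, Real.sq_sqrt hN0.le]
      linarith
    have h2 : Real.sqrt N ≤ Y := by
      rw [hY, Real.sqrt_eq_rpow]
      exact Real.rpow_le_rpow_of_exponent_le hNr (by linarith)
    rw [ht]
    have h3 : Real.sqrt N' ≤ 3 / 2 * Y := by linarith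
    have h4 := mul_le_mul_of_nonneg_left h3 (by positivity : 0 ≤ 2 * A)
    linarith
  have hmt : (m : ℝ) ≤ t ^ 2 / 2 := by
    have h5 : t ^ 2 / 2 = 2 * A ^ 2 * N' := by
      rw [ht, mul_pow, hsq]; ring
    rw [h5]
    have h7 : A * N' ≤ 2 * A ^ 2 * N' := by
      apply mul_le_mul_of_nonneg_right _ hN0'.le
      nlinarith
    linarith
  obtain ⟨m1, hm1⟩ : ∃ m1 : ℕ, m1 = mstar k N + ⌈(N : ℝ) ^ (1 - e)⌉₊ + 1 := ⟨_, rfl⟩
  have hm1A : (m1 : ℝ) ≤ (2 ^ (k + 1) + 3) * N := by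
    have h1 : (mstar k N : ℝ) ≤ 2 ^ (k + 1) * N := by exact_mod_cast mstar_le hk hN1
    rw [hm1]
    push_cast
    linarith
  have hu1 : 7 / 8 < u k N m1 := by
    have := h0' m1 hm1A (by omega)
    linarith
  have key : (m : ℝ) * p - t < m1 := by
    by_contra hc
    have hc := not_lt.1 hc
    have hge := KSatLim.bin_avg_ge (b := (7 / 8 : ℝ)) m hp0 hp1 ht0 (by norm_num) hmt
      (fun M => u k N M) (fun M => u_nonneg k N M)
      (by
        intro M _ hM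
        have hM1 := (abs_lt.1 hM).1
        have h2 : (m1 : ℝ) ≤ M := by linarith
        have h3 : m1 ≤ M := by exact_mod_cast h2
        have h4 := u_mono k hN1 h3
        linarith)
    have hthin := thin (k := k) hN1 hNN m
    rw [← hp] at hthin
    have h5 : ∑ M ∈ range (m + 1), KSatLim.bin m p M * u k N M ≤ u k N' m := by
      simpa [KSatLim.bin] using hthin
    have h6 : (7 : ℝ) / 8 * (7 / 8) > 1 / 2 := by norm_num
    linarith
  have hmr : rr k N' * N' = m := by rw [rr_mul hN1', hm]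
  have hNm : rr k N * N = mstar k N := rr_mul hN1
  have h7 : (m1 : ℝ) ≤ rr k N * N + Y + 2 := by
    rw [hm1, hNm]
    push_cast
    linarith
  have h8 : p * rr k N' * N ≤ m * p := by
    rw [← hmr]
    have h9 : 0 ≤ p * rr k N' := mul_nonneg hp0 (rr_nonneg k N')
    have h10 := mul_le_mul_of_nonneg_left hNr' h9
    linarith
  have h11 : (p * rr k N' - (3 * A + 3) * X) * N ≤ rr k N * N := by
    have h12 : (p * rr k N' - (3 * A + 3) * X) * N = p * rr k N' * N - (3 * A + 3) * Y := by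
      rw [hXY]; ring
    rw [h12]
    have h13 : (3 * A + 3) * Y = 3 * A * Y + 3 * Y := by ring
    rw [h13]
    linarith
  rw [← hp, ← hX]
  exact le_of_mul_le_mul_right h11 hN0

end KSat
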