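import Mathlib

/-! # P170: the model of the problem (uniform proper clauses, with replacement) -/

namespace KSat

/-- A proper `k`-clause on the `n` variables of `Fin n`: a set of `k` literals on `k` distinct
variables. The literal `(x, b)` is true under the assignment `σ` iff `σ x = b`. -/
abbrev PClause (k n : ℕ) : Type :=
  {p : Finset (Fin n × Bool) // p.card = k ∧ ∀ a ∈ p, ∀ b ∈ p, a.1 = b.1 → a = b}

/-- The formula `F 0 ∧ … ∧ F (m - 1)` is satisfiable: some assignment makes at least one
literal of every clause true. -/
def PSat {k n m : ℕ} (F : Fin m → PClause k n) : Prop :=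
  ∃ σ : Fin n → Bool, ∀ j : Fin m, ∃ a ∈ (F j).1, σ a.1 = a.2

/-- `P_{k,n}(m)`: the probability that `m` independent uniform proper `k`-clauses (drawn with
replacement) are simultaneously satisfiable, that is, the fraction of satisfiable formulas
among all sequences of `m` proper `k`-clauses on `n` variables. -/
noncomputable def PP (k n m : ℕ) : ℝ :=
  (Nat.card {F : Fin m → PClause k n // PSat F} : ℝ) / (Nat.card (Fin m → PClause k n) : ℝ)

end KSat
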