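import Vale.Agent.KSat.Basic

/-! # P170: the potential inequality (piece POT) -/

namespace KSat

open Finset

variable {V : Type} [Fintype V] [DecidableEq V]

theorem J_le [Nonempty V] (k L T' : ℕ) (S : Finset (Asg V)) (C : Cl V k) (i : Fin k) :
    th k L (cut S C) - th k L S ≤ (th k (L + T') S - th k L S) + NN k L T' S (C i) := by
  have h1 : th k L (cut S C) = It k L (fun K => unsat (cut K C)) S := It_cut k L unsat C S
  have h2 : th k (L + T') S = It k L (th k T') S := (It_th k L T' S).symm
  have h3 : NN k L T' S (C i) = It k L (fun K => unsat (cutL K (C i)) * (1 - th k T' K)) S := rfl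
  have h4 : It k L (fun K => unsat (cut K C)) S ≤
      It k L (fun K => th k T' K + unsat (cutL K (C i)) * (1 - th k T' K)) S := by
    refine It_mono k L (fun K => ?_) S
    have ht0 := th_nonneg k T' K
    have ht1 := th_le_one k T' K
    have hu0 := unsat_nonneg (cutL K (C i))
    by_cases h : cut K C = ∅
    · have h' : cutL K (C i) = ∅ := by
        refine Finset.subset_empty.1 ?_
        rw [← h]
        intro σ hσ
        simp only [cutL, cut, Finset.mem_filter] at hσ ⊢
        exact ⟨hσ.1, i, hσ.2⟩
      rw [h, h', unsat_empty]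
      linarith
    · have h5 : unsat (cut K C) = 0 := by
        unfold unsat
        rw [if_neg h]
      rw [h5]
      have := mul_nonneg hu0 (sub_nonneg.2 ht1)
      linarith
  rw [It_add] at h4
  rw [h1, h2, h3]
  linarith

theorem qq_nonneg (k T' : ℕ) (y : ℝ) (L : ℕ) (S : Finset (Asg V)) : 0 ≤ qq k T' y L S := by
  unfold qq
  exact avg_nonneg fun C => by split_ifs <;> norm_num

theorem QQ_nonneg (k T' : ℕ) (y : ℝ) (r : ℕ) (S : Finset (Asg V)) : 0 ≤ QQ k T' y r S := by
  induction r generalizing S with
  | zero => exact le_refl _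
  | succ r ih =>
    have h1 : 0 ≤ T k (QQ k T' y r) S := avg_nonneg fun C => ih _
    have h2 := qq_nonneg k T' y r S
    show 0 ≤ qq k T' y r S + T k (QQ k T' y r) S
    linarith

/-- increments -/
noncomputable def dth (k : ℕ) (s : ℕ) : ℕ → Finset (Asg V) → ℝ
  | 0, _ => 0
  | r + 1, S => th k (r + s) S - th k r S

theorem avg_dth_le [Nonempty V] (k s : ℕ) (r : ℕ) (S : Finset (Asg V)) :
    avg (fun C : Cl V k => dth k s r (cut S C)) ≤ dth k s (r + 1) S := by
  cases r with
  | zero =>
    have h1 : avg (fun C : Cl V k => dth k s 0 (cut S C)) = 0 := by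
      show avg (fun _ : Cl V k => (0 : ℝ)) = 0
      exact avg_const 0
    rw [h1]
    show 0 ≤ th k (0 + s) S - th k 0 S
    have := th_mono_r k (Nat.zero_le (0 + s)) S
    linarith
  | succ r =>
    have h1 : avg (fun C : Cl V k => dth k s (r + 1) (cut S C)) =
        th k (r + s + 1) S - th k (r + 1) S := by
      show avg (fun C : Cl V k => th k (r + s) (cut S C) - th k r (cut S C)) = _
      rw [avg_sub]
      rfl
    rw [h1]
    show _ ≤ th k (r + 1 + s) S - th k (r + 1) S
    rw [show r + s + 1 = r + 1 + s by ring]

theorem pot_aux [Nonempty V] {k : ℕ} (T' : ℕ) {y z : ℝ} (hy : 0 ≤ y) (hz : 0 < z)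
    (r : ℕ) (S : Finset (Asg V)) :
    th k r S * (1 - th k r S) ≤
      (z + y) * r * dth k 1 r S + dth k T' r S / z + QQ k T' y r S := by
  classical
  induction r generalizing S with
  | zero =>
    have h1 : th k 0 S * (1 - th k 0 S) = 0 := by
      show unsat S * (1 - unsat S) = 0
      unfold unsat
      split_ifs <;> norm_num
    rw [h1]
    have h2 : dth k 1 0 S = 0 := rfl
    have h3 : dth k T' 0 S = 0 := rfl
    have h4 : QQ k T' y 0 S = 0 := rfl
    rw [h2, h3, h4]
    simp
  | succ r ih =>
    set x : Cl V k → ℝ := fun C => th k r (cut S C) with hx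
    set c : ℝ := th k r S with hc
    have hxb : th k (r + 1) S = avg x := rfl
    have hcx : ∀ C, c ≤ x C := fun C => th_anti k r (by
      intro σ hσ
      exact (Finset.mem_filter.1 hσ).1)
    have hx1 : ∀ C, x C ≤ 1 := fun C => th_le_one k r _
    have hc0 : 0 ≤ c := th_nonneg k r S
    have hD : dth k 1 (r + 1) S = avg x - c := rfl
    have hZ : dth k T' (r + 1) S = th k (r + T') S - c := rfl
    have hQ : QQ k T' y (r + 1) S = qq k T' y r S + avg (fun C : Cl V k => QQ k T' y r (cut S C)) :=
      rfl
    have hD0 : 0 ≤ avg x - c := by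
      have h1 : avg (fun _ : Cl V k => c) ≤ avg x := avg_mono hcx
      rw [avg_const] at h1
      linarith
    have hQ0 : 0 ≤ QQ k T' y (r + 1) S := QQ_nonneg _ _ _ _ _
    have hx0 : 0 ≤ avg x := by linarith
    have hx1' : avg x ≤ 1 := avg_le_one hx1
    rw [hxb, hD, hZ]
    push_cast
    by_cases hz' : z ≤ th k (r + T') S - c
    · have h1 : 1 ≤ (th k (r + T') S - c) / z := by
        rw [le_div_iff₀ hz]
        linarith
      have h2 : 0 ≤ (z + y) * (r + 1) * (avg x - c) := by positivity
      have h3 : avg x * (1 - avg x) ≤ 1 := by nlinarith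
      linarith
    · push Not at hz'
      have h1 : avg (fun C => (x C - c) ^ 2) ≤ (z + y) * (avg x - c) + qq k T' y r S := by
        have h2 : ∀ C, (x C - c) ^ 2 ≤ (z + y) * (x C - c) +
            (if ∀ i, y ≤ NN k r T' S (C i) then (1 : ℝ) else 0) := by
          intro C
          have h3 : 0 ≤ x C - c := sub_nonneg.2 (hcx C)
          have h4 : x C - c ≤ 1 := by linarith [hx1 C]
          by_cases h5 : ∀ i, y ≤ NN k r T' S (C i)
          · rw [if_pos h5]
            have h6 : 0 ≤ (z + y) * (x C - c) := by positivity
            nlinarith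
          · rw [if_neg h5]
            push Not at h5
            obtain ⟨i, hi⟩ := h5
            have h6 := J_le k r T' S C i
            have h7 : x C - c ≤ z + y := by
              have : x C - c = th k r (cut S C) - th k r S := rfl
              linarith
            nlinarith
        refine (avg_mono h2).trans ?_
        rw [avg_add, avg_mul_left, avg_sub, avg_const]
        have h8 : avg (fun C : Cl V k => if ∀ i, y ≤ NN k r T' S (C i) then (1 : ℝ) else 0) =
            qq k T' y r S := by
          unfold qq
          congr
        rw [h8]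
      have h2 : avg (fun C => x C * (1 - x C)) ≤
          (z + y) * r * (avg x - c) + (th k (r + T') S - c) / z +
            avg (fun C : Cl V k => QQ k T' y r (cut S C)) := by
        have h3 := avg_mono (fun C : Cl V k => ih (cut S C))
        rw [avg_add, avg_add, avg_mul_left] at h3
        have h4 : avg (fun C : Cl V k => dth k T' r (cut S C) / z) =
            avg (fun C : Cl V k => dth k T' r (cut S C)) / z := by
          simp only [div_eq_mul_inv]
          exact avg_mul_right _ _
        rw [h4] at h3
        have h5 := avg_dth_le k 1 r S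
        have h6 := avg_dth_le k T' r S
        rw [hD] at h5
        rw [hZ] at h6
        have h7 : (z + y) * r * avg (fun C : Cl V k => dth k 1 r (cut S C)) ≤
            (z + y) * r * (avg x - c) := by
          refine mul_le_mul_of_nonneg_left h5 (by positivity)
        have h8 : avg (fun C : Cl V k => dth k T' r (cut S C)) / z ≤
            (th k (r + T') S - c) / z := div_le_div_of_nonneg_right h6 hz.le
        have h9 : avg (fun C => x C * (1 - x C)) =
          avg (fun C : Cl V k => th k r (cut S C) * (1 - th k r (cut S C))) := rfl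
        rw [h9]
        linarith
      have h3 : avg (fun C => x C * (1 - x C)) = avg x - avg (fun C => x C ^ 2) := by
        rw [← avg_sub]
        congr 1
        ext C
        ring
      have h4 : avg (fun C => (x C - c) ^ 2) = avg (fun C => x C ^ 2) - 2 * c * avg x + c ^ 2 := by
        have h5 : (fun C => (x C - c) ^ 2) = fun C => (x C ^ 2 - 2 * c * x C) + c ^ 2 := by
          ext C
          ring
        rw [h5, avg_add, avg_sub, avg_mul_left, avg_const]
      have h5 : 0 ≤ (avg x - c) ^ 2 := sq_nonneg _
      rw [hQ]
      nlinarith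

/-- The window inequality for an arbitrary state. -/
theorem pot [Nonempty V] {k : ℕ} (hk : 1 ≤ k) (T' : ℕ) {y z : ℝ} (hy : 0 ≤ y) (hz : 0 < z)
    (r : ℕ) (S : Finset (Asg V)) :
    th k (r + 1) S * (1 - th k (r + 1) S) ≤
      (z + y) * (r + 1) * (th k (r + 1) S - th k r S) + (th k (r + T') S - th k r S) / z
        + QQ k T' y (r + 1) S := by
  have h := pot_aux (k := k) T' hy hz (r + 1) S
  push_cast at h
  exact h

end KSat
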