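import Vale.Agent.KSat.L
import Vale.Agent.KSat.Pot

/-! # P170: the bound for `QQ` (piece QB) -/

namespace KSat

open Finset

variable {V : Type} [Fintype V] [DecidableEq V]

theorem qq_le [Nonempty V] {k : ℕ} (hk : 1 ≤ k) {T' : ℕ} (hT : 1 ≤ T') {y : ℝ} (hy : 0 < y)
    (L : ℕ) (S : Finset (Asg V)) :
    qq k T' y L S ≤ ((T' : ℝ) ^ (-(1 / (k : ℝ))) / y) ^ (k - 1) / y ^ 2 *
      avg (fun a : Lit V => NN k L T' S a ^ 2) := by
  classical
  set g : Lit V → ℝ := fun a => if y ≤ NN k L T' S a then 1 else 0 with hg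
  have h1 : qq k T' y L S = (avg g) ^ k := by
    have h2 : qq k T' y L S = avg (fun C : Cl V k => ∏ i, g (C i)) := by
      unfold qq
      congr 1
      ext C
      by_cases h : ∀ i, y ≤ NN k L T' S (C i)
      · rw [if_pos h]
        have : ∀ i, g (C i) = 1 := fun i => by simp only [hg, if_pos (h i)]
        simp [this]
      · rw [if_neg h]
        push Not at h
        obtain ⟨i, hi⟩ := h
        symm
        refine Finset.prod_eq_zero (Finset.mem_univ i) ?_
        simp only [hg]
        rw [if_neg (not_le.2 hi)]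
    rw [h2, avg_pi_prod (fun _ : Fin k => g)]
    simp
  have hg0 : ∀ a, 0 ≤ g a := fun a => by
    simp only [hg]
    split_ifs <;> norm_num
  have hp0 : 0 ≤ avg g := avg_nonneg hg0
  have h2 : avg g ≤ (T' : ℝ) ^ (-(1 / (k : ℝ))) / y := by
    rw [le_div_iff₀ hy]
    have h3 : avg (fun a => g a * y) ≤ avg (fun a : Lit V => NN k L T' S a) := by
      refine avg_mono fun a => ?_
      simp only [hg]
      split_ifs with h
      · linarith
      · have := NN_nonneg k L T' S a
        linarith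
    rw [avg_mul_right] at h3
    exact h3.trans (avg_NN_le hk hT S)
  have h3 : avg g ≤ avg (fun a : Lit V => NN k L T' S a ^ 2) / y ^ 2 := by
    rw [le_div_iff₀ (by positivity)]
    have h4 : avg (fun a => g a * y ^ 2) ≤ avg (fun a : Lit V => NN k L T' S a ^ 2) := by
      refine avg_mono fun a => ?_
      simp only [hg]
      split_ifs with h
      · rw [one_mul]
        exact pow_le_pow_left₀ hy.le h 2
      · have := sq_nonneg (NN k L T' S a)
        linarith
    rw [avg_mul_right] at h4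
    exact h4
  rw [h1]
  have h5 : avg g ^ k = avg g ^ (k - 1) * avg g := by
    rw [← pow_succ]
    congr 1
    omega
  rw [h5]
  have h6 : avg g ^ (k - 1) ≤ ((T' : ℝ) ^ (-(1 / (k : ℝ))) / y) ^ (k - 1) :=
    pow_le_pow_left₀ hp0 h2 _
  calc avg g ^ (k - 1) * avg g ≤ ((T' : ℝ) ^ (-(1 / (k : ℝ))) / y) ^ (k - 1) *
        (avg (fun a : Lit V => NN k L T' S a ^ 2) / y ^ 2) :=
        mul_le_mul h6 h3 hp0 (by positivity)
    _ = _ := by ring

theorem It_sum {α : Type} (k r : ℕ) (s : Finset α) (g : α → Finset (Asg V) → ℝ)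
    (S : Finset (Asg V)) [Nonempty V] :
    It k r (fun K => ∑ x ∈ s, g x K) S = ∑ x ∈ s, It k r (g x) S := by
  classical
  induction s using Finset.induction_on with
  | empty =>
    simp only [Finset.sum_empty]
    exact It_const k r 0 S
  | insert a s ha ih =>
    simp only [Finset.sum_insert ha]
    rw [It_add, ih]

theorem QQ_le_sum [Nonempty V] {k : ℕ} (hk : 1 ≤ k) {T' : ℕ} (hT : 1 ≤ T') {y : ℝ} (hy : 0 < y)
    (m : ℕ) (S : Finset (Asg V)) :
    QQ k T' y m S ≤ ((T' : ℝ) ^ (-(1 / (k : ℝ))) / y) ^ (k - 1) / y ^ 2 *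
      ∑ j ∈ range m, It k j (fun K => avg (fun a : Lit V => NN k (m - 1 - j) T' K a ^ 2)) S := by
  set κ : ℝ := ((T' : ℝ) ^ (-(1 / (k : ℝ))) / y) ^ (k - 1) / y ^ 2 with hκ
  induction m generalizing S with
  | zero =>
    show (0 : ℝ) ≤ _
    simp
  | succ m ih =>
    rw [Finset.sum_range_succ']
    have h1 : QQ k T' y (m + 1) S = qq k T' y m S + T k (QQ k T' y m) S := rfl
    rw [h1, mul_add, add_comm]
    refine add_le_add ?_ ?_
    · have h2 : T k (QQ k T' y m) S ≤ avg (fun C : Cl V k => κ *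
          ∑ j ∈ range m, It k j (fun K => avg (fun a : Lit V => NN k (m - 1 - j) T' K a ^ 2))
            (cut S C)) := avg_mono fun C => ih (cut S C)
      refine h2.trans (le_of_eq ?_)
      rw [avg_mul_left]
      congr 1
      have h3 : ∀ (f : ℕ → Cl V k → ℝ), avg (fun C : Cl V k => ∑ j ∈ range m, f j C) =
          ∑ j ∈ range m, avg (f j) := by
        intro f
        unfold avg
        rw [Finset.sum_comm, Finset.sum_div]
      rw [h3]
      refine Finset.sum_congr rfl fun j _ => ?_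
      rw [show m + 1 - 1 - (j + 1) = m - 1 - j by omega]
      rfl
    · have h2 := qq_le hk hT hy m S
      exact h2

theorem QQ_le_of [Nonempty V] {k : ℕ} (hk : 1 ≤ k) {T' : ℕ} (hT : 1 ≤ T') {y : ℝ} (hy : 0 < y)
    {m : ℕ} {B : ℝ}
    (hB : ∀ j L, j + L + 1 = m → ∀ a : Lit V,
      It k j (fun S => NN k L T' S a ^ 2) (univ : Finset (Asg V)) ≤ B) :
    QQ k T' y m (univ : Finset (Asg V)) ≤
      ((T' : ℝ) ^ (-(1 / (k : ℝ))) / y) ^ (k - 1) / y ^ 2 * (m * B) := by
  refine (QQ_le_sum hk hT hy m univ).trans ?_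
  refine mul_le_mul_of_nonneg_left ?_ (by positivity)
  have h1 : ∀ j ∈ range m,
      It k j (fun K => avg (fun a : Lit V => NN k (m - 1 - j) T' K a ^ 2))
        (univ : Finset (Asg V)) ≤ B := by
    intro j hj
    rw [Finset.mem_range] at hj
    rw [It_avg k j (fun (a : Lit V) K => NN k (m - 1 - j) T' K a ^ 2)]
    have h2 : avg (fun a : Lit V => It k j (fun K => NN k (m - 1 - j) T' K a ^ 2)
        (univ : Finset (Asg V))) ≤ avg (fun _ : Lit V => B) := by
      refine avg_mono fun a => hB j (m - 1 - j) (by omega) a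
    rw [avg_const] at h2
    exact h2
  refine (Finset.sum_le_sum h1).trans ?_
  rw [Finset.sum_const, Finset.card_range, nsmul_eq_mul]

end KSat
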