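import Vale.Agent.KSat.Basic

/-! # P170: superadditivity, block operators -/

namespace KSat

open Finset

variable {V V1 V2 : Type} [Fintype V] [DecidableEq V] [Fintype V1] [DecidableEq V1]
  [Fintype V2] [DecidableEq V2] {k : ℕ}

/-- a clause of the first block -/
def inlC (V2 : Type) {V1 : Type} {k : ℕ} (C : Cl V1 k) : Cl (V1 ⊕ V2) k :=
  fun i => (Sum.inl (C i).1, (C i).2)

/-- a clause of the second block -/
def inrC (V1 : Type) {V2 : Type} {k : ℕ} (C : Cl V2 k) : Cl (V1 ⊕ V2) k :=
  fun i => (Sum.inr (C i).1, (C i).2)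

/-- averaging over one random clause of a family -/
noncomputable def op {α : Type} [Fintype α] (e : α → Cl V k) :
    (Finset (Asg V) → ℝ) →ₗ[ℝ] (Finset (Asg V) → ℝ) where
  toFun g S := avg (fun x : α => g (cut S (e x)))
  map_add' g h := by
    funext S
    simp only [Pi.add_apply]
    unfold avg
    rw [Finset.sum_add_distrib, add_div]
  map_smul' c g := by
    funext S
    simp only [Pi.smul_apply, smul_eq_mul, RingHom.id_apply]
    unfold avg
    rw [← Finset.mul_sum, mul_div_assoc]

theorem op_apply {α : Type} [Fintype α] (e : α → Cl V k) (g : Finset (Asg V) → ℝ)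
    (S : Finset (Asg V)) : op e g S = avg (fun x : α => g (cut S (e x))) := rfl

end KSat
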