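import Vale.Agent.KSat.SAdef

/-! # P170: superadditivity, the operator inequality -/

namespace KSat

open Finset

section gen
variable {V : Type} [Fintype V] [DecidableEq V] {k : ℕ}

theorem cut_comm (S : Finset (Asg V)) (C D : Cl V k) : cut (cut S C) D = cut (cut S D) C := by
  unfold cut
  rw [Finset.filter_comm]

theorem op_commute {α β : Type} [Fintype α] [Fintype β] (e : α → Cl V k) (e' : β → Cl V k) :
    Commute (op e) (op e') := by
  refine LinearMap.ext fun g => ?_
  funext S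
  change op e (op e' g) S = op e' (op e g) S
  simp only [op_apply]
  rw [avg_comm]
  simp only [cut_comm]

theorem op_mono {α : Type} [Fintype α] (e : α → Cl V k) {g h : Finset (Asg V) → ℝ}
    (H : ∀ S, g S ≤ h S) (S : Finset (Asg V)) : op e g S ≤ op e h S :=
  avg_mono fun _ => H _

theorem T_eq_op (g : Finset (Asg V) → ℝ) : T k g = op (fun C : Cl V k => C) g := rfl

theorem It_eq_op_pow (r : ℕ) (g : Finset (Asg V) → ℝ) :
    It k r g = ((op (fun C : Cl V k => C)) ^ r) g := by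
  induction r with
  | zero => rfl
  | succ r ih =>
    rw [pow_succ', Module.End.mul_apply, ← ih]
    rfl

/-- fraction of killed literals in a family -/
noncomputable def kil {α : Type} [Fintype α] (e : α → Lit V) (S : Finset (Asg V)) : ℝ :=
  avg (fun a : α => unsat (cutL S (e a)))

theorem unsat_cut (S : Finset (Asg V)) (C : Cl V k) :
    unsat (cut S C) = ∏ i, unsat (cutL S (C i)) := by
  by_cases h : cut S C = ∅
  · have h' : ∀ i, cutL S (C i) = ∅ := by
      intro i
      rw [Finset.eq_empty_iff_forall_notMem] at h ⊢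
      intro s hs
      apply h s
      unfold cut
      unfold cutL at hs
      rw [Finset.mem_filter] at hs ⊢
      exact ⟨hs.1, i, hs.2⟩
    unfold unsat
    rw [if_pos h]
    symm
    apply Finset.prod_eq_one
    intro i _
    rw [if_pos (h' i)]
  · have h2 : ∃ i, cutL S (C i) ≠ ∅ := by
      obtain ⟨s, hs⟩ := Finset.nonempty_iff_ne_empty.mpr h
      unfold cut at hs
      rw [Finset.mem_filter] at hs
      obtain ⟨i, hi⟩ := hs.2
      refine ⟨i, ?_⟩
      apply Finset.nonempty_iff_ne_empty.mp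
      refine ⟨s, ?_⟩
      unfold cutL
      rw [Finset.mem_filter]
      exact ⟨hs.1, hi⟩
    obtain ⟨i, hi⟩ := h2
    unfold unsat
    rw [if_neg h]
    symm
    apply Finset.prod_eq_zero (Finset.mem_univ i)
    rw [if_neg hi]

theorem op_unsat {β : Type} [Fintype β] (l : β → Lit V) (S : Finset (Asg V)) :
    op (fun C : Fin k → β => (fun i => l (C i) : Cl V k)) unsat S = kil l S ^ k := by
  rw [op_apply]
  simp only [unsat_cut]
  rw [avg_pi_prod (fun (_ : Fin k) (b : β) => unsat (cutL S (l b)))]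
  simp [kil]

theorem kil_nonneg {α : Type} [Fintype α] (e : α → Lit V) (S : Finset (Asg V)) :
    0 ≤ kil e S := avg_nonneg fun _ => unsat_nonneg _

end gen

section blocks
variable {V1 V2 : Type} [Fintype V1] [DecidableEq V1] [Fintype V2] [DecidableEq V2] {k : ℕ}

theorem op_inl_unsat (S : Finset (Asg (V1 ⊕ V2))) :
    op (inlC V2 : Cl V1 k → Cl (V1 ⊕ V2) k) unsat S
      = kil (fun a : Lit V1 => ((Sum.inl a.1, a.2) : Lit (V1 ⊕ V2))) S ^ k :=
  op_unsat (fun a : Lit V1 => ((Sum.inl a.1, a.2) : Lit (V1 ⊕ V2))) S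

theorem op_inr_unsat (S : Finset (Asg (V1 ⊕ V2))) :
    op (inrC V1 : Cl V2 k → Cl (V1 ⊕ V2) k) unsat S
      = kil (fun a : Lit V2 => ((Sum.inr a.1, a.2) : Lit (V1 ⊕ V2))) S ^ k :=
  op_unsat (fun a : Lit V2 => ((Sum.inr a.1, a.2) : Lit (V1 ⊕ V2))) S

theorem kil_split [Nonempty V1] [Nonempty V2] (S : Finset (Asg (V1 ⊕ V2))) :
    kil (fun a : Lit (V1 ⊕ V2) => a) S
      = ((Fintype.card V1 : ℝ) / (Fintype.card V1 + Fintype.card V2 : ℝ))
          * kil (fun a : Lit V1 => ((Sum.inl a.1, a.2) : Lit (V1 ⊕ V2))) S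
        + ((Fintype.card V2 : ℝ) / (Fintype.card V1 + Fintype.card V2 : ℝ))
          * kil (fun a : Lit V2 => ((Sum.inr a.1, a.2) : Lit (V1 ⊕ V2))) S := by
  unfold kil avg
  have h1 : (0 : ℝ) < Fintype.card V1 := by exact_mod_cast Fintype.card_pos
  have h2 : (0 : ℝ) < Fintype.card V2 := by exact_mod_cast Fintype.card_pos
  rw [Fintype.sum_prod_type, Fintype.sum_prod_type, Fintype.sum_prod_type, Fintype.sum_sum_type]
  simp only [Fintype.card_prod, Fintype.card_sum, Fintype.card_bool]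
  push_cast
  field_simp

/-- the block operator -/
noncomputable def Tb (k : ℕ) (V1 V2 : Type) [Fintype V1] [DecidableEq V1] [Fintype V2]
    [DecidableEq V2] :
    (Finset (Asg (V1 ⊕ V2)) → ℝ) →ₗ[ℝ] (Finset (Asg (V1 ⊕ V2)) → ℝ) :=
  ((Fintype.card V1 : ℝ) / (Fintype.card V1 + Fintype.card V2 : ℝ))
      • op (inlC V2 : Cl V1 k → Cl (V1 ⊕ V2) k)
    + ((Fintype.card V2 : ℝ) / (Fintype.card V1 + Fintype.card V2 : ℝ))
      • op (inrC V1 : Cl V2 k → Cl (V1 ⊕ V2) k)

theorem Tb_mono {g h : Finset (Asg (V1 ⊕ V2)) → ℝ}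
    (H : ∀ S, g S ≤ h S) (S : Finset (Asg (V1 ⊕ V2))) : Tb k V1 V2 g S ≤ Tb k V1 V2 h S := by
  unfold Tb
  simp only [LinearMap.add_apply, LinearMap.smul_apply, Pi.add_apply, Pi.smul_apply, smul_eq_mul]
  have h1 := op_mono (inlC V2 : Cl V1 k → Cl (V1 ⊕ V2) k) H S
  have h2 := op_mono (inrC V1 : Cl V2 k → Cl (V1 ⊕ V2) k) H S
  have p1 : (0 : ℝ) ≤ (Fintype.card V1 : ℝ) / (Fintype.card V1 + Fintype.card V2 : ℝ) := by
    positivity
  have p2 : (0 : ℝ) ≤ (Fintype.card V2 : ℝ) / (Fintype.card V1 + Fintype.card V2 : ℝ) := by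
    positivity
  exact add_le_add (mul_le_mul_of_nonneg_left h1 p1) (mul_le_mul_of_nonneg_left h2 p2)

theorem Tb_commute : Commute (op (fun C : Cl (V1 ⊕ V2) k => C)) (Tb k V1 V2) := by
  unfold Tb
  exact ((op_commute _ _).smul_right _).add_right ((op_commute _ _).smul_right _)

/-- one random clause: the global operator kills less than the block operator -/
theorem T_unsat_le [Nonempty V1] [Nonempty V2] (S : Finset (Asg (V1 ⊕ V2))) :
    op (fun C : Cl (V1 ⊕ V2) k => C) unsat S ≤ Tb k V1 V2 unsat S := by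
  have h0 : op (fun C : Cl (V1 ⊕ V2) k => C) unsat S
      = kil (fun a : Lit (V1 ⊕ V2) => a) S ^ k :=
    op_unsat (fun a : Lit (V1 ⊕ V2) => a) S
  rw [h0, kil_split]
  unfold Tb
  simp only [LinearMap.add_apply, LinearMap.smul_apply, Pi.add_apply, Pi.smul_apply, smul_eq_mul]
  rw [op_inl_unsat, op_inr_unsat]
  have h1 : (0 : ℝ) < Fintype.card V1 := by exact_mod_cast Fintype.card_pos
  have h2 : (0 : ℝ) < Fintype.card V2 := by exact_mod_cast Fintype.card_pos
  have p1 : (0 : ℝ) ≤ (Fintype.card V1 : ℝ) / (Fintype.card V1 + Fintype.card V2 : ℝ) := by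
    positivity
  have p2 : (0 : ℝ) ≤ (Fintype.card V2 : ℝ) / (Fintype.card V1 + Fintype.card V2 : ℝ) := by
    positivity
  have p3 : (Fintype.card V1 : ℝ) / (Fintype.card V1 + Fintype.card V2 : ℝ)
      + (Fintype.card V2 : ℝ) / (Fintype.card V1 + Fintype.card V2 : ℝ) = 1 := by
    field_simp
  have := (convexOn_pow k).2
    (kil_nonneg (fun a : Lit V1 => ((Sum.inl a.1, a.2) : Lit (V1 ⊕ V2))) S)
    (kil_nonneg (fun a : Lit V2 => ((Sum.inr a.1, a.2) : Lit (V1 ⊕ V2))) S) p1 p2 p3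
  simpa only [smul_eq_mul] using this

theorem th_le_Tb_pow [Nonempty V1] [Nonempty V2] (m : ℕ)
    (S : Finset (Asg (V1 ⊕ V2))) : th k m S ≤ ((Tb k V1 V2) ^ m) unsat S := by
  unfold th
  rw [It_eq_op_pow]
  set G := op (fun C : Cl (V1 ⊕ V2) k => C) with hG
  induction m generalizing S with
  | zero => simp
  | succ m ih =>
    have hGm : ∀ (r : ℕ) {g h : Finset (Asg (V1 ⊕ V2)) → ℝ} (_ : ∀ S, g S ≤ h S) (S), 
        (G ^ r) g S ≤ (G ^ r) h S := by
      intro r
      induction r with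
      | zero => intro g h H S; simpa using H S
      | succ r ihr =>
        intro g h H S
        rw [pow_succ', Module.End.mul_apply, Module.End.mul_apply]
        exact op_mono _ (fun S => ihr H S) S
    calc (G ^ (m + 1)) unsat S = (G ^ m) (G unsat) S := by rw [pow_succ, Module.End.mul_apply]
      _ ≤ (G ^ m) (Tb k V1 V2 unsat) S := hGm m (fun S => T_unsat_le S) S
      _ = Tb k V1 V2 ((G ^ m) unsat) S := by
          have := (Tb_commute (V1 := V1) (V2 := V2) (k := k)).pow_left m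
          have h2 := congrArg (fun L => L unsat S) this.eq
          exact h2
      _ ≤ Tb k V1 V2 (((Tb k V1 V2) ^ m) unsat) S := Tb_mono (fun S => ih S) S
      _ = ((Tb k V1 V2) ^ (m + 1)) unsat S := by rw [pow_succ', Module.End.mul_apply]

theorem sa_op [Nonempty V1] [Nonempty V2] (m : ℕ) (S : Finset (Asg (V1 ⊕ V2))) :
    th k m S ≤ ∑ j ∈ range (m + 1), (m.choose j : ℝ)
      * ((Fintype.card V1 : ℝ) / (Fintype.card V1 + Fintype.card V2 : ℝ)) ^ j
      * ((Fintype.card V2 : ℝ) / (Fintype.card V1 + Fintype.card V2 : ℝ)) ^ (m - j)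
      * (((op (inlC V2 : Cl V1 k → Cl (V1 ⊕ V2) k)) ^ j)
          (((op (inrC V1 : Cl V2 k → Cl (V1 ⊕ V2) k)) ^ (m - j)) unsat)) S := by
  refine (th_le_Tb_pow m S).trans (le_of_eq ?_)
  unfold Tb
  rw [(((op_commute _ _).smul_right _).smul_left _).add_pow]
  rw [LinearMap.sum_apply, Finset.sum_apply]
  apply Finset.sum_congr rfl
  intro j _
  rw [smul_pow, smul_pow, ← nsmul_eq_mul', LinearMap.smul_apply]
  simp only [Module.End.mul_apply, LinearMap.smul_apply, map_smul, Pi.smul_apply, smul_eq_mul,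
    nsmul_eq_mul]
  ring

end blocks

end KSat
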