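import Vale.Agent.KSat.PModel
import Vale.Agent.KSat.Basic

/-! # P170: transfer from the model with repetitions to the model of the problem -/

namespace KSat

open Finset Filter Topology

variable {k n m : ℕ}

/-- clauses of the model with repetitions which have distinct variables -/
abbrev PR (k n : ℕ) : Type := {C : Cl (Fin n) k // Function.Injective fun i => (C i).1}

/-- satisfiability in the model with repetitions -/
def RSat {m : ℕ} (F : Fin m → Cl (Fin n) k) : Prop :=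
  ∃ σ : Fin n → Bool, ∀ j, ∃ i, σ (F j i).1 = (F j i).2

/-- an ordering of the literals of a proper clause -/
noncomputable def ordP (p : PClause k n) : Fin k ≃ {a // a ∈ p.1} :=
  (p.1.equivFinOfCardEq p.2.1).symm

/-- a proper clause with an ordering of its literals -/
noncomputable def hP (x : PClause k n × Equiv.Perm (Fin k)) : PR k n :=
  ⟨fun i => (ordP x.1 (x.2 i)).1, by
    intro i j hij
    have h1 := x.1.2.2 _ (ordP x.1 (x.2 i)).2 _ (ordP x.1 (x.2 j)).2 hij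
    exact x.2.injective ((ordP x.1).injective (Subtype.ext h1))⟩

theorem mem_hP (x : PClause k n × Equiv.Perm (Fin k)) (a : Fin n × Bool) :
    (∃ i, (hP x).1 i = a) ↔ a ∈ x.1.1 := by
  constructor
  · rintro ⟨i, rfl⟩
    exact (ordP x.1 (x.2 i)).2
  · intro ha
    refine ⟨x.2.symm ((ordP x.1).symm ⟨a, ha⟩), ?_⟩
    simp [hP]

theorem hP_bijective : Function.Bijective (hP (k := k) (n := n)) := by
  constructor
  · intro x y hxy
    have h1 : x.1 = y.1 := by
      apply Subtype.ext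
      ext a
      rw [← mem_hP x a, ← mem_hP y a, hxy]
    obtain ⟨p, π⟩ := x
    obtain ⟨p', π'⟩ := y
    simp only at h1
    subst h1
    have h2 : π = π' := by
      ext i
      have h3 := congrArg (fun C : PR k n => C.1 i) hxy
      have h4 : ordP p (π i) = ordP p (π' i) := Subtype.ext h3
      rw [(ordP p).injective h4]
    rw [h2]
  · intro C
    have hinj : Function.Injective C.1 := fun i j hij => C.2 (by simp only; rw [hij])
    classical
    set p : PClause k n := ⟨univ.image C.1, by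
      rw [card_image_of_injective _ hinj, card_univ, Fintype.card_fin], by
      intro a ha b hb hab
      obtain ⟨i, -, rfl⟩ := mem_image.1 ha
      obtain ⟨j, -, rfl⟩ := mem_image.1 hb
      rw [C.2 hab]⟩ with hp
    have hmem : ∀ i, C.1 i ∈ p.1 := fun i => mem_image_of_mem _ (mem_univ i)
    set f : Fin k → Fin k := fun i => (ordP p).symm ⟨C.1 i, hmem i⟩ with hf
    have hfi : Function.Injective f := by
      intro i j hij
      have := (ordP p).symm.injective hij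
      exact hinj (congrArg Subtype.val this)
    refine ⟨(p, Equiv.ofBijective f (Finite.injective_iff_bijective.1 hfi)), ?_⟩
    apply Subtype.ext
    funext i
    simp [hP, hf]

/-- proper ordered clauses = proper clauses times orderings -/
noncomputable def eP : PClause k n × Equiv.Perm (Fin k) ≃ PR k n :=
  Equiv.ofBijective hP hP_bijective

theorem sat_eP (x : PClause k n × Equiv.Perm (Fin k)) (σ : Fin n → Bool) :
    (∃ i, σ ((eP x).1 i).1 = ((eP x).1 i).2) ↔ ∃ a ∈ x.1.1, σ a.1 = a.2 := by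
  constructor
  · rintro ⟨i, hi⟩
    exact ⟨_, (mem_hP x _).1 ⟨i, rfl⟩, hi⟩
  · rintro ⟨a, ha, hσ⟩
    obtain ⟨i, rfl⟩ := (mem_hP x a).2 ha
    exact ⟨i, hσ⟩

/-- formulas: proper ordered formulas = proper formulas times orderings -/
noncomputable def eF (m : ℕ) :
    (Fin m → PClause k n) × (Fin m → Equiv.Perm (Fin k)) ≃ (Fin m → PR k n) :=
  (Equiv.arrowProdEquivProdArrow _ _ _).symm.trans (Equiv.piCongrRight fun _ => eP)

theorem sat_eF (x : (Fin m → PClause k n) × (Fin m → Equiv.Perm (Fin k))) :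
    RSat (fun j => (eF m x j).1) ↔ PSat x.1 := by
  unfold RSat PSat
  refine exists_congr fun σ => forall_congr' fun j => ?_
  exact sat_eP (x.1 j, x.2 j) σ

theorem card_event (P : Prop → Prop) :
    Nat.card {F : Fin m → PR k n // P (RSat (fun j => (F j).1))}
      = Nat.card {G : Fin m → PClause k n // P (PSat G)} * (k.factorial) ^ m := by
  have e1 : {F : Fin m → PR k n // P (RSat (fun j => (F j).1))} ≃
      {x : (Fin m → PClause k n) × (Fin m → Equiv.Perm (Fin k)) // P (PSat x.1)} :=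
    ((eF m).subtypeEquiv fun x => by rw [sat_eF]).symm
  have e2 : {x : (Fin m → PClause k n) × (Fin m → Equiv.Perm (Fin k)) // P (PSat x.1)} ≃
      {G : Fin m → PClause k n // P (PSat G)} × (Fin m → Equiv.Perm (Fin k)) :=
    { toFun := fun x => (⟨x.1.1, x.2⟩, x.1.2)
      invFun := fun y => ⟨(y.1.1, y.2), y.1.2⟩
      left_inv := fun x => rfl
      right_inv := fun y => rfl }
  rw [Nat.card_congr (e1.trans e2), Nat.card_prod]
  congr 1
  rw [Nat.card_eq_fintype_card, Fintype.card_fun, Fintype.card_perm, Fintype.card_fin,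
    Fintype.card_fin]

theorem card_PR : Nat.card (PR k n) = n.descFactorial k * 2 ^ k := by
  have e1 : PR k n ≃ (Fin k ↪ Fin n) × (Fin k → Bool) :=
    { toFun := fun C => (⟨fun i => (C.1 i).1, C.2⟩, fun i => (C.1 i).2)
      invFun := fun y => ⟨fun i => (y.1 i, y.2 i), y.1.injective⟩
      left_inv := fun C => rfl
      right_inv := fun y => rfl }
  rw [Nat.card_congr e1, Nat.card_prod, Nat.card_eq_fintype_card, Nat.card_eq_fintype_card,
    Fintype.card_embedding_eq]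
  simp

theorem card_le_event (P : Prop → Prop) :
    Nat.card {F : Fin m → PR k n // P (RSat (fun j => (F j).1))}
      ≤ Nat.card {F : Fin m → Cl (Fin n) k // P (RSat F)} := by
  refine Nat.card_le_card_of_injective
    (fun F => (⟨fun j => (F.1 j).1, F.2⟩ : {F : Fin m → Cl (Fin n) k // P (RSat F)})) ?_
  intro F G h
  apply Subtype.ext
  funext j
  apply Subtype.ext
  exact congrFun (congrArg Subtype.val h) j

theorem proper_ratio (hn : 1 ≤ n) :
    (1 - (k : ℝ) ^ 2 / n) * (2 * (n : ℝ)) ^ k ≤ (n.descFactorial k * 2 ^ k : ℕ) := by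
  have hn0 : (0 : ℝ) < n := by exact_mod_cast hn
  rcases Nat.lt_or_ge n k with h | h
  · have h1 : (1 : ℝ) - (k : ℝ) ^ 2 / n ≤ 0 := by
      have h2 : (n : ℝ) ≤ k := by exact_mod_cast h.le
      have h3 : (1 : ℝ) ≤ k := by
        have : 1 ≤ k := by omega
        exact_mod_cast this
      rw [sub_nonpos, one_le_div hn0]
      nlinarith
    have h2 : (0 : ℝ) ≤ (n.descFactorial k * 2 ^ k : ℕ) := by positivity
    exact (mul_nonpos_of_nonpos_of_nonneg h1 (by positivity)).trans h2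
  · have h1 : (n - k) ^ k ≤ n.descFactorial k :=
      (Nat.pow_le_pow_left (by omega) k).trans (Nat.pow_sub_le_descFactorial n k)
    have h2 : ((n : ℝ) - k) ^ k ≤ n.descFactorial k := by
      rw [← Nat.cast_sub h]; exact_mod_cast h1
    have h3 : 1 - (k : ℝ) ^ 2 / n ≤ (1 - (k : ℝ) / n) ^ k := by
      have h4 : (-2 : ℝ) ≤ -((k : ℝ) / n) := by
        have : (k : ℝ) / n ≤ 1 := by
          rw [div_le_one hn0]; exact_mod_cast h
        linarith
      have h5 := one_add_mul_le_pow h4 k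
      calc 1 - (k : ℝ) ^ 2 / n = 1 + (k : ℝ) * -((k : ℝ) / n) := by ring
        _ ≤ (1 + -((k : ℝ) / n)) ^ k := h5
        _ = _ := by ring_nf
    push_cast
    calc (1 - (k : ℝ) ^ 2 / n) * (2 * (n : ℝ)) ^ k
        ≤ (1 - (k : ℝ) / n) ^ k * (2 * (n : ℝ)) ^ k := by gcongr
      _ = ((n : ℝ) - k) ^ k * 2 ^ k := by
          rw [← mul_pow, ← mul_pow]; congr 1; field_simp
      _ ≤ n.descFactorial k * 2 ^ k := by gcongr

/-- `u` is the fraction of unsatisfiable formulas. -/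
theorem u_eq_RSat : u k n m = (Nat.card {F : Fin m → Cl (Fin n) k // ¬ RSat F} : ℝ)
      / Nat.card (Fin m → Cl (Fin n) k) := by
  classical
  unfold u th
  rw [It_eq_avg]
  unfold avg
  rw [Nat.card_eq_fintype_card, Nat.card_eq_fintype_card]
  congr 1
  have h1 : ∀ F : Fin m → Cl (Fin n) k, unsat (cutF (univ : Finset (Asg (Fin n))) F)
      = if ¬ RSat F then (1 : ℝ) else 0 := by
    intro F
    unfold unsat
    have : (cutF (univ : Finset (Asg (Fin n))) F = ∅) ↔ ¬ RSat F := by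
      unfold cutF RSat
      rw [Finset.filter_eq_empty_iff]
      simp
    simp only [this]
  simp only [h1]
  rw [Finset.sum_boole, Fintype.card_subtype]

theorem card_event_le (hn : 1 ≤ n) (hk2 : (k : ℝ) ^ 2 ≤ n) (P : Prop → Prop) :
    (1 - (k : ℝ) ^ 2 / n) ^ m * ((Nat.card {G : Fin m → PClause k n // P (PSat G)} : ℝ)
        / Nat.card (Fin m → PClause k n))
      ≤ (Nat.card {F : Fin m → Cl (Fin n) k // P (RSat F)} : ℝ)
        / Nat.card (Fin m → Cl (Fin n) k) := by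
  have hn0 : (0 : ℝ) < n := by exact_mod_cast hn
  have hr0 : 0 ≤ 1 - (k : ℝ) ^ 2 / n := by
    rw [sub_nonneg, div_le_one hn0]; exact hk2
  have h1 := card_event (m := m) (k := k) (n := n) P
  have h2 := card_event (m := m) (k := k) (n := n) (fun _ => True)
  have h3 : Nat.card {F : Fin m → PR k n // True} = (n.descFactorial k * 2 ^ k) ^ m := by
    rw [Nat.card_congr (Equiv.subtypeUnivEquiv fun _ => trivial), Nat.card_fun, card_PR]
    simp
  have h4 : Nat.card {G : Fin m → PClause k n // True} = Nat.card (Fin m → PClause k n) :=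
    Nat.card_congr (Equiv.subtypeUnivEquiv fun _ => trivial)
  rw [h3, h4] at h2
  have h5 := card_le_event (m := m) (k := k) (n := n) P
  have hall : (Nat.card (Fin m → Cl (Fin n) k) : ℝ) = ((2 * (n : ℝ)) ^ k) ^ m := by
    rw [Nat.card_eq_fintype_card]
    simp only [Fintype.card_fun, Fintype.card_prod, Fintype.card_fin, Fintype.card_bool]
    push_cast
    rw [mul_comm (n : ℝ) 2]
  have hpr := proper_ratio (k := k) hn
  have hfk : (0 : ℝ) < ((k.factorial : ℕ) : ℝ) ^ m := by positivity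
  set A : ℝ := (Nat.card {G : Fin m → PClause k n // P (PSat G)} : ℝ) with hA
  set B : ℝ := (Nat.card (Fin m → PClause k n) : ℝ) with hB
  set R : ℝ := (Nat.card {F : Fin m → Cl (Fin n) k // P (RSat F)} : ℝ) with hR
  have h6 : A * (k.factorial : ℝ) ^ m ≤ R := by
    rw [h1] at h5
    have h55 : ((Nat.card {G : Fin m → PClause k n // P (PSat G)} * k.factorial ^ m : ℕ) : ℝ)
        ≤ ((Nat.card {F : Fin m → Cl (Fin n) k // P (RSat F)} : ℕ) : ℝ) := Nat.cast_le.2 h5
    rw [Nat.cast_mul, Nat.cast_pow] at h55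
    rw [hA, hR]
    exact h55
  have h7 : ((n.descFactorial k * 2 ^ k : ℕ) : ℝ) ^ m = B * (k.factorial : ℝ) ^ m := by
    rw [hB, ← Nat.cast_pow, h2, Nat.cast_mul, Nat.cast_pow]
  have hA0 : 0 ≤ A := by positivity
  have hR0 : 0 ≤ R := by positivity
  rcases (show 0 ≤ B by positivity).eq_or_lt with hB0 | hB0
  · rw [← hB0]; simp; positivity
  rw [hall]
  have h8 : ((1 - (k : ℝ) ^ 2 / n) * (2 * (n : ℝ)) ^ k) ^ m ≤ B * (k.factorial : ℝ) ^ m := by
    rw [← h7]
    exact pow_le_pow_left₀ (by positivity) hpr m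
  rw [mul_pow] at h8
  rw [mul_div_assoc', div_le_div_iff₀ hB0 (by positivity)]
  calc (1 - (k : ℝ) ^ 2 / n) ^ m * A * ((2 * (n : ℝ)) ^ k) ^ m
      = A * ((1 - (k : ℝ) ^ 2 / n) ^ m * ((2 * (n : ℝ)) ^ k) ^ m) := by ring
    _ ≤ A * (B * (k.factorial : ℝ) ^ m) := by gcongr
    _ = (A * (k.factorial : ℝ) ^ m) * B := by ring
    _ ≤ R * B := by gcongr

theorem isEmpty_cl_false (hn : 1 ≤ n) : 0 < Nat.card (Fin m → Cl (Fin n) k) := by
  have hne : Nonempty (Fin n) := ⟨⟨0, hn⟩⟩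
  exact Nat.card_pos

theorem pclause_nonempty (h : k ≤ n) : Nonempty (PClause k n) := by
  classical
  refine ⟨⟨(univ : Finset (Fin k)).image fun i => (Fin.castLE h i, true), ?_, ?_⟩⟩
  · rw [card_image_of_injective, card_univ, Fintype.card_fin]
    intro i j hij
    simpa using hij
  · intro a ha b hb hab
    obtain ⟨i, -, rfl⟩ := mem_image.1 ha
    obtain ⟨j, -, rfl⟩ := mem_image.1 hb
    simp only at hab
    rw [hab]

theorem PP_nonneg : 0 ≤ PP k n m := by unfold PP; positivity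

theorem PP_not (h : k ≤ n) : 1 - PP k n m =
    (Nat.card {F : Fin m → PClause k n // ¬ PSat F} : ℝ) / Nat.card (Fin m → PClause k n) := by
  have hne : Nonempty (PClause k n) := pclause_nonempty h
  have h1 : (0 : ℝ) < (Nat.card (Fin m → PClause k n) : ℝ) := by
    exact_mod_cast Nat.card_pos
  unfold PP
  rw [eq_div_iff h1.ne', sub_mul, one_mul, div_mul_cancel₀ _ h1.ne', sub_eq_iff_eq_add]
  classical
  have e : (Fin m → PClause k n) ≃ {F : Fin m → PClause k n // PSat F} ⊕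
      {F : Fin m → PClause k n // ¬ PSat F} := (Equiv.sumCompl _).symm
  rw [Nat.card_congr e, Nat.card_sum, Nat.cast_add, add_comm]

theorem u_not (hn : 1 ≤ n) : 1 - u k n m =
    (Nat.card {F : Fin m → Cl (Fin n) k // RSat F} : ℝ) / Nat.card (Fin m → Cl (Fin n) k) := by
  have h1 : (0 : ℝ) < (Nat.card (Fin m → Cl (Fin n) k) : ℝ) := by
    exact_mod_cast isEmpty_cl_false hn
  rw [u_eq_RSat, eq_div_iff h1.ne', sub_mul, one_mul, div_mul_cancel₀ _ h1.ne', sub_eq_iff_eq_add]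
  classical
  have e : (Fin m → Cl (Fin n) k) ≃ {F : Fin m → Cl (Fin n) k // RSat F} ⊕
      {F : Fin m → Cl (Fin n) k // ¬ RSat F} := (Equiv.sumCompl _).symm
  rw [Nat.card_congr e, Nat.card_sum, Nat.cast_add]

theorem PP_le_one (h : k ≤ n) : PP k n m ≤ 1 := by
  have h1 : 0 ≤ 1 - PP k n m := by rw [PP_not h]; positivity
  linarith

theorem one_sub_pow_ge {c : ℝ} (hc : 0 ≤ c) (hn : 1 ≤ n) (hk2 : 2 * (k : ℝ) ^ 2 ≤ n) :
    Real.exp (-(2 * (k : ℝ) ^ 2 * c)) ≤ (1 - (k : ℝ) ^ 2 / n) ^ ⌊c * (n : ℝ)⌋₊ := by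
  have hn0 : (0 : ℝ) < n := by exact_mod_cast hn
  set x : ℝ := (k : ℝ) ^ 2 / n with hx
  have hx0 : 0 ≤ x := by positivity
  have hx1 : x ≤ 1 / 2 := by
    rw [hx, div_le_iff₀ hn0]; linarith
  have h1 : Real.exp (-(2 * x)) ≤ 1 - x := by
    have h2 : Real.exp (-(2 * x)) = (Real.exp (2 * x))⁻¹ := Real.exp_neg _
    have h3 : 1 + 2 * x ≤ Real.exp (2 * x) := by
      have := Real.add_one_le_exp (2 * x); linarith
    rw [h2]
    calc (Real.exp (2 * x))⁻¹ ≤ (1 + 2 * x)⁻¹ := inv_anti₀ (by positivity) h3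
      _ ≤ 1 - x := by
          rw [inv_le_iff_one_le_mul₀ (by positivity)]
          nlinarith
  calc Real.exp (-(2 * (k : ℝ) ^ 2 * c)) ≤ Real.exp (-(2 * x) * ⌊c * (n : ℝ)⌋₊) := by
        apply Real.exp_le_exp.2
        have h4 : (⌊c * (n : ℝ)⌋₊ : ℝ) ≤ c * n := Nat.floor_le (by positivity)
        have h5 : x * n = (k : ℝ) ^ 2 := by rw [hx]; field_simp
        have h6 : 2 * x * (⌊c * (n : ℝ)⌋₊ : ℝ) ≤ 2 * x * (c * n) := by gcongr
        have h7 : 2 * x * (c * n) = 2 * (k : ℝ) ^ 2 * c := by rw [← h5]; ring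
        linarith
    _ = Real.exp (-(2 * x)) ^ ⌊c * (n : ℝ)⌋₊ := by
        rw [← Real.exp_nat_mul]; ring_nf
    _ ≤ (1 - x) ^ ⌊c * (n : ℝ)⌋₊ := pow_le_pow_left₀ (Real.exp_pos _).le h1 _

/-- comparison, satisfiable side -/
theorem PP_le {c : ℝ} (hc : 0 ≤ c) (hn : 1 ≤ n) (hk2 : 2 * (k : ℝ) ^ 2 ≤ n) :
    PP k n ⌊c * (n : ℝ)⌋₊ ≤ Real.exp (2 * (k : ℝ) ^ 2 * c) * (1 - u k n ⌊c * (n : ℝ)⌋₊) := by
  have h1 := one_sub_pow_ge (k := k) hc hn hk2
  have h2 := card_event_le (m := ⌊c * (n : ℝ)⌋₊) (k := k) hn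
    (by have : (0 : ℝ) ≤ (k : ℝ) ^ 2 := by positivity
        linarith) (fun p => p)
  rw [← u_not hn] at h2
  have h3 : Real.exp (-(2 * (k : ℝ) ^ 2 * c)) * PP k n ⌊c * (n : ℝ)⌋₊
      ≤ 1 - u k n ⌊c * (n : ℝ)⌋₊ := by
    refine le_trans ?_ h2
    exact mul_le_mul_of_nonneg_right h1 PP_nonneg
  calc PP k n ⌊c * (n : ℝ)⌋₊ = Real.exp (2 * (k : ℝ) ^ 2 * c) *
        (Real.exp (-(2 * (k : ℝ) ^ 2 * c)) * PP k n ⌊c * (n : ℝ)⌋₊) := by
        rw [← mul_assoc, ← Real.exp_add]; simp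
    _ ≤ _ := by gcongr

/-- comparison, unsatisfiable side -/
theorem one_sub_PP_le {c : ℝ} (hc : 0 ≤ c) (hn : 1 ≤ n) (hkn : k ≤ n)
    (hk2 : 2 * (k : ℝ) ^ 2 ≤ n) :
    1 - PP k n ⌊c * (n : ℝ)⌋₊ ≤ Real.exp (2 * (k : ℝ) ^ 2 * c) * u k n ⌊c * (n : ℝ)⌋₊ := by
  have h1 := one_sub_pow_ge (k := k) hc hn hk2
  have h2 := card_event_le (m := ⌊c * (n : ℝ)⌋₊) (k := k) hn
    (by have : (0 : ℝ) ≤ (k : ℝ) ^ 2 := by positivity
        linarith) (fun p => ¬ p)
  rw [← u_eq_RSat, ← PP_not hkn] at h2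
  have h3 : Real.exp (-(2 * (k : ℝ) ^ 2 * c)) * (1 - PP k n ⌊c * (n : ℝ)⌋₊)
      ≤ u k n ⌊c * (n : ℝ)⌋₊ := by
    refine le_trans ?_ h2
    exact mul_le_mul_of_nonneg_right h1 (by linarith [PP_le_one (m := ⌊c * (n : ℝ)⌋₊) hkn])
  calc 1 - PP k n ⌊c * (n : ℝ)⌋₊ = Real.exp (2 * (k : ℝ) ^ 2 * c) *
        (Real.exp (-(2 * (k : ℝ) ^ 2 * c)) * (1 - PP k n ⌊c * (n : ℝ)⌋₊)) := by
        rw [← mul_assoc, ← Real.exp_add]; simp
    _ ≤ _ := by gcongr

/-- [TR3] the transfer. -/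
theorem transfer {k : ℕ} (hk : 3 ≤ k)
    (H : ∃ α : ℝ, 0 < α ∧
      (∀ c : ℝ, 0 ≤ c → c < α → Tendsto (fun n : ℕ => u k n ⌊c * n⌋₊) atTop (𝓝 0)) ∧
      (∀ c : ℝ, α < c → Tendsto (fun n : ℕ => u k n ⌊c * n⌋₊) atTop (𝓝 1))) :
    ∃ α : ℝ, 0 < α ∧
      (∀ c : ℝ, 0 ≤ c → c < α → Tendsto (fun n : ℕ => PP k n ⌊c * n⌋₊) atTop (𝓝 1)) ∧
      (∀ c : ℝ, α < c → Tendsto (fun n : ℕ => PP k n ⌊c * n⌋₊) atTop (𝓝 0)) := by
  obtain ⟨α, hα, h0, h1⟩ := H
  have hlarge : ∀ᶠ n : ℕ in atTop, 1 ≤ n ∧ k ≤ n ∧ 2 * (k : ℝ) ^ 2 ≤ n := by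
    filter_upwards [eventually_ge_atTop (2 * k ^ 2), eventually_ge_atTop k,
      eventually_ge_atTop 1] with n ha hb hc
    refine ⟨hc, hb, ?_⟩
    exact_mod_cast ha
  refine ⟨α, hα, fun c hc0 hcα => ?_, fun c hcα => ?_⟩
  · have h2 : Tendsto (fun n : ℕ => Real.exp (2 * (k : ℝ) ^ 2 * c) * u k n ⌊c * n⌋₊) atTop
        (𝓝 0) := by
      have := (h0 c hc0 hcα).const_mul (Real.exp (2 * (k : ℝ) ^ 2 * c))
      rwa [mul_zero] at this
    have h3 : Tendsto (fun n : ℕ => 1 - PP k n ⌊c * n⌋₊) atTop (𝓝 0) := by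
      refine tendsto_of_tendsto_of_tendsto_of_le_of_le' tendsto_const_nhds h2 ?_ ?_
      · filter_upwards [hlarge] with n hn
        have := PP_le_one (m := ⌊c * (n : ℝ)⌋₊) hn.2.1
        linarith
      · filter_upwards [hlarge] with n hn
        exact one_sub_PP_le hc0 hn.1 hn.2.1 hn.2.2
    have h4 := h3.const_sub 1
    simpa using h4
  · have hc0 : 0 ≤ c := by linarith
    have h2 : Tendsto (fun n : ℕ => Real.exp (2 * (k : ℝ) ^ 2 * c) * (1 - u k n ⌊c * n⌋₊)) atTop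
        (𝓝 0) := by
      have := ((h1 c hcα).const_sub 1).const_mul (Real.exp (2 * (k : ℝ) ^ 2 * c))
      rwa [sub_self, mul_zero] at this
    refine tendsto_of_tendsto_of_tendsto_of_le_of_le' tendsto_const_nhds h2 ?_ ?_
    · filter_upwards [hlarge] with n hn
      exact PP_nonneg
    · filter_upwards [hlarge] with n hn
      exact PP_le hc0 hn.1 hn.2.2

end KSat
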