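import Vale.Agent.KSat.WinB
import Vale.Agent.KSat.LB

/-! # P170: the polynomial window (piece WIN) -/

namespace KSat

/-- The window theorem (polynomial width). -/
theorem window {k : ℕ} (hk : 3 ≤ k) (A δ : ℝ) (hA : 0 < A) (hd : 0 < δ) :
    ∃ ε : ℝ, 0 < ε ∧ ε < 1 / 2 ∧ ∃ n0 : ℕ, ∀ n : ℕ, n0 ≤ n →
      ∀ m : ℕ, (m : ℝ) ≤ A * n → u k n m ≤ 1 - δ → u k n (m - ⌈(n : ℝ) ^ (1 - ε)⌉₊) ≤ δ :=
  window_of hk A δ hA hd (NN_sq_bd hk hA)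

end KSat
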