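import Vale.Agent.KSat.QBw

/-! # P170: the polynomial window (piece WIN) -/

namespace KSat

open Finset Filter Topology

theorem W1' {k : ℕ} (hk : 1 ≤ k) {n : ℕ} (hn : 1 ≤ n) {T' : ℕ} (hT : 1 ≤ T') {y z : ℝ}
    (hy : 0 < y) (hz : 0 < z) {m : ℕ} {B : ℝ}
    (hB : ∀ j L, j + L = m → ∀ a : Lit (Fin n),
      It k j (fun S => NN k L T' S a ^ 2) (univ : Finset (Asg (Fin n))) ≤ B) :
    u k n (m + 1) * (1 - u k n (m + 1)) ≤
      (z + y) * (m + 1) * (u k n (m + 1) - u k n m) + (u k n (m + T') - u k n m) / z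
      + ((T' : ℝ) ^ (-(1 / (k : ℝ))) / y) ^ (k - 1) / y ^ 2 * ((m + 1 : ℕ) * B) := by
  haveI : Nonempty (Fin n) := ⟨⟨0, hn⟩⟩
  have h1 := pot (k := k) hk T' hy.le hz m (univ : Finset (Asg (Fin n)))
  have h2 := QQ_le_of (V := Fin n) hk hT hy (m := m + 1) (B := B)
    (fun j L h a => hB j L (by omega) a)
  have h3 : u k n (m + 1) * (1 - u k n (m + 1)) ≤
      (z + y) * (m + 1) * (u k n (m + 1) - u k n m) + (u k n (m + T') - u k n m) / z
        + QQ k T' y (m + 1) (univ : Finset (Asg (Fin n))) := h1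
  linarith

/-- telescoping bound -/
theorem tele_le {f : ℕ → ℝ} (hf : Monotone f) (h0 : ∀ i, 0 ≤ f i) (h1 : ∀ i, f i ≤ 1)
    (m0 w T' : ℕ) : ∑ r ∈ range w, (f (m0 + r + T') - f (m0 + r)) ≤ T' := by
  have h2 : ∀ r, f (m0 + r + T') - f (m0 + r) =
      ∑ s ∈ range T', (f (m0 + r + (s + 1)) - f (m0 + r + s)) := by
    intro r
    rw [Finset.sum_range_sub (fun s => f (m0 + r + s)) T']
    simp
  simp_rw [h2]
  rw [Finset.sum_comm]
  have h3 : ∀ s ∈ range T', ∑ r ∈ range w, (f (m0 + r + (s + 1)) - f (m0 + r + s)) ≤ 1 := by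
    intro s _
    have h4 : ∑ r ∈ range w, (f (m0 + r + (s + 1)) - f (m0 + r + s)) =
        f (m0 + w + s) - f (m0 + s) := by
      have h5 := Finset.sum_range_sub (fun r => f (m0 + r + s)) w
      simp only [Nat.add_zero] at h5
      rw [← h5]
      refine Finset.sum_congr rfl fun r _ => ?_
      congr 2
      ring
    rw [h4]
    have := h0 (m0 + s)
    have := h1 (m0 + w + s)
    linarith
  calc ∑ s ∈ range T', ∑ r ∈ range w, (f (m0 + r + (s + 1)) - f (m0 + r + s)) ≤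
        ∑ _s ∈ range T', (1 : ℝ) := Finset.sum_le_sum h3
    _ = T' := by simp

/-- averaging of the window inequality -/
theorem avg_window {f : ℕ → ℝ} (hf : Monotone f) (h0 : ∀ i, 0 ≤ f i) (h1 : ∀ i, f i ≤ 1)
    {m w T' : ℕ} (hw : w ≤ m) {c z Q δ : ℝ} (hc : 0 ≤ c) (hz : 0 < z) (hδ : 0 < δ)
    (hlo : δ ≤ f (m - w)) (hhi : f m ≤ 1 - δ)
    (H : ∀ r, r < m → f (r + 1) * (1 - f (r + 1)) ≤
      c * (r + 1) * (f (r + 1) - f r) + (f (r + T') - f r) / z + Q) :
    w * (δ ^ 2 - Q) ≤ c * m + T' / z := by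
  set m0 := m - w with hm0
  have hm : m = m0 + w := by omega
  have h2 : ∀ r ∈ range w, δ ^ 2 - Q ≤ c * m * (f (m0 + (r + 1)) - f (m0 + r)) +
      (f (m0 + r + T') - f (m0 + r)) / z := by
    intro r hr
    rw [Finset.mem_range] at hr
    have h3 := H (m0 + r) (by omega)
    have h4 : δ ≤ f (m0 + r + 1) := hlo.trans (hf (by omega))
    have h5 : f (m0 + r + 1) ≤ 1 - δ := (hf (by omega : m0 + r + 1 ≤ m)).trans hhi
    have h6 : δ ^ 2 ≤ f (m0 + r + 1) * (1 - f (m0 + r + 1)) := by nlinarith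
    have h7 : 0 ≤ f (m0 + r + 1) - f (m0 + r) := sub_nonneg.2 (hf (by omega))
    have h8 : ((m0 + r : ℕ) : ℝ) + 1 ≤ m := by
      have : m0 + r + 1 ≤ m := by omega
      exact_mod_cast this
    have h9 : c * (((m0 + r : ℕ) : ℝ) + 1) * (f (m0 + r + 1) - f (m0 + r)) ≤
        c * m * (f (m0 + r + 1) - f (m0 + r)) :=
      mul_le_mul_of_nonneg_right (mul_le_mul_of_nonneg_left h8 hc) h7
    have h10 : m0 + (r + 1) = m0 + r + 1 := by ring
    rw [h10]
    linarith
  have h3 := Finset.sum_le_sum h2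
  rw [Finset.sum_const, Finset.card_range, nsmul_eq_mul, Finset.sum_add_distrib,
    ← Finset.mul_sum, ← Finset.sum_div] at h3
  have h4 : ∑ r ∈ range w, (f (m0 + (r + 1)) - f (m0 + r)) = f (m0 + w) - f m0 := by
    have h5 := Finset.sum_range_sub (fun r => f (m0 + r)) w
    simpa using h5
  rw [h4] at h3
  have h5 := tele_le hf h0 h1 m0 w T'
  have h6 : (∑ r ∈ range w, (f (m0 + r + T') - f (m0 + r))) / z ≤ T' / z :=
    div_le_div_of_nonneg_right h5 hz.le
  have h7 : c * m * (f (m0 + w) - f m0) ≤ c * m := by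
    have h8 : f (m0 + w) - f m0 ≤ 1 := by
      have := h0 m0
      have := h1 (m0 + w)
      linarith
    have h9 : 0 ≤ c * m := by positivity
    nlinarith
  linarith

end KSat
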