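import Vale.Agent.KSat.WinA

/-! # P170: the polynomial window (piece WIN), choice of the exponents -/

namespace KSat

open Finset Filter Topology

/-- the numerical estimates -/
theorem win_num {k : ℕ} (hk : 3 ≤ k) {A C : ℝ} (hA : 0 < A) (hC : 0 < C) {e : ℝ}
    (he : e = 1 / (8 * k * (k + 1))) {x Tr : ℝ} (hx : 1 ≤ x) (hT1 : x ^ (1 - 4 * e) ≤ Tr)
    {M : ℝ} (hM0 : 0 ≤ M) (hM : M ≤ A * x) :
    (Tr ^ (-(1 / (k : ℝ))) / x ^ (-(2 * e))) ^ (k - 1) / (x ^ (-(2 * e))) ^ 2 *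
      (M * (C * (Tr ^ (-(2 / (k : ℝ))) + 1 / x))) ≤ 2 * A * C * x ^ (-(1 / (2 * (k : ℝ)))) := by
  have hx0 : 0 < x := by linarith
  have hk3 : (3 : ℝ) ≤ k := by exact_mod_cast hk
  have hk0 : (0 : ℝ) < k := by linarith
  have he0 : 0 < e := by
    rw [he]
    positivity
  have he1 : 8 * k * (k + 1) * e = 1 := by
    rw [he]
    field_simp
  have he2 : e ≤ 1 / 96 := by
    rw [he]
    rw [div_le_div_iff₀ (by positivity) (by norm_num)]
    nlinarith
  have hX : 0 < x ^ (1 - 4 * e) := Real.rpow_pos_of_pos hx0 _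
  have hTr : 0 < Tr := lt_of_lt_of_le hX hT1
  have h1 : Tr ^ (-(1 / (k : ℝ))) ≤ x ^ (-((1 - 4 * e) / k)) := by
    have h := Real.rpow_le_rpow_of_nonpos hX hT1 (z := -(1 / (k : ℝ)))
      (by have : 0 < 1 / (k : ℝ) := by positivity
          linarith)
    refine h.trans (le_of_eq ?_)
    rw [← Real.rpow_mul hx0.le]
    congr 1
    field_simp
  have h2 : Tr ^ (-(2 / (k : ℝ))) ≤ x ^ (-((1 - 4 * e) * 2 / k)) := by
    have h := Real.rpow_le_rpow_of_nonpos hX hT1 (z := -(2 / (k : ℝ)))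
      (by have : 0 < 2 / (k : ℝ) := by positivity
          linarith)
    refine h.trans (le_of_eq ?_)
    rw [← Real.rpow_mul hx0.le]
    congr 1
    field_simp
  have h3 : 1 / x ≤ x ^ (-((1 - 4 * e) * 2 / k)) := by
    have h4 : 1 / x = x ^ (-1 : ℝ) := by
      rw [Real.rpow_neg_one]
      simp
    rw [h4]
    refine Real.rpow_le_rpow_of_exponent_le hx ?_
    rw [neg_le_neg_iff, div_le_one hk0]
    nlinarith
  have h4 : C * (Tr ^ (-(2 / (k : ℝ))) + 1 / x) ≤ 2 * C * x ^ (-((1 - 4 * e) * 2 / k)) := by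
    nlinarith
  have hy : 0 < x ^ (-(2 * e)) := Real.rpow_pos_of_pos hx0 _
  have hcast : ((k - 1 : ℕ) : ℝ) = (k : ℝ) - 1 := by
    rw [Nat.cast_sub (by omega)]
    simp
  have h5 : (Tr ^ (-(1 / (k : ℝ))) / x ^ (-(2 * e))) ^ (k - 1) ≤
      x ^ ((-((1 - 4 * e) / k) + 2 * e) * ((k : ℝ) - 1)) := by
    have h6 : Tr ^ (-(1 / (k : ℝ))) / x ^ (-(2 * e)) ≤ x ^ (-((1 - 4 * e) / k) + 2 * e) := by
      rw [div_le_iff₀ hy, ← Real.rpow_add hx0]
      refine h1.trans (le_of_eq ?_)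
      congr 1
      ring
    have h7 : 0 ≤ Tr ^ (-(1 / (k : ℝ))) / x ^ (-(2 * e)) := by positivity
    refine (pow_le_pow_left₀ h7 h6 (k - 1)).trans (le_of_eq ?_)
    rw [← Real.rpow_natCast, ← Real.rpow_mul hx0.le, hcast]
  have h6 : (x ^ (-(2 * e))) ^ 2 = x ^ (-(4 * e)) := by
    rw [← Real.rpow_natCast, ← Real.rpow_mul hx0.le]
    congr 1
    push_cast
    ring
  have h7 : (Tr ^ (-(1 / (k : ℝ))) / x ^ (-(2 * e))) ^ (k - 1) / (x ^ (-(2 * e))) ^ 2 ≤
      x ^ ((-((1 - 4 * e) / k) + 2 * e) * ((k : ℝ) - 1) + 4 * e) := by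
    rw [h6, div_le_iff₀ (Real.rpow_pos_of_pos hx0 _), ← Real.rpow_add hx0]
    refine h5.trans (le_of_eq ?_)
    congr 1
    ring
  have h8 : M * (C * (Tr ^ (-(2 / (k : ℝ))) + 1 / x)) ≤
      2 * A * C * x ^ (1 + -((1 - 4 * e) * 2 / k)) := by
    rw [Real.rpow_add hx0, Real.rpow_one]
    have h9 : 0 ≤ C * (Tr ^ (-(2 / (k : ℝ))) + 1 / x) := by positivity
    calc M * (C * (Tr ^ (-(2 / (k : ℝ))) + 1 / x)) ≤
          (A * x) * (2 * C * x ^ (-((1 - 4 * e) * 2 / k))) :=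
          mul_le_mul hM h4 h9 (by positivity)
      _ = _ := by ring
  have h9 : 0 ≤ M * (C * (Tr ^ (-(2 / (k : ℝ))) + 1 / x)) := by positivity
  calc (Tr ^ (-(1 / (k : ℝ))) / x ^ (-(2 * e))) ^ (k - 1) / (x ^ (-(2 * e))) ^ 2 *
      (M * (C * (Tr ^ (-(2 / (k : ℝ))) + 1 / x)))
      ≤ x ^ ((-((1 - 4 * e) / k) + 2 * e) * ((k : ℝ) - 1) + 4 * e) *
        (2 * A * C * x ^ (1 + -((1 - 4 * e) * 2 / k))) :=
        mul_le_mul h7 h8 h9 (Real.rpow_pos_of_pos hx0 _).le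
    _ = 2 * A * C * x ^ (((-((1 - 4 * e) / k) + 2 * e) * ((k : ℝ) - 1) + 4 * e) +
          (1 + -((1 - 4 * e) * 2 / k))) := by
        rw [Real.rpow_add hx0 (((-((1 - 4 * e) / k) + 2 * e) * ((k : ℝ) - 1) + 4 * e))]
        ring
    _ ≤ 2 * A * C * x ^ (-(1 / (2 * (k : ℝ)))) := by
        refine mul_le_mul_of_nonneg_left ?_ (by positivity)
        refine Real.rpow_le_rpow_of_exponent_le hx ?_
        have h10 : ((-((1 - 4 * e) / k) + 2 * e) * ((k : ℝ) - 1) + 4 * e) +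
          (1 + -((1 - 4 * e) * 2 / k)) = -(1 / k) + 4 * (e * (k + 1)) / k + 2 * (e * (k + 1)) := by
          field_simp
          ring
        have h11 : e * (k + 1) = 1 / (8 * k) := by
          rw [eq_div_iff (by positivity)]
          linarith
        rw [h10, h11]
        have h12 : 1 / (k : ℝ) ≤ 1 / 3 := by
          rw [div_le_div_iff₀ hk0 (by norm_num)]
          linarith
        have h13 : 0 < 1 / (k : ℝ) := by positivity
        have h14 : 4 * (1 / (8 * (k : ℝ))) / k = (1 / k) * (1 / k) / 2 := by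
          field_simp
          norm_num
        have h15 : 2 * (1 / (8 * (k : ℝ))) = (1 / k) / 4 := by
          field_simp
          norm_num
        have h16 : 1 / (2 * (k : ℝ)) = (1 / k) / 2 := by
          field_simp
        rw [h14, h15, h16]
        nlinarith

/-- The window theorem from the second moment bound [U]. -/
theorem window_of {k : ℕ} (hk : 3 ≤ k) (A δ : ℝ) (hA : 0 < A) (hd : 0 < δ)
    (HU : ∃ C : ℝ, 0 < C ∧ ∀ n : ℕ, 2 ≤ n → ∀ (a : Lit (Fin n)) (j L T' : ℕ), 1 ≤ T' →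
      ((j + L : ℕ) : ℝ) ≤ A * n →
      It k j (fun S => NN k L T' S a ^ 2) (univ : Finset (Asg (Fin n))) ≤
        C * ((T' : ℝ) ^ (-(2 / (k : ℝ))) + 1 / n)) :
    ∃ ε : ℝ, 0 < ε ∧ ε < 1 / 2 ∧ ∃ n0 : ℕ, ∀ n : ℕ, n0 ≤ n →
      ∀ m : ℕ, (m : ℝ) ≤ A * n → u k n m ≤ 1 - δ → u k n (m - ⌈(n : ℝ) ^ (1 - ε)⌉₊) ≤ δ := by
  obtain ⟨C, hC, HU⟩ := HU
  have hk3 : (3 : ℝ) ≤ k := by exact_mod_cast hk
  have hk0 : (0 : ℝ) < k := by linarith
  set e : ℝ := 1 / (8 * k * (k + 1)) with he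
  have he0 : 0 < e := by
    rw [he]
    positivity
  have he2 : e ≤ 1 / 96 := by
    rw [he]
    rw [div_le_div_iff₀ (by positivity) (by norm_num)]
    nlinarith
  have hlim1 : Tendsto (fun n : ℕ => (n : ℝ) ^ e) atTop atTop :=
    (tendsto_rpow_atTop he0).comp tendsto_natCast_atTop_atTop
  have hlim2 : Tendsto (fun n : ℕ => 2 * A * C * (n : ℝ) ^ (-(1 / (2 * (k : ℝ))))) atTop
      (𝓝 0) := by
    have h := ((tendsto_rpow_neg_atTop (y := 1 / (2 * (k : ℝ))) (by positivity)).comp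
      tendsto_natCast_atTop_atTop).const_mul (2 * A * C)
    simpa using h
  have hev1 : ∀ᶠ n : ℕ in atTop, 4 * (A + 1) / δ ^ 2 < (n : ℝ) ^ e :=
    hlim1.eventually (eventually_gt_atTop _)
  have hev2 : ∀ᶠ n : ℕ in atTop,
      2 * A * C * (n : ℝ) ^ (-(1 / (2 * (k : ℝ)))) < δ ^ 2 / 2 :=
    hlim2.eventually (gt_mem_nhds (by positivity))
  obtain ⟨n0, hn0⟩ := eventually_atTop.1 (hev1.and hev2)
  refine ⟨e, he0, by linarith, max n0 2, fun n hn m hm hum => ?_⟩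
  have hn1 := (hn0 n (le_trans (le_max_left _ _) hn)).1
  have hn2 := (hn0 n (le_trans (le_max_left _ _) hn)).2
  have hn3 : 2 ≤ n := le_trans (le_max_right _ _) hn
  set x : ℝ := (n : ℝ) with hx
  have hx2 : 2 ≤ x := by
    rw [hx]
    exact_mod_cast hn3
  have hx1 : 1 ≤ x := by linarith
  have hx0 : 0 < x := by linarith
  by_contra hcon
  push Not at hcon
  set w : ℕ := ⌈x ^ (1 - e)⌉₊ with hw
  have hwm : w ≤ m := by
    by_contra h
    push Not at h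
    have h1 : m - w = 0 := by omega
    rw [h1, u_zero] at hcon
    linarith
  set T' : ℕ := ⌈x ^ (1 - 4 * e)⌉₊ with hT'
  have hX1 : 1 ≤ x ^ (1 - 4 * e) := Real.one_le_rpow hx1 (by linarith)
  have hT1 : x ^ (1 - 4 * e) ≤ T' := Nat.le_ceil _
  have hT2 : (T' : ℝ) ≤ 2 * x ^ (1 - 4 * e) := by
    have := (Nat.ceil_lt_add_one (by positivity : 0 ≤ x ^ (1 - 4 * e))).le
    linarith
  have hT3 : 1 ≤ T' := by
    have h1 : (1 : ℝ) ≤ T' := hX1.trans hT1
    exact_mod_cast h1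
  set y : ℝ := x ^ (-(2 * e)) with hy
  have hy0 : 0 < y := Real.rpow_pos_of_pos hx0 _
  set B : ℝ := C * ((T' : ℝ) ^ (-(2 / (k : ℝ))) + 1 / x) with hB
  have hB0 : 0 ≤ B := by positivity
  set κ : ℝ := ((T' : ℝ) ^ (-(1 / (k : ℝ))) / y) ^ (k - 1) / y ^ 2 with hκ
  have hκ0 : 0 ≤ κ := by positivity
  have hQ : κ * (m * B) ≤ δ ^ 2 / 2 :=
    (win_num hk hA hC he hx1 hT1 (Nat.cast_nonneg m) hm).trans hn2.le
  have hmono : Monotone (fun i => u k n i) := fun i j hij => u_mono k (by omega) hij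
  have hkey := avg_window (f := fun i => u k n i) hmono (fun i => u_nonneg k n i)
    (fun i => u_le_one k n i) (m := m) (w := w) (T' := T') hwm (c := y + y) (z := y)
    (Q := κ * (m * B)) (δ := δ) (by positivity) hy0 hd hcon.le hum (by
      intro r hr
      have h1 := W1' (k := k) (by omega) (n := n) (by omega) hT3 hy0 hy0 (m := r) (B := B)
        (fun j L hjL a => HU n hn3 a j L T' hT3 (by
          rw [hjL]
          have : (r : ℝ) ≤ m := by exact_mod_cast hr.le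
          linarith))
      have h2 : κ * (((r + 1 : ℕ) : ℝ) * B) ≤ κ * (m * B) := by
        refine mul_le_mul_of_nonneg_left (mul_le_mul_of_nonneg_right ?_ hB0) hκ0
        exact_mod_cast hr
      linarith)
  have hw1 : x ^ (1 - e) ≤ w := Nat.le_ceil _
  have h1 : (w : ℝ) * (δ ^ 2 / 2) ≤ w * (δ ^ 2 - κ * (m * B)) := by
    refine mul_le_mul_of_nonneg_left ?_ (Nat.cast_nonneg _)
    linarith
  have h2 : (y + y) * m ≤ 2 * A * x ^ (1 - 2 * e) := by
    have h3 : x ^ (1 - 2 * e) = y * x := by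
      rw [hy, show (1 - 2 * e) = -(2 * e) + 1 by ring, Real.rpow_add hx0, Real.rpow_one]
    rw [h3]
    have h4 := mul_le_mul_of_nonneg_left hm hy0.le
    linarith
  have h3 : (T' : ℝ) / y ≤ 2 * x ^ (1 - 2 * e) := by
    rw [div_le_iff₀ hy0, hy, mul_assoc, ← Real.rpow_add hx0]
    rw [show (1 - 2 * e) + -(2 * e) = 1 - 4 * e by ring]
    exact hT2
  have h4 : x ^ (1 - e) = x ^ e * x ^ (1 - 2 * e) := by
    rw [← Real.rpow_add hx0]
    congr 1
    ring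
  have h5 : 0 < x ^ (1 - 2 * e) := Real.rpow_pos_of_pos hx0 _
  have h6 : x ^ (1 - e) * (δ ^ 2 / 2) ≤ (2 * A + 2) * x ^ (1 - 2 * e) := by
    have h7 := mul_le_mul_of_nonneg_right hw1 (by positivity : 0 ≤ δ ^ 2 / 2)
    linarith
  rw [h4] at h6
  have h7 : x ^ e * (δ ^ 2 / 2) ≤ 2 * A + 2 := by
    have h8 : (x ^ e * (δ ^ 2 / 2)) * x ^ (1 - 2 * e) ≤ (2 * A + 2) * x ^ (1 - 2 * e) := by
      linarith
    exact le_of_mul_le_mul_right h8 h5
  rw [div_lt_iff₀ (by positivity)] at hn1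
  linarith

end KSat
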